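import Mathlib

/-!
# C^k compactness toolbox (helper828, line N3 of P207)

`CkB k M S F` : `F` is `C^k` on the open set `S`, with `‖D^j F‖ ≤ M j` on `S` for `j ≤ k`.
Main result `ck_subseq`: a `C^{k+1}`-bounded sequence on a bounded open convex set has a subsequence whose
derivatives of order `≤ k` converge uniformly to those of a `C^k` function.
-/

open Set Filter Topology Metric

noncomputable section

namespace Vale.Agent.P207.N3.H828

variable {E W : Type*} [NormedAddCommGroup E] [NormedSpace ℝ E]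
  [NormedAddCommGroup W] [NormedSpace ℝ W]

instance finDim_cmm [FiniteDimensional ℝ E] [FiniteDimensional ℝ W] (j : ℕ) :
    FiniteDimensional ℝ (E [×j]→L[ℝ] W) :=
  FiniteDimensional.of_injective
    (ContinuousMultilinearMap.toMultilinearMapLinear :
      (E [×j]→L[ℝ] W) →ₗ[ℝ] MultilinearMap ℝ (fun _ : Fin j => E) W)
    ContinuousMultilinearMap.toMultilinearMap_injective

/-- `C^k` on the open set `S` with bounds `M j` for the derivatives of order `j ≤ k` -/
def CkB (k : ℕ) (M : ℕ → ℝ) (S : Set E) (F : E → W) : Prop :=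
  ContDiffOn ℝ k F S ∧ ∀ j ≤ k, ∀ u ∈ S, ‖iteratedFDeriv ℝ j F u‖ ≤ M j

theorem CkB.mono {k l : ℕ} {M : ℕ → ℝ} {S T : Set E} {F : E → W} (h : CkB k M S F) (hl : l ≤ k)
    (hT : T ⊆ S) : CkB l M T F :=
  ⟨(h.1.of_le (by exact_mod_cast hl)).mono hT, fun j hj u hu => h.2 j (hj.trans hl) u (hT hu)⟩

theorem CkB.mono_const {k : ℕ} {M N : ℕ → ℝ} {S : Set E} {F : E → W} (h : CkB k M S F)
    (hM : ∀ j ≤ k, M j ≤ N j) : CkB k N S F :=
  ⟨h.1, fun j hj u hu => (h.2 j hj u hu).trans (hM j hj)⟩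

/-- the iterated derivative is differentiable -/
theorem hasFDerivAt_iter {k : ℕ} {S : Set E} {F : E → W} (hS : IsOpen S)
    (h : ContDiffOn ℝ (k + 1 : ℕ) F S) {j : ℕ} (hj : j ≤ k) {u : E} (hu : u ∈ S) :
    HasFDerivAt (iteratedFDeriv ℝ j F) (iteratedFDeriv ℝ (j + 1) F u).curryLeft u := by
  have h1 : ContDiffAt ℝ (k + 1 : ℕ) F u := h.contDiffAt (hS.mem_nhds hu)
  have h2 : DifferentiableAt ℝ (iteratedFDeriv ℝ j F) u :=
    h1.differentiableAt_iteratedFDeriv (by exact_mod_cast Nat.lt_succ_of_le hj)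
  have h3 := h2.hasFDerivAt
  have h4 : fderiv ℝ (iteratedFDeriv ℝ j F) u = (iteratedFDeriv ℝ (j + 1) F u).curryLeft := by
    rw [fderiv_iteratedFDeriv]
    rfl
  rwa [h4] at h3

theorem CkB.lip {k : ℕ} {M : ℕ → ℝ} {S : Set E} {F : E → W} (hS : IsOpen S) (hc : Convex ℝ S)
    (h : CkB (k + 1) M S F) {j : ℕ} (hj : j ≤ k) {u v : E} (hu : u ∈ S) (hv : v ∈ S) :
    ‖iteratedFDeriv ℝ j F v - iteratedFDeriv ℝ j F u‖ ≤ M (j + 1) * ‖v - u‖ := by
  refine hc.norm_image_sub_le_of_norm_hasFDerivWithin_le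
    (f' := fun w => (iteratedFDeriv ℝ (j + 1) F w).curryLeft)
    (fun w hw => (hasFDerivAt_iter hS h.1 hj hw).hasFDerivWithinAt) (fun w hw => ?_) hu hv
  have := h.2 (j + 1) (by omega) w hw
  simpa using this

omit [NormedSpace ℝ E] in
/-- pointwise convergence of equi-Lipschitz maps on a totally bounded set is uniform -/
theorem tendstoUniformlyOn_of_lip {X : Type*} [NormedAddCommGroup X] {S : Set E}
    (hS : TotallyBounded S) {g : ℕ → E → X} {L : E → X} {C : ℝ}
    (hg : ∀ n, ∀ u ∈ S, ∀ v ∈ S, ‖g n v - g n u‖ ≤ C * ‖v - u‖)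
    (hL : ∀ u ∈ S, Tendsto (fun n => g n u) atTop (𝓝 (L u))) :
    TendstoUniformlyOn g L atTop S := by
  have hL2 : ∀ u ∈ S, ∀ v ∈ S, ‖L v - L u‖ ≤ C * ‖v - u‖ := fun u hu v hv =>
    le_of_tendsto ((hL v hv).sub (hL u hu)).norm (Eventually.of_forall fun n => hg n u hu v hv)
  rw [Metric.tendstoUniformlyOn_iff]
  intro ε hε
  set δ := ε / (3 * (|C| + 1)) with hδ
  have hδ0 : 0 < δ := by positivity
  obtain ⟨t, htS, htf, ht⟩ := Metric.finite_approx_of_totallyBounded hS δ hδ0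
  have h1 : ∀ᶠ n in atTop, ∀ y ∈ t, dist (g n y) (L y) < ε / 3 := by
    rw [Filter.eventually_all_finite htf]
    intro y hy
    exact Metric.tendsto_nhds.1 (hL y (htS hy)) (ε / 3) (by positivity)
  filter_upwards [h1] with n hn x hx
  obtain ⟨y, hy, hxy⟩ := mem_iUnion₂.1 (ht hx)
  rw [mem_ball, dist_eq_norm] at hxy
  have hC : C * ‖x - y‖ ≤ ε / 3 := by
    have : C * ‖x - y‖ ≤ (|C| + 1) * δ := by
      calc C * ‖x - y‖ ≤ |C| * ‖x - y‖ := by gcongr; exact le_abs_self C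
        _ ≤ (|C| + 1) * δ := by gcongr; linarith
    refine this.trans (le_of_eq ?_)
    rw [hδ]; field_simp
  have h2 := hL2 y (htS hy) x hx
  have h3 := hg n y (htS hy) x hx
  have h4 := hn y hy
  rw [dist_eq_norm] at h4 ⊢
  have : L x - g n x = (L x - L y) - (g n y - L y) - (g n x - g n y) := by abel
  rw [this]
  calc _ ≤ ‖L x - L y‖ + ‖g n y - L y‖ + ‖g n x - g n y‖ := by
        refine (norm_sub_le _ _).trans ?_
        gcongr
        exact norm_sub_le _ _
    _ < ε := by linarith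

variable [FiniteDimensional ℝ E] [FiniteDimensional ℝ W]

/-- **Arzela-Ascoli in `C^k`.** -/
theorem ck_subseq {k : ℕ} {M : ℕ → ℝ} {S : Set E} (hS : IsOpen S) (hc : Convex ℝ S)
    (hb : Bornology.IsBounded S) {F : ℕ → E → W} (hF : ∀ n, CkB (k + 1) M S (F n)) :
    ∃ φ : ℕ → ℕ, StrictMono φ ∧ ∃ G : E → W, CkB k M S G ∧
      (∀ j ≤ k, TendstoUniformlyOn (fun n => iteratedFDeriv ℝ j (F (φ n))) (iteratedFDeriv ℝ j G)
        atTop S) ∧
      (∀ j ≤ k, ∀ u ∈ S, ∀ v ∈ S,
        ‖iteratedFDeriv ℝ j G v - iteratedFDeriv ℝ j G u‖ ≤ M (j + 1) * ‖v - u‖) := by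
  classical
  have hpE : ProperSpace E := FiniteDimensional.proper ℝ E
  have hpW : ∀ j, ProperSpace (E [×j]→L[ℝ] W) := fun j => FiniteDimensional.proper ℝ _
  have hTB : TotallyBounded S := hb.isCompact_closure.totallyBounded.subset subset_closure
  -- a countable dense subset of S
  obtain ⟨D, hDS, hDc, hDd⟩ :=
    (TopologicalSpace.IsSeparable.of_separableSpace S).exists_countable_dense_subset
  have hDc' : Countable D := hDc.to_subtype
  let g : ℕ → (D → (j : Fin (k + 1)) → (E [×(j : ℕ)]→L[ℝ] W)) := fun n d j =>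
    iteratedFDeriv ℝ j (F n) d
  let KK : Set (D → (j : Fin (k + 1)) → (E [×(j : ℕ)]→L[ℝ] W)) :=
    Set.pi univ fun _ => Set.pi univ fun j => closedBall 0 (M j)
  have hKK : IsCompact KK := isCompact_univ_pi fun _ => isCompact_univ_pi fun j =>
    isCompact_closedBall _ _
  have hgK : ∀ n, g n ∈ KK := by
    intro n d _ j _
    rw [mem_closedBall_zero_iff]
    exact (hF n).2 j (by omega) d (hDS d.2)
  obtain ⟨a, -, φ, hφ, hlim⟩ := hKK.tendsto_subseq hgK
  have hpt : ∀ j ≤ k, ∀ d ∈ D, ∃ l, Tendsto (fun n => iteratedFDeriv ℝ j (F (φ n)) d) atTop (𝓝 l) := by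
    intro j hj d hd
    refine ⟨a ⟨d, hd⟩ ⟨j, by omega⟩, ?_⟩
    have h1 := tendsto_pi_nhds.1 hlim ⟨d, hd⟩
    exact tendsto_pi_nhds.1 h1 ⟨j, by omega⟩
  -- convergence everywhere
  have hall : ∀ j ≤ k, ∀ u ∈ S, ∃ l, Tendsto (fun n => iteratedFDeriv ℝ j (F (φ n)) u) atTop (𝓝 l) := by
    intro j hj u hu
    have hcom : CompleteSpace (E [×j]→L[ℝ] W) := FiniteDimensional.complete ℝ _
    refine cauchySeq_tendsto_of_complete (Metric.cauchySeq_iff'.2 fun ε hε => ?_)
    set δ := ε / (4 * (|M (j + 1)| + 1)) with hδ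
    have hδ0 : 0 < δ := by positivity
    obtain ⟨d, hdD, hd⟩ := Metric.mem_closure_iff.1 (hDd hu) δ hδ0
    obtain ⟨l, hl⟩ := hpt j hj d hdD
    obtain ⟨N, hN⟩ := Metric.cauchySeq_iff'.1 hl.cauchySeq (ε / 4) (by positivity)
    refine ⟨N, fun n hn => ?_⟩
    have h1 := hN n hn
    rw [dist_eq_norm] at h1 hd ⊢
    have hC : ∀ m, ‖iteratedFDeriv ℝ j (F (φ m)) u - iteratedFDeriv ℝ j (F (φ m)) d‖ ≤ ε / 4 := by
      intro m
      refine ((hF (φ m)).lip hS hc hj (hDS hdD) hu).trans ?_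
      calc M (j + 1) * ‖u - d‖ ≤ |M (j + 1)| * ‖u - d‖ := by gcongr; exact le_abs_self _
        _ ≤ (|M (j + 1)| + 1) * δ := by gcongr; linarith
        _ = ε / 4 := by rw [hδ]; field_simp
    have h2 := hC n
    have h3 := hC N
    have : iteratedFDeriv ℝ j (F (φ n)) u - iteratedFDeriv ℝ j (F (φ N)) u =
        (iteratedFDeriv ℝ j (F (φ n)) u - iteratedFDeriv ℝ j (F (φ n)) d) -
        (iteratedFDeriv ℝ j (F (φ N)) u - iteratedFDeriv ℝ j (F (φ N)) d) +
        (iteratedFDeriv ℝ j (F (φ n)) d - iteratedFDeriv ℝ j (F (φ N)) d) := by abel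
    rw [this]
    calc _ ≤ ‖iteratedFDeriv ℝ j (F (φ n)) u - iteratedFDeriv ℝ j (F (φ n)) d‖ +
        ‖iteratedFDeriv ℝ j (F (φ N)) u - iteratedFDeriv ℝ j (F (φ N)) d‖ +
        ‖iteratedFDeriv ℝ j (F (φ n)) d - iteratedFDeriv ℝ j (F (φ N)) d‖ := by
          refine (norm_add_le _ _).trans ?_
          gcongr
          exact norm_sub_le _ _
      _ < ε := by linarith
  choose! L hL using hall
  have hunif : ∀ j ≤ k, TendstoUniformlyOn (fun n => iteratedFDeriv ℝ j (F (φ n))) (L j) atTop S :=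
    fun j hj => tendstoUniformlyOn_of_lip hTB
      (fun n u hu v hv => (hF (φ n)).lip hS hc hj hu hv) (hL j hj)
  let G : E → W := fun u => (L 0 u).curry0
  let p : E → FormalMultilinearSeries ℝ E W := fun u j => L j u
  have hcont : ∀ j ≤ k, ContinuousOn (L j) S := fun j hj =>
    (hunif j hj).continuousOn (Eventually.of_forall fun n =>
      fun u hu => (hasFDerivAt_iter hS (hF (φ n)).1 hj hu).continuousAt.continuousWithinAt).frequently
  have hTS : HasFTaylorSeriesUpToOn k G p S := by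
    refine ⟨fun u hu => rfl, fun m hm u hu => ?_, fun m hm => hcont m (by exact_mod_cast hm)⟩
    have hm' : m < k := by exact_mod_cast hm
    refine HasFDerivAt.hasFDerivWithinAt ?_
    refine hasFDerivAt_of_tendstoUniformlyOn hS
      (f := fun n => iteratedFDeriv ℝ m (F (φ n)))
      (f' := fun n w => (iteratedFDeriv ℝ (m + 1) (F (φ n)) w).curryLeft)
      (g := L m) (g' := fun w => (L (m + 1) w).curryLeft) ?_ ?_ (fun w hw => hL m hm'.le w hw) hu
    · have := hunif (m + 1) hm'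
      rw [Metric.tendstoUniformlyOn_iff] at this ⊢
      intro ε hε
      filter_upwards [this ε hε] with n hn w hw
      have := hn w hw
      rw [dist_eq_norm] at this ⊢
      rw [← ContinuousMultilinearMap.curryLeft_norm] at this
      exact this
    · intro n w hw
      exact hasFDerivAt_iter hS (hF (φ n)).1 hm'.le hw
  have heq : ∀ j ≤ k, ∀ u ∈ S, iteratedFDeriv ℝ j G u = L j u := by
    intro j hj u hu
    rw [← iteratedFDerivWithin_of_isOpen j hS hu]
    exact (hTS.eq_iteratedFDerivWithin_of_uniqueDiffOn (by exact_mod_cast hj) hS.uniqueDiffOn hu).symm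
  refine ⟨φ, hφ, G, ⟨hTS.contDiffOn, fun j hj u hu => ?_⟩, fun j hj => ?_, fun j hj u hu v hv => ?_⟩
  · rw [heq j hj u hu]
    exact le_of_tendsto (hL j hj u hu).norm
      (Eventually.of_forall fun n => (hF (φ n)).2 j (by omega) u hu)
  · exact (hunif j hj).congr_right fun u hu => (heq j hj u hu).symm
  · rw [heq j hj u hu, heq j hj v hv]
    exact le_of_tendsto ((hL j hj v hv).sub (hL j hj u hu)).norm
      (Eventually.of_forall fun n => (hF (φ n)).lip hS hc hj hu hv)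

end Vale.Agent.P207.N3.H828
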