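import Vale.Agent.P207.N3.H828.CK

/-!
# C^k compactness toolbox, part 2 (helper828, line N3 of P207)

All orders at once, pairs, closure properties of `CkB`.
-/

open Set Filter Topology Metric

noncomputable section

namespace Vale.Agent.P207.N3.H828

variable {E W W' : Type*} [NormedAddCommGroup E] [NormedSpace ℝ E]
  [NormedAddCommGroup W] [NormedSpace ℝ W] [NormedAddCommGroup W'] [NormedSpace ℝ W']

theorem tendstoUniformlyOn_sub {X Y : Type*} [UniformSpace Y] {f : ℕ → X → Y} {g : X → Y} {S : Set X}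
    (h : TendstoUniformlyOn f g atTop S) {ψ : ℕ → ℕ} (hψ : StrictMono ψ) :
    TendstoUniformlyOn (fun n => f (ψ n)) g atTop S :=
  fun u hu => hψ.tendsto_atTop.eventually (h u hu)

variable [FiniteDimensional ℝ E] [FiniteDimensional ℝ W] [FiniteDimensional ℝ W']

/-- **Arzela-Ascoli in `C^∞`**: all derivatives bounded, a subsequence converges with all derivatives. -/
theorem ck_subseq_top {M : ℕ → ℝ} {S : Set E} (hS : IsOpen S) (hc : Convex ℝ S)
    (hb : Bornology.IsBounded S) {F : ℕ → E → W} (hF : ∀ k n, CkB k M S (F n)) :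
    ∃ φ : ℕ → ℕ, StrictMono φ ∧ ∃ G : E → W, (∀ k, CkB k M S G) ∧
      (∀ j, TendstoUniformlyOn (fun n => iteratedFDeriv ℝ j (F (φ n))) (iteratedFDeriv ℝ j G)
        atTop S) := by
  classical
  have hpE : ProperSpace E := FiniteDimensional.proper ℝ E
  have hpW : ∀ j, ProperSpace (E [×j]→L[ℝ] W) := fun j => FiniteDimensional.proper ℝ _
  have hTB : TotallyBounded S := hb.isCompact_closure.totallyBounded.subset subset_closure
  obtain ⟨D, hDS, hDc, hDd⟩ :=
    (TopologicalSpace.IsSeparable.of_separableSpace S).exists_countable_dense_subset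
  have hDc' : Countable D := hDc.to_subtype
  let g : ℕ → (D → (j : ℕ) → (E [×j]→L[ℝ] W)) := fun n d j => iteratedFDeriv ℝ j (F n) d
  let KK : Set (D → (j : ℕ) → (E [×j]→L[ℝ] W)) :=
    Set.pi univ fun _ => Set.pi univ fun j => closedBall 0 (M j)
  have hKK : IsCompact KK := isCompact_univ_pi fun _ => isCompact_univ_pi fun j =>
    isCompact_closedBall _ _
  have hgK : ∀ n, g n ∈ KK := by
    intro n d _ j _
    rw [mem_closedBall_zero_iff]
    exact (hF j n).2 j le_rfl d (hDS d.2)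
  obtain ⟨a, -, φ, hφ, hlim⟩ := hKK.tendsto_subseq hgK
  have hpt : ∀ j, ∀ d ∈ D, ∃ l, Tendsto (fun n => iteratedFDeriv ℝ j (F (φ n)) d) atTop (𝓝 l) := by
    intro j d hd
    refine ⟨a ⟨d, hd⟩ j, ?_⟩
    have h1 := tendsto_pi_nhds.1 hlim ⟨d, hd⟩
    exact tendsto_pi_nhds.1 h1 j
  have hall : ∀ j, ∀ u ∈ S, ∃ l, Tendsto (fun n => iteratedFDeriv ℝ j (F (φ n)) u) atTop (𝓝 l) := by
    intro j u hu
    have hcom : CompleteSpace (E [×j]→L[ℝ] W) := FiniteDimensional.complete ℝ _
    refine cauchySeq_tendsto_of_complete (Metric.cauchySeq_iff'.2 fun ε hε => ?_)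
    set δ := ε / (4 * (|M (j + 1)| + 1)) with hδ
    have hδ0 : 0 < δ := by positivity
    obtain ⟨d, hdD, hd⟩ := Metric.mem_closure_iff.1 (hDd hu) δ hδ0
    obtain ⟨l, hl⟩ := hpt j d hdD
    obtain ⟨N, hN⟩ := Metric.cauchySeq_iff'.1 hl.cauchySeq (ε / 4) (by positivity)
    refine ⟨N, fun n hn => ?_⟩
    have h1 := hN n hn
    rw [dist_eq_norm] at h1 hd ⊢
    have hC : ∀ m, ‖iteratedFDeriv ℝ j (F (φ m)) u - iteratedFDeriv ℝ j (F (φ m)) d‖ ≤ ε / 4 := by
      intro m
      refine ((hF (j + 1) (φ m)).lip hS hc le_rfl (hDS hdD) hu).trans ?_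
      calc M (j + 1) * ‖u - d‖ ≤ |M (j + 1)| * ‖u - d‖ := by gcongr; exact le_abs_self _
        _ ≤ (|M (j + 1)| + 1) * δ := by gcongr; linarith
        _ = ε / 4 := by rw [hδ]; field_simp
    have h2 := hC n
    have h3 := hC N
    have : iteratedFDeriv ℝ j (F (φ n)) u - iteratedFDeriv ℝ j (F (φ N)) u =
        (iteratedFDeriv ℝ j (F (φ n)) u - iteratedFDeriv ℝ j (F (φ n)) d) -
        (iteratedFDeriv ℝ j (F (φ N)) u - iteratedFDeriv ℝ j (F (φ N)) d) +
        (iteratedFDeriv ℝ j (F (φ n)) d - iteratedFDeriv ℝ j (F (φ N)) d) := by abel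
    rw [this]
    calc _ ≤ ‖iteratedFDeriv ℝ j (F (φ n)) u - iteratedFDeriv ℝ j (F (φ n)) d‖ +
        ‖iteratedFDeriv ℝ j (F (φ N)) u - iteratedFDeriv ℝ j (F (φ N)) d‖ +
        ‖iteratedFDeriv ℝ j (F (φ n)) d - iteratedFDeriv ℝ j (F (φ N)) d‖ := by
          refine (norm_add_le _ _).trans ?_
          gcongr
          exact norm_sub_le _ _
      _ < ε := by linarith
  choose! L hL using hall
  have hunif : ∀ j, TendstoUniformlyOn (fun n => iteratedFDeriv ℝ j (F (φ n))) (L j) atTop S :=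
    fun j => tendstoUniformlyOn_of_lip hTB
      (fun n u hu v hv => (hF (j + 1) (φ n)).lip hS hc le_rfl hu hv) (hL j)
  let G : E → W := fun u => (L 0 u).curry0
  let p : E → FormalMultilinearSeries ℝ E W := fun u j => L j u
  have hcont : ∀ j, ContinuousOn (L j) S := fun j =>
    (hunif j).continuousOn (Eventually.of_forall fun n =>
      fun u hu => (hasFDerivAt_iter (k := j) hS (hF (j + 1) (φ n)).1 le_rfl
        hu).continuousAt.continuousWithinAt).frequently
  have hTS : ∀ k : ℕ, HasFTaylorSeriesUpToOn k G p S := by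
    intro k
    refine ⟨fun u hu => rfl, fun m hm u hu => ?_, fun m hm => hcont m⟩
    refine HasFDerivAt.hasFDerivWithinAt ?_
    refine hasFDerivAt_of_tendstoUniformlyOn hS
      (f := fun n => iteratedFDeriv ℝ m (F (φ n)))
      (f' := fun n w => (iteratedFDeriv ℝ (m + 1) (F (φ n)) w).curryLeft)
      (g := L m) (g' := fun w => (L (m + 1) w).curryLeft) ?_ ?_ (fun w hw => hL m w hw) hu
    · have := hunif (m + 1)
      rw [Metric.tendstoUniformlyOn_iff] at this ⊢
      intro ε hε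
      filter_upwards [this ε hε] with n hn w hw
      have := hn w hw
      rw [dist_eq_norm] at this ⊢
      rw [← ContinuousMultilinearMap.curryLeft_norm] at this
      exact this
    · intro n w hw
      exact hasFDerivAt_iter (k := m) hS (hF (m + 1) (φ n)).1 le_rfl hw
  have heq : ∀ j, ∀ u ∈ S, iteratedFDeriv ℝ j G u = L j u := by
    intro j u hu
    rw [← iteratedFDerivWithin_of_isOpen j hS hu]
    exact ((hTS j).eq_iteratedFDerivWithin_of_uniqueDiffOn le_rfl hS.uniqueDiffOn hu).symm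
  refine ⟨φ, hφ, G, fun k => ⟨(hTS k).contDiffOn, fun j hj u hu => ?_⟩, fun j => ?_⟩
  · rw [heq j u hu]
    exact le_of_tendsto (hL j u hu).norm
      (Eventually.of_forall fun n => (hF j (φ n)).2 j le_rfl u hu)
  · exact (hunif j).congr_right fun u hu => (heq j u hu).symm

/-- common subsequence for pairs -/
theorem ck_subseq_pair {k : ℕ} {M M' : ℕ → ℝ} {S : Set E} (hS : IsOpen S) (hc : Convex ℝ S)
    (hb : Bornology.IsBounded S) {F : ℕ → E → W} (hF : ∀ n, CkB (k + 1) M S (F n))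
    {F' : ℕ → E → W'} (hF' : ∀ n, CkB (k + 1) M' S (F' n)) :
    ∃ φ : ℕ → ℕ, StrictMono φ ∧ ∃ G : E → W, ∃ G' : E → W', CkB k M S G ∧ CkB k M' S G' ∧
      (∀ j ≤ k, TendstoUniformlyOn (fun n => iteratedFDeriv ℝ j (F (φ n))) (iteratedFDeriv ℝ j G)
        atTop S) ∧
      (∀ j ≤ k, TendstoUniformlyOn (fun n => iteratedFDeriv ℝ j (F' (φ n))) (iteratedFDeriv ℝ j G')
        atTop S) := by
  obtain ⟨φ, hφ, G, hG, hG2, -⟩ := ck_subseq hS hc hb hF
  obtain ⟨ψ, hψ, G', hG', hG2', -⟩ := ck_subseq hS hc hb (fun n => hF' (φ n))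
  exact ⟨φ ∘ ψ, hφ.comp hψ, G, G', hG, hG', fun j hj => tendstoUniformlyOn_sub (hG2 j hj) hψ,
    fun j hj => hG2' j hj⟩

omit [FiniteDimensional ℝ E] [FiniteDimensional ℝ W] in
/-- uniform convergence of the `0`-th derivatives is uniform convergence of the functions -/
theorem tendstoUniformlyOn_of_zero {S : Set E} {F : ℕ → E → W} {G : E → W}
    (h : TendstoUniformlyOn (fun n => iteratedFDeriv ℝ 0 (F n)) (iteratedFDeriv ℝ 0 G) atTop S) :
    TendstoUniformlyOn F G atTop S := by
  rw [Metric.tendstoUniformlyOn_iff] at h ⊢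
  intro ε hε
  filter_upwards [h ε hε] with n hn u hu
  have := hn u hu
  rw [dist_eq_norm] at this ⊢
  rw [iteratedFDeriv_zero_eq_comp, iteratedFDeriv_zero_eq_comp, Function.comp_apply,
    Function.comp_apply, ← map_sub, LinearIsometryEquiv.norm_map] at this
  exact this

omit [FiniteDimensional ℝ E] [FiniteDimensional ℝ W] in
/-- uniform convergence of the first derivatives -/
theorem tendstoUniformlyOn_fderiv {S : Set E} {F : ℕ → E → W} {G : E → W}
    (h : TendstoUniformlyOn (fun n => iteratedFDeriv ℝ 1 (F n)) (iteratedFDeriv ℝ 1 G) atTop S) :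
    TendstoUniformlyOn (fun n => fderiv ℝ (F n)) (fderiv ℝ G) atTop S := by
  rw [Metric.tendstoUniformlyOn_iff] at h ⊢
  intro ε hε
  filter_upwards [h ε hε] with n hn u hu
  have := hn u hu
  rw [dist_eq_norm] at this ⊢
  have key : ∀ f : E → W, iteratedFDeriv ℝ 1 f u =
      (continuousMultilinearCurryFin1 ℝ E W).symm (fderiv ℝ f u) := by
    intro f
    ext m
    simp
  rw [key, key, ← map_sub, LinearIsometryEquiv.norm_map] at this
  exact this

end Vale.Agent.P207.N3.H828
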