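import Vale.Agent.P207.N3.H828.CK

/-!
# Limits of C^k-bounded families along ultrafilters (helper828, line N3 of P207)
-/

open Set Filter Topology Metric

noncomputable section

namespace Vale.Agent.P207.N3.H828

variable {E W : Type*} [NormedAddCommGroup E] [NormedSpace ℝ E]
  [NormedAddCommGroup W] [NormedSpace ℝ W]

omit [NormedSpace ℝ E] in
/-- pointwise convergence of equi-Lipschitz maps on a totally bounded set is uniform -/
theorem tendstoUniformlyOn_of_lip' {ι X : Type*} [NormedAddCommGroup X] {l : Filter ι} [NeBot l]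
    {S : Set E} (hS : TotallyBounded S) {g : ι → E → X} {L : E → X} {C : ℝ}
    (hg : ∀ n, ∀ u ∈ S, ∀ v ∈ S, ‖g n v - g n u‖ ≤ C * ‖v - u‖)
    (hL : ∀ u ∈ S, Tendsto (fun n => g n u) l (𝓝 (L u))) :
    TendstoUniformlyOn g L l S := by
  have hL2 : ∀ u ∈ S, ∀ v ∈ S, ‖L v - L u‖ ≤ C * ‖v - u‖ := fun u hu v hv =>
    le_of_tendsto ((hL v hv).sub (hL u hu)).norm (Eventually.of_forall fun n => hg n u hu v hv)
  rw [Metric.tendstoUniformlyOn_iff]
  intro ε hε
  set δ := ε / (3 * (|C| + 1)) with hδ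
  have hδ0 : 0 < δ := by positivity
  obtain ⟨t, htS, htf, ht⟩ := Metric.finite_approx_of_totallyBounded hS δ hδ0
  have h1 : ∀ᶠ n in l, ∀ y ∈ t, dist (g n y) (L y) < ε / 3 := by
    rw [Filter.eventually_all_finite htf]
    intro y hy
    exact Metric.tendsto_nhds.1 (hL y (htS hy)) (ε / 3) (by positivity)
  filter_upwards [h1] with n hn x hx
  obtain ⟨y, hy, hxy⟩ := mem_iUnion₂.1 (ht hx)
  rw [mem_ball, dist_eq_norm] at hxy
  have hC : C * ‖x - y‖ ≤ ε / 3 := by
    have : C * ‖x - y‖ ≤ (|C| + 1) * δ := by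
      calc C * ‖x - y‖ ≤ |C| * ‖x - y‖ := by gcongr; exact le_abs_self C
        _ ≤ (|C| + 1) * δ := by gcongr; linarith
    refine this.trans (le_of_eq ?_)
    rw [hδ]; field_simp
  have h2 := hL2 y (htS hy) x hx
  have h3 := hg n y (htS hy) x hx
  have h4 := hn y hy
  rw [dist_eq_norm] at h4 ⊢
  have : L x - g n x = (L x - L y) - (g n y - L y) - (g n x - g n y) := by abel
  rw [this]
  calc _ ≤ ‖L x - L y‖ + ‖g n y - L y‖ + ‖g n x - g n y‖ := by
        refine (norm_sub_le _ _).trans ?_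
        gcongr
        exact norm_sub_le _ _
    _ < ε := by linarith

variable [FiniteDimensional ℝ E]

/-- limits of `C^{k+1}`-bounded families whose derivatives of order `≤ k` converge pointwise -/
theorem ck_lim {ι : Type*} {l : Filter ι} [NeBot l] {k : ℕ} {M : ℕ → ℝ} {S : Set E}
    (hS : IsOpen S) (hc : Convex ℝ S)
    (hb : Bornology.IsBounded S) {F : ι → E → W} (hF : ∀ n, CkB (k + 1) M S (F n))
    {L : (j : ℕ) → E → (E [×j]→L[ℝ] W)}
    (hL : ∀ j ≤ k, ∀ u ∈ S, Tendsto (fun n => iteratedFDeriv ℝ j (F n) u) l (𝓝 (L j u))) :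
    CkB k M S (fun u => (L 0 u).curry0) ∧
    (∀ j ≤ k, ∀ u ∈ S, iteratedFDeriv ℝ j (fun u => (L 0 u).curry0) u = L j u) ∧
    (∀ j ≤ k, TendstoUniformlyOn (fun n => iteratedFDeriv ℝ j (F n)) (L j) l S) := by
  have hpE : ProperSpace E := FiniteDimensional.proper ℝ E
  have hTB : TotallyBounded S := hb.isCompact_closure.totallyBounded.subset subset_closure
  have hunif : ∀ j ≤ k, TendstoUniformlyOn (fun n => iteratedFDeriv ℝ j (F n)) (L j) l S :=
    fun j hj => tendstoUniformlyOn_of_lip' hTB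
      (fun n u hu v hv => (hF n).lip hS hc hj hu hv) (hL j hj)
  let G : E → W := fun u => (L 0 u).curry0
  let p : E → FormalMultilinearSeries ℝ E W := fun u j => L j u
  have hcont : ∀ j ≤ k, ContinuousOn (L j) S := fun j hj =>
    (hunif j hj).continuousOn (Eventually.of_forall fun n =>
      fun u hu => (hasFDerivAt_iter hS (hF n).1 hj hu).continuousAt.continuousWithinAt).frequently
  have hTS : HasFTaylorSeriesUpToOn k G p S := by
    refine ⟨fun u hu => rfl, fun m hm u hu => ?_, fun m hm => hcont m (by exact_mod_cast hm)⟩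
    have hm' : m < k := by exact_mod_cast hm
    refine HasFDerivAt.hasFDerivWithinAt ?_
    refine hasFDerivAt_of_tendstoUniformlyOn hS
      (f := fun n => iteratedFDeriv ℝ m (F n))
      (f' := fun n w => (iteratedFDeriv ℝ (m + 1) (F n) w).curryLeft)
      (g := L m) (g' := fun w => (L (m + 1) w).curryLeft) ?_ ?_ (fun w hw => hL m hm'.le w hw) hu
    · have := hunif (m + 1) hm'
      rw [Metric.tendstoUniformlyOn_iff] at this ⊢
      intro ε hε
      filter_upwards [this ε hε] with n hn w hw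
      have := hn w hw
      rw [dist_eq_norm] at this ⊢
      rw [← ContinuousMultilinearMap.curryLeft_norm] at this
      exact this
    · intro n w hw
      exact hasFDerivAt_iter hS (hF n).1 hm'.le hw
  have heq : ∀ j ≤ k, ∀ u ∈ S, iteratedFDeriv ℝ j G u = L j u := by
    intro j hj u hu
    rw [← iteratedFDerivWithin_of_isOpen j hS hu]
    exact (hTS.eq_iteratedFDerivWithin_of_uniqueDiffOn (by exact_mod_cast hj) hS.uniqueDiffOn hu).symm
  refine ⟨⟨hTS.contDiffOn, fun j hj u hu => ?_⟩, heq, hunif⟩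
  rw [heq j hj u hu]
  exact le_of_tendsto (hL j hj u hu).norm
    (Eventually.of_forall fun n => (hF n).2 j (by omega) u hu)

/-- a bounded family converges along an ultrafilter -/
theorem exists_ulim {V ι : Type*} [NormedAddCommGroup V] [ProperSpace V] (U : Ultrafilter ι)
    {a : ι → V} {C : ℝ} (ha : ∀ n, ‖a n‖ ≤ C) : ∃ v, Tendsto a U (𝓝 v) := by
  have hK : IsCompact (closedBall (0 : V) C) := isCompact_closedBall _ _
  obtain ⟨v, -, hv⟩ := hK.ultrafilter_le_nhds (U.map a) (by
    rw [Ultrafilter.coe_map, le_principal_iff, mem_map]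
    exact Filter.univ_mem' fun n => by simpa using ha n)
  exact ⟨v, by simpa [Tendsto] using hv⟩

/-- the limit of a `C^{k+1}`-bounded family along an ultrafilter -/
theorem ck_ulim [FiniteDimensional ℝ W] {ι : Type*} (U : Ultrafilter ι) {k : ℕ} {M : ℕ → ℝ} {S : Set E}
    (hS : IsOpen S) (hc : Convex ℝ S)
    (hb : Bornology.IsBounded S) {F : ι → E → W} (hF : ∀ n, CkB (k + 1) M S (F n)) :
    ∃ G : E → W, CkB k M S G ∧
      (∀ j ≤ k, TendstoUniformlyOn (fun n => iteratedFDeriv ℝ j (F n)) (iteratedFDeriv ℝ j G) U S) ∧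
      (∀ u ∈ S, Tendsto (fun n => F n u) U (𝓝 (G u))) := by
  have hpW : ∀ j, ProperSpace (E [×j]→L[ℝ] W) := fun j => FiniteDimensional.proper ℝ _
  have hex : ∀ j ≤ k, ∀ u ∈ S, ∃ v, Tendsto (fun n => iteratedFDeriv ℝ j (F n) u) U (𝓝 v) :=
    fun j hj u hu => exists_ulim U fun n => (hF n).2 j (by omega) u hu
  choose! L hL using hex
  obtain ⟨h1, h2, h3⟩ := ck_lim (l := (U : Filter ι)) hS hc hb hF hL
  refine ⟨_, h1, fun j hj => (h3 j hj).congr_right fun u hu => (h2 j hj u hu).symm, fun u hu => ?_⟩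
  have h4 := hL 0 (Nat.zero_le _) u hu
  have h5 : Continuous fun q : E [×0]→L[ℝ] W => q.curry0 :=
    (continuousMultilinearCurryFin0 ℝ E W).continuous
  have h6 := (h5.tendsto (L 0 u)).comp h4
  simpa [Function.comp_def, iteratedFDeriv_zero_apply] using h6

end Vale.Agent.P207.N3.H828
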