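import Vale.Agent.P207.N3.H828.Homog
import Vale.Agent.P207.N3.Top.Defs

/-!
# (1.3*): in the rough case two directions with smooth `E^s(df,·)` are dependent
(helper828, line N3 of P207)
-/

open Set Filter Topology Metric
open scoped ContDiff

noncomputable section

namespace Vale.Agent.P207.N3.H828

open Vale.Agent.P207.N3

/-- the area form of the plane -/
def cr (p q : E2) : ℝ := p 0 * q 1 - p 1 * q 0

/-- `v ↦ cr v q` -/
def crL (q : E2) : E2 →L[ℝ] ℝ :=
  (q 1) • EuclideanSpace.proj (𝕜 := ℝ) (0 : Fin 2) - (q 0) • EuclideanSpace.proj (𝕜 := ℝ) (1 : Fin 2)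

theorem crL_apply (v q : E2) : crL q v = cr v q := by
  simp [crL, cr]; ring

theorem cr_swap (p q : E2) : cr p q = - cr q p := by unfold cr; ring

theorem cr_span (p q v : E2) : cr p q • v = cr v q • p + cr p v • q := by
  ext i
  fin_cases i <;> simp [cr] <;> ring

/-- the linear map with prescribed values on two vectors -/
theorem clm_eq {N : E2 →L[ℝ] E2} {p q : E2} (h : cr p q ≠ 0) :
    N = (cr p q)⁻¹ • ((crL q).smulRight (N p) - (crL p).smulRight (N q)) := by
  ext1 v
  have h1 := congrArg N (cr_span p q v)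
  rw [map_smul, map_add, map_smul, map_smul] at h1
  have h2 : N v = (cr p q)⁻¹ • (cr v q • N p + cr p v • N q) := by
    rw [← h1, inv_smul_smul₀ h]
  rw [h2]
  simp only [FunLike.coe_smul, Pi.smul_apply, FunLike.coe_sub, Pi.sub_apply,
    ContinuousLinearMap.smulRight_apply, crL_apply]
  rw [cr_swap p v, neg_smul, sub_eq_add_neg]

theorem contDiffOn_crL {n : ℕ∞ω} {s : Set E2} {p : E2 → E2} (hp : ContDiffOn ℝ n p s) :
    ContDiffOn ℝ n (fun u => crL (p u)) s := by
  have h0 : ContDiffOn ℝ n (fun u => p u 0) s :=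
    (EuclideanSpace.proj (𝕜 := ℝ) (0 : Fin 2) : E2 →L[ℝ] ℝ).contDiff.comp_contDiffOn hp
  have h1 : ContDiffOn ℝ n (fun u => p u 1) s :=
    (EuclideanSpace.proj (𝕜 := ℝ) (1 : Fin 2) : E2 →L[ℝ] ℝ).contDiff.comp_contDiffOn hp
  exact (h1.smul contDiffOn_const).sub (h0.smul contDiffOn_const)

theorem contDiffOn_cr {n : ℕ∞ω} {s : Set E2} {p q : E2 → E2} (hp : ContDiffOn ℝ n p s)
    (hq : ContDiffOn ℝ n q s) : ContDiffOn ℝ n (fun u => cr (p u) (q u)) s := by
  have h := (contDiffOn_crL hq).clm_apply hp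
  refine h.congr fun u _ => ?_
  rw [crL_apply]

/-- `DG ∧ DG'` is the area of the gradients -/
theorem wedge_iff {G G' : E2 → ℝ} {u : E2} (hG : DifferentiableAt ℝ G u)
    (hG' : DifferentiableAt ℝ G' u) (v w : E2) :
    fderiv ℝ G u v * fderiv ℝ G' u w - fderiv ℝ G u w * fderiv ℝ G' u v =
      cr (gradient G u) (gradient G' u) * cr v w := by
  have e : ∀ {H : E2 → ℝ}, DifferentiableAt ℝ H u → ∀ z : E2,
      fderiv ℝ H u z = gradient H u 0 * z 0 + gradient H u 1 * z 1 := by
    intro H hH z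
    have h1 : fderiv ℝ H u z = inner ℝ (gradient H u) z := by
      have h2 := hH.hasGradientAt.hasFDerivAt.fderiv
      rw [h2]
      simp
    rw [h1, PiLp.inner_apply, Fin.sum_univ_two]
    simp only [RCLike.inner_apply, conj_trivial]
    ring
  rw [e hG v, e hG w, e hG' v, e hG' w]
  unfold cr
  ring

variable {Γ X B : Type} [Group Γ] [MetricSpace X] [ProperSpace X] [MulAction Γ X]
  [IsIsometricSMul Γ X] [TopologicalSpace B] [CompactSpace B] [T2Space B] [MulAction Γ B]
  [ContinuousConstSMul Γ B]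

/-- the gradient of a smooth function is smooth -/
theorem contDiffOn_gradient {k : ℕ} {s : Set E2} (hs : IsOpen s) {G : E2 → ℝ}
    (hG : ContDiffOn ℝ (k + 1 : ℕ) G s) : ContDiffOn ℝ k (gradient G) s := by
  have h1 : ContDiffOn ℝ k (fderiv ℝ G) s := hG.fderiv_of_isOpen hs (by norm_cast)
  have h2 : gradient G = fun u => (InnerProductSpace.toDual ℝ E2).symm (fderiv ℝ G u) := rfl
  rw [h2]
  have h3 : ContDiff ℝ k fun A : E2 →L[ℝ] ℝ => (InnerProductSpace.toDual ℝ E2).symm A := by
    have h4 : IsBoundedLinearMap ℝ fun A : E2 →L[ℝ] ℝ => (InnerProductSpace.toDual ℝ E2).symm A := by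
      refine ⟨⟨fun a b => map_add _ a b, fun c a => ?_⟩, 1, one_pos, fun a => ?_⟩
      · rw [map_smulₛₗ]; simp
      · rw [LinearIsometryEquiv.norm_map, one_mul]
    exact h4.contDiff
  exact h3.comp_contDiffOn h1

/-- **(1.3\*)** -/
theorem star {L : Leaf Γ X B} (T : Tens L) {k₀ : ℕ} (hR : Rough T k₀) {w : X} {r : ℝ} (hr : r ≤ 3)
    {G G' : E2 → ℝ} (hG : ContDiffOn ℝ (k₀ + 1 : ℕ) G (ball 0 r))
    (hG' : ContDiffOn ℝ (k₀ + 1 : ℕ) G' (ball 0 r))
    (hW : ContDiffOn ℝ k₀ (fun u => T.N w u (gradient G u)) (ball 0 r))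
    (hW' : ContDiffOn ℝ k₀ (fun u => T.N w u (gradient G' u)) (ball 0 r)) :
    WedgeZero (ball 0 r) G G' := by
  have hd : ∀ {H : E2 → ℝ}, ContDiffOn ℝ (k₀ + 1 : ℕ) H (ball 0 r) → ∀ u ∈ ball (0 : E2) r,
      DifferentiableAt ℝ H u := fun hH u hu =>
    (hH.contDiffAt (isOpen_ball.mem_nhds hu)).differentiableAt (by simp)
  have hg := contDiffOn_gradient isOpen_ball hG
  have hg' := contDiffOn_gradient isOpen_ball hG'
  have hcr := contDiffOn_cr hg hg'
  -- it is enough that the area of the gradients vanishes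
  have key : ∀ u ∈ ball (0 : E2) r, cr (gradient G u) (gradient G' u) = 0 := by
    by_contra hcon
    push Not at hcon
    obtain ⟨u₀, hu₀, hne⟩ := hcon
    set O : Set E2 := ball (0 : E2) r ∩ {u | cr (gradient G u) (gradient G' u) ≠ 0} with hO
    have hOopen : IsOpen O := hcr.continuousOn.isOpen_inter_preimage isOpen_ball isOpen_ne
    have hOsub : O ⊆ ball (0 : E2) r := inter_subset_left
    refine hR w O hOopen (hOsub.trans (ball_subset_ball hr)) ⟨u₀, hu₀, hne⟩ ?_
    have h1 : ContDiffOn ℝ k₀ (fun u => (cr (gradient G u) (gradient G' u))⁻¹ •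
        ((crL (gradient G' u)).smulRight (T.N w u (gradient G u)) -
          (crL (gradient G u)).smulRight (T.N w u (gradient G' u)))) O := by
      refine ((hcr.mono hOsub).inv fun u hu => hu.2).smul (ContDiffOn.sub ?_ ?_)
      · exact (contDiffOn_crL (hg'.mono hOsub)).smulRight (hW.mono hOsub)
      · exact (contDiffOn_crL (hg.mono hOsub)).smulRight (hW'.mono hOsub)
    exact h1.congr fun u hu => clm_eq hu.2
  intro u hu v v'
  have h2 := wedge_iff (hd hG u hu) (hd hG' u hu) v v'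
  rw [key u hu, zero_mul] at h2
  linarith

end Vale.Agent.P207.N3.H828
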