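import Vale.Agent.P207.N3.H828.SmB

/-!
# P207, line N3, P12: the cocycle of `D` and the invariance of the tensor under the group
-/

noncomputable section

open Set Filter Topology Metric
open scoped ContDiff

set_option maxSynthPendingDepth 3
set_option linter.unusedSectionVars false

namespace Vale.Agent.P207.N3.H828

open H576 Ten
open H229 (ei ei_eq ei_mem e_ei ei_mem_ball inv_cont)

variable {Γ X B : Type} [Group Γ] [MetricSpace X] [ProperSpace X] [MulAction Γ X]
  [IsIsometricSMul Γ X] [TopologicalSpace B] [CompactSpace B] [T2Space B] [MulAction Γ B]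
  [ContinuousConstSMul Γ B] {L : Leaf Γ X B}

/-- a frame which starts at a given point -/
def frm (L : Leaf Γ X B) (ξ : B) : X := L.flip (frp L ξ)

theorem em_frm (ξ : B) : L.em (frm L ξ) = ξ := by
  have h := ep_frp (L := L) ξ
  rw [L.ep_flip] at h
  exact h

/-- the cocycle of the levels -/
def cg (L : Leaf Γ X B) (g : Γ) (ξ : B) : ℝ := L.lv (g • frm L ξ) - L.lv (frm L ξ)

theorem cg_eq (g : Γ) (x : X) : cg L g (L.em x) = L.lv (g • x) - L.lv x := by
  have h := L.lv_smul g (frm L (L.em x)) x (em_frm _)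
  rw [cg]
  linarith

variable [MeasurableSpace B] [BorelSpace B] (A : Area L)

theorem D_symm {ξ η : B} (h : ξ ≠ η) : A.D ξ η = A.D η ξ := by
  obtain ⟨x, hx, hy, -⟩ := L.exists_frame ξ η h 0
  have h1 := A.D_eq x
  have h2 := A.D_eq (L.flip x)
  have h3 : L.ep (L.flip x) = L.em x := by rw [L.ep_flip, L.flip_flip]
  rw [h3, ← L.ep_flip, hx, hy] at h2
  rw [hx, hy] at h1
  rw [h1, h2, Leaf.lp, Leaf.lp, L.flip_flip]
  ring

/-- the cocycle relation of `D` -/
theorem D_smul (g : Γ) {ξ η : B} (h : ξ ≠ η) :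
    A.D (g • ξ) (g • η) = A.D ξ η + cg L g ξ + cg L g η := by
  obtain ⟨x, hx, hy, -⟩ := L.exists_frame ξ η h 0
  have h1 := A.D_eq x
  have h2 := A.D_eq (g • x)
  rw [L.em_smul, ep_smul, hx, hy] at h2
  rw [hx, hy] at h1
  have h3 := cg_eq (L := L) g x
  have h4 := cg_eq (L := L) g (L.flip x)
  rw [← L.ep_flip, hy] at h4
  rw [hx] at h3
  rw [h1, h2, h3, h4, Leaf.lp, Leaf.lp, L.flip_smul]
  ring

variable {A}

theorem smul_ne {g : Γ} {ξ η : B} (h : ξ ≠ η) : g • ξ ≠ g • η := fun h2 => h (by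
  have := congrArg (fun z => g⁻¹ • z) h2
  simpa using this)

/-- there is a point different from a given one -/
theorem exists_ne' (L : Leaf Γ X B) (ξ : B) : ∃ η : B, η ≠ ξ := by
  refine ⟨L.em (frp L ξ), ?_⟩
  have h := L.em_ne_ep (frp L ξ)
  rwa [ep_frp] at h

/-- the cocycle is smooth in the charts -/
theorem SmB.sm_cg (H : SmB L A.D) (g : Γ) (x : X) {u : E2} (hu : u ∈ ball (0 : E2) 3) :
    Sm (fun p => cg L g (L.e x p)) u := by
  obtain ⟨η, hη⟩ := exists_ne' L (L.e x u)
  set w := frp L η with hw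
  have h0 : L.e w 0 = η := e_frp _
  have m1 : ((x, w), (u, (0 : E2))) ∈ od L := mem_od hu mem_ball0 (by rw [h0]; exact hη.symm)
  have m2 : ((g • x, g • w), (u, (0 : E2))) ∈ od L := by
    refine mem_od hu mem_ball0 ?_
    rw [L.e_smul g x u (ball_sub hu), L.e_smul g w 0 mem_cball0, h0]
    exact smul_ne hη.symm
  have s1 := (H.sm m1).left
  have s2 := (H.sm m2).left
  have s3 := (s2.sub s1).sub (Sm.const (cg L g η) u)
  refine s3.congr ?_
  have h1 : ∀ᶠ p in 𝓝 u, L.e x p ≠ η := by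
    have h2 := (H.ev_od m1)
    have h3 : Tendsto (fun p : E2 => (p, (0 : E2))) (𝓝 u) (𝓝 (u, 0)) := by
      have : ContinuousAt (fun p : E2 => (p, (0 : E2))) u := by fun_prop
      exact this
    filter_upwards [h3.eventually h2] with p hp
    have h4 := hp.2.2
    simp only at h4
    rwa [h0] at h4
  filter_upwards [h1, isOpen_ball.mem_nhds hu] with p hp hp2
  simp only [ff]
  rw [L.e_smul g x p (ball_sub hp2), L.e_smul g w 0 mem_cball0, h0, D_smul A g hp]
  ring

/-- **invariance of the tensor under the group** -/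
theorem SmB.VV_smul (H : SmB L A.D) (lam : ℝ) (g : Γ) {x : X} {η : B} (h : η ≠ L.ep x) :
    VV L A.D lam (g • x) (g • η) = VV L A.D lam x η := by
  set w := frp L η with hw
  have h0 : L.e w 0 = η := e_frp _
  have e1 : L.e (g • w) 0 = g • η := by rw [L.e_smul g w 0 mem_cball0, h0]
  have hne : L.e (g • w) 0 ≠ L.ep (g • x) := by
    rw [e1, ep_smul]
    exact smul_ne h
  have h1 := H.VV_eq lam (x := g • x) (y := g • w) (u := 0) mem_ball0 hne
  rw [e1] at h1
  rw [h1, VV, ← hw]
  have m1 : ((x, w), ((0 : E2), (0 : E2))) ∈ od L := mem_od_frp h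
  have m2 : ((g • x, g • w), ((0 : E2), (0 : E2))) ∈ od L :=
    mem_od mem_ball0 mem_ball0 (by rw [L.e_zero]; exact hne.symm)
  have hid : Sm (fun p : E2 => p) (0 : E2) := Sm.of_contDiff contDiff_id _
  have hinv : H576.Inv (fun p : E2 => p) (0 : E2) := by
    rw [H576.Inv, fderiv_fun_id]
    exact ⟨ContinuousLinearEquiv.refl ℝ E2, rfl⟩
  have h3 : Act (ContinuousLinearEquiv.refl ℝ E2) (Rd (ff L A.D (x, w)) (0, 0))
      (Rd (ff L A.D (g • x, g • w)) (0, 0)) := by
    refine Rd_change (al := fun p => p) (be := fun p => p) (g1 := fun p => cg L g (L.e x p))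
      (g2 := fun p => cg L g (L.e w p)) (z := ((0 : E2), (0 : E2))) (f := ff L A.D (x, w))
      (f' := ff L A.D (g • x, g • w)) ?_ hinv hid hid (H.sm m1) (H.sm_cg g x mem_ball0) ?_
      (H.sm m2) (H.Nd m1)
    · rw [fderiv_fun_id]
      rfl
    · filter_upwards [H.ev_od m1] with z hz
      simp only [ff]
      rw [L.e_smul g x _ (ball_sub hz.1), L.e_smul g w _ (ball_sub hz.2.1), D_smul A g hz.2.2]
  exact act_refl (Wd_act lam h3)

end Vale.Agent.P207.N3.H828
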