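import Vale.Agent.P207.N3.H828.Ratio
import Vale.Agent.P207.H575.T3.Area

/-!
# The ratio lemma for typed orbits (helper828, line N3 of P207, 4.4)
-/

open Set Filter Topology Metric MeasureTheory
open scoped ContDiff

noncomputable section

namespace Vale.Agent.P207.N3.H828

open Vale.Agent.P207.N3 Vale.Agent.P207.H575.T3

section arc

variable {B : Type*} [TopologicalSpace B] [CompactSpace B] [T2Space B]
variable {G : Type*} [Group G] [MulAction G B] [ContinuousConstSMul G B]

/-- an arc of the zero line of `a` on which the function of `b` is nonconstant -/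
theorem arc_exists2 (hmin : ∀ ξ : B, Dense (MulAction.orbit G ξ)) {a b : B} (Pa : PChart a)
    (P : PChart b) :
    ∃ g : G, ∃ t₁ t₂ : ℝ, t₁ < t₂ ∧ (∀ t ∈ Icc t₁ t₂, g • Pa.Y (0, t) ≠ b) ∧
      P.f (g • Pa.Y (0, t₁)) ≠ P.f (g • Pa.Y (0, t₂)) := by
  obtain ⟨g, η₁, η₂, h1, h2, h1b, h2b, hne⟩ := J_lemma hmin Pa P
  refine ⟨g, ?_⟩
  by_contra hcon
  push Not at hcon
  -- the function along the line
  let u : ℝ → ℝ := fun t => P.f (g • Pa.Y (0, t))
  have hcon' : ∀ t₁ t₂ : ℝ, t₁ ≤ t₂ → (∀ t ∈ Icc t₁ t₂, g • Pa.Y (0, t) ≠ b) → u t₁ = u t₂ := by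
    intro t₁ t₂ h12 h
    rcases h12.lt_or_eq with h' | h'
    · exact hcon t₁ t₂ h' h
    · rw [h']
  by_cases hgb : g • a = b
  · -- all points of the line avoid b
    have hav : ∀ t : ℝ, g • Pa.Y (0, t) ≠ b := by
      intro t ht
      exact Pa.Y_ne _ (smul_left_cancel g (ht.trans hgb.symm))
    have hc : ∀ s t : ℝ, u s = u t := by
      intro s t
      rcases le_total s t with h | h
      · exact hcon' s t h fun r _ => hav r
      · exact (hcon' t s h fun r _ => hav r).symm
    have hm : ∀ η ∈ Pa.J, g • η ≠ b → ∃ t, η = Pa.Y (0, t) := by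
      intro η hη hgη
      apply Pa.mem_line hη
      rintro rfl
      exact hgη hgb
    obtain ⟨s, rfl⟩ := hm _ h1 h1b
    obtain ⟨t, rfl⟩ := hm _ h2 h2b
    exact hne (hc s t)
  · -- f' is continuous at g a, both ends have the same limit
    have hca : ContinuousAt P.f (g • a) :=
      P.f_cont.continuousAt (isOpen_compl_singleton.mem_nhds hgb)
    have hl1 : Tendsto u atTop (𝓝 (P.f (g • a))) := hca.tendsto.comp (Pa.tend_top.const_smul g)
    have hl2 : Tendsto u atBot (𝓝 (P.f (g • a))) := hca.tendsto.comp (Pa.tend_bot.const_smul g)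
    -- the values at all good points are the value at g a
    have hall : ∀ t : ℝ, g • Pa.Y (0, t) ≠ b → u t = P.f (g • a) := by
      intro t ht
      by_cases hup : ∀ s, t ≤ s → g • Pa.Y (0, s) ≠ b
      · have hc : ∀ s, t ≤ s → u s = u t := fun s hs =>
          (hcon' t s hs fun r hr => hup r hr.1).symm
        have : Tendsto u atTop (𝓝 (u t)) := by
          refine tendsto_const_nhds.congr' ?_
          filter_upwards [eventually_ge_atTop t] with s hs
          exact (hc s hs).symm
        exact tendsto_nhds_unique this hl1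
      · push Not at hup
        obtain ⟨s₀, hs₀, hbad⟩ := hup
        have hdown : ∀ s, s ≤ t → g • Pa.Y (0, s) ≠ b := by
          intro s hs hb'
          have h3 := smul_left_cancel g (hb'.trans hbad.symm)
          have h4 : ((0 : ℝ), s) = (0, s₀) := by rw [← Pa.X_Y (0, s), h3, Pa.X_Y]
          have h5 : s = s₀ := by simpa using h4
          have h6 : t = s₀ := le_antisymm hs₀ (h5 ▸ hs)
          exact ht (h6 ▸ hbad)
        have hc : ∀ s, s ≤ t → u s = u t := fun s hs =>
          hcon' s t hs fun r hr => hdown r hr.2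
        have : Tendsto u atBot (𝓝 (u t)) := by
          refine tendsto_const_nhds.congr' ?_
          filter_upwards [eventually_le_atBot t] with s hs
          exact (hc s hs).symm
        exact tendsto_nhds_unique this hl2
    have hm : ∀ η ∈ Pa.J, g • η ≠ b → P.f (g • η) = P.f (g • a) := by
      intro η hη hgη
      by_cases hb' : η = a
      · rw [hb']
      · obtain ⟨t, rfl⟩ := Pa.mem_line hη hb'
        exact hall t hgη
    exact hne ((hm _ h1 h1b).trans (hm _ h2 h2b).symm)

/-- a good level on the translated zero line -/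
theorem exists_good_point (hmin : ∀ ξ : B, Dense (MulAction.orbit G ξ)) {a b : B} (Pa : PChart a)
    (P : PChart b) {S : Set ℝ} (hS : Dense S) :
    ∃ g : G, ∃ η : B, η ≠ a ∧ Pa.f η = 0 ∧ g • η ≠ b ∧ P.f (g • η) ∈ S := by
  obtain ⟨g, t₁, t₂, h12, hav, hne⟩ := arc_exists2 hmin Pa P
  have hY : Continuous (fun t : ℝ => g • Pa.Y (0, t)) :=
    (Pa.Y_cont.comp (by fun_prop)).const_smul g
  have hu : ContinuousOn (fun t : ℝ => P.f (g • Pa.Y (0, t))) (Icc t₁ t₂) :=
    P.f_cont.comp hY.continuousOn fun t ht => hav t ht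
  have hex : ∃ s ∈ S, ∃ t ∈ Icc t₁ t₂, P.f (g • Pa.Y (0, t)) = s := by
    rcases lt_or_gt_of_ne hne with h | h
    · obtain ⟨s, hs, hs1, hs2⟩ := hS.exists_between h
      obtain ⟨t, ht, hts⟩ := intermediate_value_Icc h12.le hu ⟨hs1.le, hs2.le⟩
      exact ⟨s, hs, t, ht, hts⟩
    · obtain ⟨s, hs, hs1, hs2⟩ := hS.exists_between h
      obtain ⟨t, ht, hts⟩ := intermediate_value_Icc' h12.le hu ⟨hs1.le, hs2.le⟩
      exact ⟨s, hs, t, ht, hts⟩
  obtain ⟨s, hs, t, ht, hts⟩ := hex
  refine ⟨g, Pa.Y (0, t), Pa.Y_ne _, Pa.f_Y _, hav t ht, ?_⟩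
  rw [hts]
  exact hs

end arc

variable {Γ X B : Type} [Group Γ] [MetricSpace X] [ProperSpace X] [MulAction Γ X]
  [IsIsometricSMul Γ X] [TopologicalSpace B] [CompactSpace B] [T2Space B] [MulAction Γ B]
  [ContinuousConstSMul Γ B]

variable {L : Leaf Γ X B}

/-- smooth functions on a leaf are continuous -/
theorem continuousOn_of_smoothOn {V : Type} [NormedAddCommGroup V] [NormedSpace ℝ V] {ξ : B}
    {f : B → V} (hf : L.SmoothOn ξ f) : ContinuousOn f {ξ}ᶜ := by
  intro η hη
  obtain ⟨y, hy1, hy2, -⟩ := L.exists_frame ξ η (fun h => hη h.symm) 0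
  refine ContinuousAt.continuousWithinAt ?_
  have h0 : (0 : E2) ∈ ball (0 : E2) 3 := mem_ball_self (by norm_num)
  have h1 : ContinuousAt (fun u => f (L.e y u)) 0 :=
    ((hf y hy1).contDiffAt (isOpen_ball.mem_nhds h0)).continuousAt
  have he : L.e y 0 = η := by rw [L.e_zero, hy2]
  have h2 := L.inv_tendsto (l := 𝓝 η) (x := fun _ => y) (b := fun b => b) (x₀ := y) (u₀ := 0)
    tendsto_const_nhds (by rw [he]; exact tendsto_id) h0
  have h3 : ∀ᶠ b in 𝓝 η, b ∈ L.e y '' ball 0 3 :=
    (L.isOpen_img3 y).mem_nhds ⟨0, h0, he⟩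
  have h4 : Tendsto (fun b => f (L.e y (L.inv y b))) (𝓝 η) (𝓝 (f (L.e y 0))) :=
    h1.tendsto.comp h2.2
  rw [he] at h4
  refine (h4.congr' ?_)
  filter_upwards [h3] with b hb
  rw [L.e_inv (image_mono ball_subset_closedBall hb)]

/-- the two coordinates, the `i`-th one first -/
def coord (i : Fin 2) (z : E2) : ℝ × ℝ := (z i, z (1 - i))

def coordInv (i : Fin 2) (p : ℝ × ℝ) : E2 := if i = 0 then !₂[p.1, p.2] else !₂[p.2, p.1]

theorem coord_inv (i : Fin 2) (p : ℝ × ℝ) : coord i (coordInv i p) = p := by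
  fin_cases i <;> simp [coord, coordInv]

theorem inv_coord (i : Fin 2) (z : E2) : coordInv i (coord i z) = z := by
  fin_cases i <;> (ext j; fin_cases j <;> simp [coord, coordInv])

theorem continuous_coord (i : Fin 2) : Continuous (coord i) := by
  unfold coord; fun_prop

theorem continuous_coordInv (i : Fin 2) : Continuous (coordInv i) := by
  have h0 : Continuous fun p : ℝ × ℝ => (!₂[p.1, p.2] : E2) :=
    (PiLp.continuous_toLp 2 _).comp (by fun_prop)
  have h1 : Continuous fun p : ℝ × ℝ => (!₂[p.2, p.1] : E2) :=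
    (PiLp.continuous_toLp 2 _).comp (by fun_prop)
  unfold coordInv
  split_ifs
  · exact h0
  · exact h1

/-- the punctured chart of a normal coordinate -/
def norChart {o : Orb L} (n : Nor L o) (i : Fin 2) : PChart o.neg where
  X := {
    toFun := fun η => coord i (n.x η)
    invFun := fun p => n.inv (coordInv i p)
    source := {o.neg}ᶜ
    target := univ
    map_source' := fun _ _ => mem_univ _
    map_target' := fun p _ => n.inv_ne _
    left_inv' := fun η hη => by
      rw [inv_coord]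
      exact n.inv_left η hη
    right_inv' := fun p _ => by
      rw [n.inv_right, coord_inv]
    open_source := isOpen_compl_singleton
    open_target := isOpen_univ
    continuousOn_toFun := (continuous_coord i).comp_continuousOn (continuousOn_of_smoothOn n.smooth)
    continuousOn_invFun := (n.inv_cont.comp (continuous_coordInv i)).continuousOn }
  src := rfl
  tgt := rfl

theorem norChart_f {o : Orb L} (n : Nor L o) (i : Fin 2) (η : B) : (norChart n i).f η = n.x η i :=
  rfl

/-- translation of smooth functions -/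
theorem smoothOn_smul (g : Γ) {V : Type} [NormedAddCommGroup V] [NormedSpace ℝ V] {ξ : B}
    {f : B → V} (hf : L.SmoothOn ξ f) : L.SmoothOn (g • ξ) (fun b => f (g⁻¹ • b)) := by
  intro x hx
  have h1 : L.em (g⁻¹ • x) = ξ := by rw [L.em_smul, hx, inv_smul_smul]
  refine (hf _ h1).congr fun u hu => ?_
  show f (g⁻¹ • L.e x u) = f (L.e (g⁻¹ • x) u)
  rw [L.e_smul _ _ _ (ball_subset_closedBall hu)]

/-- translation of the level lemma -/
theorem LL_smul (g : Γ) {f : B → ℝ} {χ : ℝ} {x : X} (h : LL L f χ x) :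
    LL L (fun b => f (g⁻¹ • b)) χ (g • x) := by
  obtain ⟨c, hc, C, hC⟩ := h
  have he : ∀ t, ∀ u ∈ closedBall (0 : E2) 1,
      g⁻¹ • L.e (L.φ t (g • x)) u = L.e (L.φ t x) u := by
    intro t u hu
    rw [L.φ_smul, L.e_smul _ _ _ (closedBall_subset_closedBall (by norm_num) hu), inv_smul_smul]
  have hep : g⁻¹ • L.ep (g • x) = L.ep x := by rw [L.ep_smul, inv_smul_smul]
  refine ⟨c, hc, C, fun t ht => ⟨fun u hu => ?_, ?_⟩⟩
  · show |f (g⁻¹ • L.e (L.φ t (g • x)) u) - f (g⁻¹ • L.ep (g • x))| ≤ _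
    rw [he t u hu, hep]
    exact (hC t ht).1 u hu
  · obtain ⟨u, hu, hcu⟩ := (hC t ht).2
    refine ⟨u, hu, ?_⟩
    show _ ≤ |f (g⁻¹ • L.e (L.φ t (g • x)) u) - f (g⁻¹ • L.ep (g • x))|
    rw [he t u hu, hep]
    exact hcu

end Vale.Agent.P207.N3.H828
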