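import Vale.Agent.P207.N3.H828.Lead

/-!
# Proportional homogeneous forms (helper828, line N3 of P207)

`dH ∧ dH' = 0` for the leading forms, hence `H ^ i' = c * H' ^ i`.
-/

open Set Filter Topology Metric
open scoped Nat

noncomputable section

namespace Vale.Agent.P207.N3.H828

variable {E : Type*} [NormedAddCommGroup E] [NormedSpace ℝ E]

/-- `dG ∧ dG' = 0` on `S` -/
def WedgeZero (S : Set E) (G G' : E → ℝ) : Prop :=
  ∀ u ∈ S, ∀ v w, fderiv ℝ G u v * fderiv ℝ G' u w = fderiv ℝ G u w * fderiv ℝ G' u v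

theorem analytic_lead (i : ℕ) (G : E → ℝ) : AnalyticOnNhd ℝ (lead i G) univ := by
  unfold lead
  intro u _
  have h1 : AnalyticAt ℝ (fun v : E => (fun _ : Fin i => v)) u :=
    (ContinuousLinearMap.pi fun _ : Fin i => ContinuousLinearMap.id ℝ E).analyticAt u
  have h2 : AnalyticAt ℝ (iteratedFDeriv ℝ i G 0) (fun _ : Fin i => u) :=
    ContinuousMultilinearMap.analyticAt (iteratedFDeriv ℝ i G 0)
  exact (analyticAt_const (v := ((i ! : ℝ))⁻¹)).smul (h2.comp h1)

/-- the leading forms are functionally dependent -/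
theorem wedge_lead {k : ℕ} {M M' : ℕ → ℝ} {R : ℝ} (hR : 0 < R) {G G' : E → ℝ}
    (h : CkB (k + 1) M (ball 0 R) G) (h' : CkB (k + 1) M' (ball 0 R) G')
    (hw : WedgeZero (ball 0 R) G G') {i i' : ℕ} (hi : i + 1 ≤ k) (hi' : i' + 1 ≤ k)
    (ho : OrdGE (i + 1) G) (ho' : OrdGE (i' + 1) G') :
    WedgeZero univ (lead (i + 1) G) (lead (i' + 1) G') := by
  intro u _ v w
  obtain ⟨h1, h2⟩ := ho.fderiv hR h hi
  obtain ⟨h1', h2'⟩ := ho'.fderiv hR h' hi'
  rw [(h2 u).fderiv, (h2' u).fderiv]
  have t1 := h1.tendsto hR (h.fderiv isOpen_ball) hi (l := 𝓝[>] 0) le_rfl (u := u)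
    (v := fun _ => u) tendsto_const_nhds
  have t2 := h1'.tendsto hR (h'.fderiv isOpen_ball) hi' (l := 𝓝[>] 0) le_rfl (u := u)
    (v := fun _ => u) tendsto_const_nhds
  have ev : ∀ z : E, Continuous fun A : E →L[ℝ] ℝ => A z := fun z =>
    (ContinuousLinearMap.apply ℝ ℝ z).continuous
  have a1 := (((ev v).tendsto _).comp t1).mul (((ev w).tendsto _).comp t2)
  have a2 := (((ev w).tendsto _).comp t1).mul (((ev v).tendsto _).comp t2)
  refine tendsto_nhds_unique_of_eventuallyEq a1 a2 ?_
  have hmem : ∀ᶠ t : ℝ in 𝓝[>] (0 : ℝ), t • u ∈ ball (0 : E) R := by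
    have h0 : Tendsto (fun t : ℝ => t • u) (𝓝[>] 0) (𝓝 0) := by
      have : Tendsto (fun t : ℝ => t • u) (𝓝 0) (𝓝 ((0 : ℝ) • u)) :=
        (continuous_id.smul continuous_const).tendsto 0
      rw [zero_smul] at this
      exact this.mono_left nhdsWithin_le_nhds
    exact h0.eventually (ball_mem_nhds _ hR)
  filter_upwards [hmem] with t ht
  have h3 := hw (t • u) ht v w
  simp only [Function.comp_apply, FunLike.coe_smul, Pi.smul_apply, smul_eq_mul]
  linear_combination ((t ^ i)⁻¹ * (t ^ i')⁻¹) * h3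

/-- Euler's identity -/
theorem euler {H : E → ℝ} {i : ℕ} (hd : Differentiable ℝ H) (hh : ∀ (t : ℝ) u, H (t • u) = t ^ i * H u)
    (u : E) : fderiv ℝ H u u = i * H u := by
  have h1 : HasDerivAt (fun t : ℝ => H (t • u)) (fderiv ℝ H u u) 1 := by
    have h2 : HasFDerivAt H (fderiv ℝ H u) ((1 : ℝ) • u) := by
      rw [one_smul]; exact (hd u).hasFDerivAt
    have h3 : HasDerivAt (fun t : ℝ => t • u) u 1 := by
      simpa using (hasDerivAt_id (1 : ℝ)).smul_const u
    exact h2.comp_hasDerivAt 1 h3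
  have h4 : HasDerivAt (fun t : ℝ => H (t • u)) (i * H u) 1 := by
    have h5 : (fun t : ℝ => H (t • u)) = fun t => t ^ i * H u := funext fun t => hh t u
    rw [h5]
    simpa using (hasDerivAt_pow i (1 : ℝ)).mul_const (H u)
  exact h1.unique h4

/-- functionally dependent homogeneous analytic functions are proportional after powers -/
theorem prop_of_wedge {H H' : E → ℝ} {i i' : ℕ}
    (ha : AnalyticOnNhd ℝ H univ) (ha' : AnalyticOnNhd ℝ H' univ)
    (hh : ∀ (t : ℝ) u, H (t • u) = t ^ i * H u) (hh' : ∀ (t : ℝ) u, H' (t • u) = t ^ i' * H' u)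
    (hw : WedgeZero univ H H') {u₁ : E} (hne : H' u₁ ≠ 0) :
    ∃ c : ℝ, ∀ u, H u ^ i' = c * H' u ^ i := by
  have hd : Differentiable ℝ H := fun u => (ha u (mem_univ u)).differentiableAt
  have hd' : Differentiable ℝ H' := fun u => (ha' u (mem_univ u)).differentiableAt
  -- i H dH' = i' H' dH
  have key : ∀ u v, (i : ℝ) * H u * fderiv ℝ H' u v = i' * H' u * fderiv ℝ H u v := by
    intro u v
    have h1 := hw u (mem_univ u) u v
    rw [euler hd hh u, euler hd' hh' u] at h1
    linarith
  set c : ℝ := H u₁ ^ i' / H' u₁ ^ i with hc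
  refine ⟨c, ?_⟩
  have hF1 : AnalyticOnNhd ℝ (fun u => H u ^ i') univ := fun u hu => (ha u hu).pow i'
  have hF2 : AnalyticOnNhd ℝ (fun u => c * H' u ^ i) univ := fun u hu =>
    (analyticAt_const).mul ((ha' u hu).pow i)
  have hloc : (fun u => H u ^ i') =ᶠ[𝓝 u₁] fun u => c * H' u ^ i := by
    -- a ball where `H' ≠ 0`
    have hopen : IsOpen {u | H' u ≠ 0} := isOpen_ne_fun hd'.continuous continuous_const
    obtain ⟨r, hr, hball⟩ := Metric.isOpen_iff.1 hopen u₁ hne
    let q : E → ℝ := fun u => H u ^ i' * (H' u ^ i)⁻¹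
    have hq : ∀ u ∈ ball u₁ r, HasFDerivAt q (0 : E →L[ℝ] ℝ) u := by
      intro u hu
      have hu' : H' u ≠ 0 := hball hu
      have e1 : HasFDerivAt (fun u => H u ^ i') ((i' * H u ^ (i' - 1)) • fderiv ℝ H u) u := by
        simpa using (hd u).hasFDerivAt.pow i'
      have e2 : HasFDerivAt (fun u => H' u ^ i) ((i * H' u ^ (i - 1)) • fderiv ℝ H' u) u := by
        simpa using (hd' u).hasFDerivAt.pow i
      have e2' := (hasDerivAt_inv (pow_ne_zero i hu')).comp_hasFDerivAt u e2
      have e3 := e1.mul e2'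
      have e4 : (H' u ^ i) • ((i' * H u ^ (i' - 1)) • fderiv ℝ H u) -
          (H u ^ i') • ((i * H' u ^ (i - 1)) • fderiv ℝ H' u) = 0 := by
        ext v
        simp only [FunLike.coe_sub, FunLike.coe_smul, Pi.sub_apply, Pi.smul_apply, smul_eq_mul,
          FunLike.coe_zero, Pi.zero_apply]
        have k1 := key u v
        rcases Nat.eq_zero_or_pos i with h0 | h0
        · subst h0
          rcases Nat.eq_zero_or_pos i' with h0' | h0'
          · subst h0'; simp
          · have : fderiv ℝ H u v = 0 := by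
              have h5 : (i' : ℝ) * H' u * fderiv ℝ H u v = 0 := by
                rw [← k1]; simp
              have h6 : (i' : ℝ) * H' u ≠ 0 := mul_ne_zero (by exact_mod_cast h0'.ne') hu'
              exact (mul_eq_zero.1 h5).resolve_left h6
            simp [this]
        · rcases Nat.eq_zero_or_pos i' with h0' | h0'
          · subst h0'
            have h5 : H u * fderiv ℝ H' u v = 0 := by
              have : (i : ℝ) * (H u * fderiv ℝ H' u v) = 0 := by
                rw [← mul_assoc, k1]; simp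
              exact (mul_eq_zero.1 this).resolve_left (by exact_mod_cast h0.ne')
            -- `H ^ 0 = 1`; here `H'` has degree `0`
            have h6 : fderiv ℝ H' u v = 0 := by
              have hconst : ∀ w, H' w = H' 0 := by
                intro w
                have := hh' 0 w
                simpa using this.symm
              have : H' = fun _ => H' 0 := funext hconst
              rw [this]; simp
            simp [h6]
          · obtain ⟨a, rfl⟩ : ∃ a, i = a + 1 := ⟨i - 1, by omega⟩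
            obtain ⟨b, rfl⟩ : ∃ b, i' = b + 1 := ⟨i' - 1, by omega⟩
            simp only [Nat.add_sub_cancel]
            push_cast at k1 ⊢
            rw [pow_succ (H' u) a, pow_succ (H u) b]
            linear_combination (- (H' u) ^ a * (H u) ^ b) * k1
      have e6 : H u ^ i' • -(((H' u ^ i) ^ 2)⁻¹) • ((i * H' u ^ (i - 1)) • fderiv ℝ H' u) +
          (H' u ^ i)⁻¹ • ((i' * H u ^ (i' - 1)) • fderiv ℝ H u) = 0 := by
        have e7 : H u ^ i' • -(((H' u ^ i) ^ 2)⁻¹) • ((i * H' u ^ (i - 1)) • fderiv ℝ H' u) +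
          (H' u ^ i)⁻¹ • ((i' * H u ^ (i' - 1)) • fderiv ℝ H u) = ((H' u ^ i) ^ 2)⁻¹ •
          ((H' u ^ i) • ((i' * H u ^ (i' - 1)) • fderiv ℝ H u) -
          (H u ^ i') • ((i * H' u ^ (i - 1)) • fderiv ℝ H' u)) := by
          have hz : H' u ^ i ≠ 0 := pow_ne_zero i hu'
          ext v
          simp only [FunLike.coe_sub, FunLike.coe_add, FunLike.coe_smul, Pi.sub_apply, Pi.add_apply,
            Pi.smul_apply, smul_eq_mul]
          field_simp
          ring
        rw [e7, e4, smul_zero]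
      exact (HasFDerivAt.congr_fderiv e3 e6 : HasFDerivAt _ (0 : E →L[ℝ] ℝ) u)
    have hqc : ∀ u ∈ ball u₁ r, q u = q u₁ := by
      intro u hu
      have hcv : Convex ℝ (ball u₁ r) := convex_ball u₁ r
      have := hcv.norm_image_sub_le_of_norm_hasFDerivWithin_le (f := q) (f' := fun _ => 0) (C := 0)
        (fun w hw => (hq w hw).hasFDerivWithinAt) (fun w _ => by simp) (mem_ball_self hr) hu
      simpa [sub_eq_zero] using this
    filter_upwards [ball_mem_nhds u₁ hr] with u hu
    have h5 := hqc u hu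
    have hu' : H' u ^ i ≠ 0 := pow_ne_zero i (hball hu)
    have h6 : H u ^ i' / H' u ^ i = c := by rw [hc, div_eq_mul_inv, div_eq_mul_inv]; exact h5
    rw [div_eq_iff hu'] at h6
    exact h6
  have := hF1.eqOn_of_preconnected_of_eventuallyEq hF2 isPreconnected_univ (mem_univ u₁) hloc
  exact fun u => this (mem_univ u)

end Vale.Agent.P207.N3.H828
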