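import Vale.Agent.P207.N3.H828.Homog
import Vale.Agent.P207.N3.H828.Lim

/-!
# The core of the ratio lemma (helper828, line N3 of P207, 4.4)
-/

open Set Filter Topology Metric
open scoped Nat

noncomputable section

namespace Vale.Agent.P207.N3.H828

variable {E : Type*} [NormedAddCommGroup E] [NormedSpace ℝ E]

/-- contractions between discs: `σ n m` is the transition from the disc at time `n + m` to the disc
at time `n` -/
structure Sig (R ρ C₀ χm : ℝ) (Mσ : ℕ → ℕ → ℝ) (σ : ℕ → ℕ → E → E) : Prop where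
  R_pos : 0 < R
  ρ_pos : 0 < ρ
  ρ_lt : ρ < R
  χm_pos : 0 < χm
  C₀_nonneg : 0 ≤ C₀
  ck : ∀ n m, 1 ≤ m → CkB 2 (Mσ m) (ball 0 R) (σ n m)
  maps : ∀ n m, 1 ≤ m → ∀ u ∈ ball (0 : E) R, ‖σ n m u‖ ≤ ρ
  zero : ∀ n m, 1 ≤ m → σ n m 0 = 0
  contr : ∀ n m, 1 ≤ m → ∀ u ∈ ball (0 : E) R, ‖σ n m u‖ ≤ C₀ * Real.exp (-χm * m) * ‖u‖

/-- rescaled functions along an orbit -/
structure Fam (K : ℕ) (R ρ c χ : ℝ) (M : ℕ → ℝ) (σ : ℕ → ℕ → E → E) (F : ℕ → E → ℝ) : Prop where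
  ck : ∀ n, CkB (K + 1) M (ball 0 R) (F n)
  zero : ∀ n, F n 0 = 0
  c_pos : 0 < c
  low : ∀ n, ∃ u, ‖u‖ ≤ ρ ∧ c ≤ |F n u|
  rel : ∀ n m, 1 ≤ m → ∀ u ∈ ball (0 : E) R, F (n + m) u = Real.exp (χ * m) * F n (σ n m u)

/-- `G` is the limit of `F` along `U` -/
structure IsULim (K : ℕ) (R : ℝ) (M : ℕ → ℝ) (F : ℕ → E → ℝ) (U : Ultrafilter ℕ) (G : E → ℝ) :
    Prop where
  ck : CkB K M (ball 0 R) G
  unif : ∀ j ≤ K, TendstoUniformlyOn (fun n => iteratedFDeriv ℝ j (F n)) (iteratedFDeriv ℝ j G) U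
    (ball 0 R)
  pt : ∀ u ∈ ball (0 : E) R, Tendsto (fun n => F n u) U (𝓝 (G u))

theorem Fam.exists_ulim [FiniteDimensional ℝ E] {K : ℕ} {R ρ c χ : ℝ} {M : ℕ → ℝ}
    {σ : ℕ → ℕ → E → E} {F : ℕ → E → ℝ} (h : Fam K R ρ c χ M σ F) (U : Ultrafilter ℕ) :
    ∃ G, IsULim K R M F U G := by
  obtain ⟨G, h1, h2, h3⟩ := ck_ulim U isOpen_ball (convex_ball (0 : E) R) isBounded_ball h.ck
  exact ⟨G, h1, h2, h3⟩

/-- the shift of an ultrafilter -/
def shift (U : Ultrafilter ℕ) (m : ℕ) : Ultrafilter ℕ := U.map fun n => n + m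

theorem shift_le {U : Ultrafilter ℕ} (hU : (U : Filter ℕ) ≤ atTop) (m : ℕ) :
    (shift U m : Filter ℕ) ≤ atTop := by
  have : Tendsto (fun n : ℕ => n + m) atTop atTop := tendsto_add_atTop_nat m
  exact (Filter.map_mono hU).trans this

theorem tendsto_shift {X : Type*} {U : Ultrafilter ℕ} {m : ℕ} {a : ℕ → X} {l : Filter X}
    (h : Tendsto a (shift U m) l) : Tendsto (fun n => a (n + m)) U l := h

theorem IsULim.lead_tendsto {K : ℕ} {R : ℝ} (hR : 0 < R) {M : ℕ → ℝ} {F : ℕ → E → ℝ}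
    {U : Ultrafilter ℕ} {G : E → ℝ} (h : IsULim K R M F U G) {j : ℕ} (hj : j ≤ K) (u : E) :
    Tendsto (fun n => lead j (F n) u) U (𝓝 (lead j G u)) := by
  have h1 : Tendsto (fun n => iteratedFDeriv ℝ j (F n) 0) U (𝓝 (iteratedFDeriv ℝ j G 0)) :=
    (h.unif j hj).tendsto_at (mem_ball_self hR)
  have h2 : Continuous fun q : E [×j]→L[ℝ] ℝ => q (fun _ => u) :=
    (ContinuousMultilinearMap.apply ℝ (fun _ : Fin j => E) ℝ (fun _ => u)).continuous
  exact ((h2.tendsto _).comp h1).const_smul _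

theorem IsULim.fderiv_tendsto {K : ℕ} {R : ℝ} {M : ℕ → ℝ} {F : ℕ → E → ℝ}
    {U : Ultrafilter ℕ} {G : E → ℝ} (h : IsULim K R M F U G) (hK : 1 ≤ K) {u : E}
    (hu : u ∈ ball (0 : E) R) (v : E) :
    Tendsto (fun n => fderiv ℝ (F n) u v) U (𝓝 (fderiv ℝ G u v)) := by
  have h1 : Tendsto (fun n => iteratedFDeriv ℝ 1 (F n) u) U (𝓝 (iteratedFDeriv ℝ 1 G u)) :=
    (h.unif 1 hK).tendsto_at hu
  have h2 : Continuous fun q : E [×1]→L[ℝ] ℝ => q (fun _ => v) :=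
    (ContinuousMultilinearMap.apply ℝ (fun _ : Fin 1 => E) ℝ (fun _ => v)).continuous
  have h3 := (h2.tendsto _).comp h1
  simpa [Function.comp_def, iteratedFDeriv_one_apply] using h3

/-- Lipschitz bound of the functions themselves -/
theorem CkB.lip_fun {W : Type*} [NormedAddCommGroup W] [NormedSpace ℝ W] {k : ℕ} {M : ℕ → ℝ}
    {S : Set E} {F : E → W} (hS : IsOpen S) (hc : Convex ℝ S)
    (h : CkB (k + 1) M S F) {u v : E} (hu : u ∈ S) (hv : v ∈ S) :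
    ‖F v - F u‖ ≤ M 1 * ‖v - u‖ := by
  have h1 := h.lip hS hc (Nat.zero_le k) hu hv
  rw [iteratedFDeriv_zero_eq_comp, Function.comp_apply, Function.comp_apply, ← map_sub,
    LinearIsometryEquiv.norm_map] at h1
  exact h1

theorem IsULim.zero {K : ℕ} {R ρ c χ : ℝ} (hR : 0 < R) {M : ℕ → ℝ} {σ : ℕ → ℕ → E → E}
    {F : ℕ → E → ℝ} (hF : Fam K R ρ c χ M σ F) {U : Ultrafilter ℕ} {G : E → ℝ}
    (h : IsULim K R M F U G) : G 0 = 0 := by
  have h1 := h.pt 0 (mem_ball_self hR)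
  simp only [hF.zero] at h1
  exact (tendsto_nhds_unique h1 tendsto_const_nhds)

theorem IsULim.low [FiniteDimensional ℝ E] {K : ℕ} {R ρ c χ : ℝ} (hρ : ρ < R) {M : ℕ → ℝ}
    {σ : ℕ → ℕ → E → E} {F : ℕ → E → ℝ} (hF : Fam K R ρ c χ M σ F) {U : Ultrafilter ℕ} {G : E → ℝ}
    (h : IsULim K R M F U G) : ∃ u, ‖u‖ ≤ ρ ∧ c ≤ |G u| := by
  have : ProperSpace E := FiniteDimensional.proper ℝ E
  choose u hu hc using hF.low
  obtain ⟨v, hv⟩ := exists_ulim U hu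
  have hvρ : ‖v‖ ≤ ρ := le_of_tendsto hv.norm (Eventually.of_forall hu)
  refine ⟨v, hvρ, ?_⟩
  have hvR : v ∈ ball (0 : E) R := mem_ball_zero_iff.2 (hvρ.trans_lt hρ)
  have h1 : Tendsto (fun n => |F n v| + M 1 * ‖u n - v‖) U (𝓝 (|G v| + M 1 * ‖v - v‖)) :=
    ((h.pt v hvR).abs).add (((hv.sub tendsto_const_nhds).norm).const_mul _)
  have h2 : c ≤ |G v| + M 1 * ‖v - v‖ := by
    refine ge_of_tendsto h1 (Eventually.of_forall fun n => ?_)
    have h3 := (hF.ck n).lip_fun isOpen_ball (convex_ball (0 : E) R) hvR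
      (mem_ball_zero_iff.2 ((hu n).trans_lt hρ))
    rw [Real.norm_eq_abs] at h3
    have h4 : |F n (u n)| ≤ |F n v| + |F n (u n) - F n v| := by
      have := abs_add_le (F n v) (F n (u n) - F n v)
      simpa using this
    linarith [hc n]
  simpa using h2

/-- limits of the contractions -/
theorem Sig.exists_ulim [FiniteDimensional ℝ E] {R ρ C₀ χm : ℝ} {Mσ : ℕ → ℕ → ℝ}
    {σ : ℕ → ℕ → E → E} (h : Sig R ρ C₀ χm Mσ σ) (U : Ultrafilter ℕ) {m : ℕ} (hm : 1 ≤ m) :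
    ∃ s : E → E, (∀ u ∈ ball (0 : E) R, Tendsto (fun n => σ n m u) U (𝓝 (s u))) ∧ s 0 = 0 ∧
      DifferentiableAt ℝ s 0 ∧ (∀ u ∈ ball (0 : E) R, ‖s u‖ ≤ ρ) ∧
      ∀ u ∈ ball (0 : E) R, ‖s u‖ ≤ C₀ * Real.exp (-χm * m) * ‖u‖ := by
  obtain ⟨s, h1, -, h3⟩ := ck_ulim (k := 1) U isOpen_ball (convex_ball (0 : E) R) isBounded_ball
    (fun n => h.ck n m hm)
  have h0 := mem_ball_self (x := (0 : E)) h.R_pos
  refine ⟨s, h3, ?_, ?_, fun u hu => ?_, fun u hu => ?_⟩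
  · have h4 := h3 0 h0
    simp only [h.zero _ m hm] at h4
    exact tendsto_nhds_unique h4 tendsto_const_nhds
  · exact (h1.1.contDiffAt (isOpen_ball.mem_nhds h0)).differentiableAt (by norm_num)
  · exact le_of_tendsto (h3 u hu).norm (Eventually.of_forall fun n => h.maps n m hm u hu)
  · exact le_of_tendsto (h3 u hu).norm (Eventually.of_forall fun n => h.contr n m hm u hu)

/-- the relation for the limits -/
theorem IsULim.rel [FiniteDimensional ℝ E] {K : ℕ} {R ρ c χ C₀ χm : ℝ} {Mσ : ℕ → ℕ → ℝ} {M : ℕ → ℝ}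
    {σ : ℕ → ℕ → E → E} (hσ : Sig R ρ C₀ χm Mσ σ)
    {F : ℕ → E → ℝ} (hF : Fam K R ρ c χ M σ F) {U : Ultrafilter ℕ} {G : E → ℝ}
    (h : IsULim K R M F U G) {m : ℕ} (hm : 1 ≤ m) {G' : E → ℝ}
    (h' : IsULim K R M F (shift U m) G') {s : E → E}
    (hs : ∀ u ∈ ball (0 : E) R, Tendsto (fun n => σ n m u) U (𝓝 (s u)))
    (hsρ : ∀ u ∈ ball (0 : E) R, ‖s u‖ ≤ ρ) {u : E} (hu : u ∈ ball (0 : E) R) :
    G' u = Real.exp (χ * m) * G (s u) := by
  have h1 := tendsto_shift (h'.pt u hu)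
  have hsR : s u ∈ ball (0 : E) R := mem_ball_zero_iff.2 ((hsρ u hu).trans_lt hσ.ρ_lt)
  have h2 : Tendsto (fun n => F n (σ n m u)) U (𝓝 (G (s u))) := by
    have h3 : Tendsto (fun n => F n (s u)) U (𝓝 (G (s u))) := h.pt _ hsR
    have h4 : Tendsto (fun n => F n (σ n m u) - F n (s u)) U (𝓝 0) := by
      have h5 : Tendsto (fun n => M 1 * ‖σ n m u - s u‖) U (𝓝 (M 1 * ‖s u - s u‖)) :=
        (((hs u hu).sub tendsto_const_nhds).norm).const_mul _
      rw [sub_self, norm_zero, mul_zero] at h5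
      refine squeeze_zero_norm (fun n => ?_) h5
      exact (hF.ck n).lip_fun isOpen_ball (convex_ball (0 : E) R) hsR
        (mem_ball_zero_iff.2 ((hσ.maps n m hm u hu).trans_lt hσ.ρ_lt))
    have := h4.add h3
    simpa using this
  have h6 : Tendsto (fun n => F (n + m) u) U (𝓝 (Real.exp (χ * m) * G (s u))) := by
    have := h2.const_mul (Real.exp (χ * m))
    refine this.congr fun n => ?_
    rw [hF.rel n m hm u hu]
  exact tendsto_nhds_unique h1 h6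

/-- order and leading form under the shift -/
theorem IsULim.lead_shift {K : ℕ} {R χ : ℝ} (hR : 0 < R) {M : ℕ → ℝ}
    {G G' : E → ℝ} (h : CkB K M (ball 0 R) G) (h' : CkB K M (ball 0 R) G') {m : ℕ}
    {s : E → E} (hs0 : s 0 = 0) (hsd : DifferentiableAt ℝ s 0)
    (hrel : ∀ u ∈ ball (0 : E) R, G' u = Real.exp (χ * m) * G (s u))
    {i : ℕ} (hi : i + 1 ≤ K) (ho : OrdGE i G) :
    OrdGE i G' ∧ ∀ u, lead i G' u = Real.exp (χ * m) * lead i G (fderiv ℝ s 0 u) := by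
  have hv : ∀ u : E, Tendsto (fun t : ℝ => t⁻¹ • s (t • u)) (𝓝[>] 0) (𝓝 (fderiv ℝ s 0 u)) := by
    intro u
    have h1 : HasDerivAt (fun t : ℝ => s (t • u)) (fderiv ℝ s 0 u) 0 := by
      have h2 : HasFDerivAt s (fderiv ℝ s 0) ((0 : ℝ) • u) := by
        rw [zero_smul]; exact hsd.hasFDerivAt
      have h3 : HasDerivAt (fun t : ℝ => t • u) u 0 := by
        simpa using (hasDerivAt_id (0 : ℝ)).smul_const u
      exact h2.comp_hasDerivAt 0 h3
    have h4 := h1.tendsto_slope_zero_right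
    simpa [hs0] using h4
  have hmem : ∀ u : E, ∀ᶠ t : ℝ in 𝓝[>] (0 : ℝ), 0 < t ∧ t • u ∈ ball (0 : E) R := by
    intro u
    have h0 : Tendsto (fun t : ℝ => t • u) (𝓝[>] 0) (𝓝 0) := by
      have : Tendsto (fun t : ℝ => t • u) (𝓝 0) (𝓝 ((0 : ℝ) • u)) :=
        (continuous_id.smul continuous_const).tendsto 0
      rw [zero_smul] at this
      exact this.mono_left nhdsWithin_le_nhds
    have hpos : ∀ᶠ t : ℝ in 𝓝[>] (0 : ℝ), 0 < t := self_mem_nhdsWithin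
    exact hpos.and (h0.eventually (ball_mem_nhds _ hR))
  have hcalc : ∀ l ≤ i, ∀ u : E, Tendsto (fun t : ℝ => (t ^ l)⁻¹ • G' (t • u)) (𝓝[>] 0)
      (𝓝 (Real.exp (χ * m) * lead l G (fderiv ℝ s 0 u))) := by
    intro l hl u
    have hol : OrdGE l G := fun j hj => ho j (by omega)
    have h5 := (hol.tendsto hR h (by omega) (l := 𝓝[>] 0) le_rfl (hv u)).const_mul
      (Real.exp (χ * m))
    refine h5.congr' ?_
    filter_upwards [hmem u] with t ht
    rw [hrel _ ht.2, smul_inv_smul₀ ht.1.ne']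
    simp only [smul_eq_mul]
    ring
  have ho' : OrdGE i G' := by
    refine ordGE_of_tendsto hR h' (by omega) fun l hl u => ?_
    have := hcalc l hl.le u
    rwa [ho l hl, mul_zero] at this
  refine ⟨ho', fun u => ?_⟩
  have h6 := ho'.tendsto hR h' hi (l := 𝓝[>] 0) le_rfl (u := u) (v := fun _ => u)
    tendsto_const_nhds
  exact tendsto_nhds_unique h6 (hcalc i le_rfl u)

/-- the order is finite -/
theorem Fam.not_ordGE [FiniteDimensional ℝ E] {K : ℕ} {R ρ c χ C₀ χm : ℝ} {Mσ : ℕ → ℕ → ℝ} {M : ℕ → ℝ}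
    {σ : ℕ → ℕ → E → E} (hσ : Sig R ρ C₀ χm Mσ σ)
    {F : ℕ → E → ℝ} (hF : Fam K R ρ c χ M σ F) {U : Ultrafilter ℕ} {G : E → ℝ}
    (h : IsULim K R M F U G) {l : ℕ} (hl : 1 ≤ l) (hlK : l ≤ K) (hχ : χ < l * χm) :
    ¬ OrdGE l G := by
  intro ho
  obtain ⟨l, rfl⟩ : ∃ a, l = a + 1 := ⟨l - 1, by omega⟩
  have hM : 0 ≤ M (l + 1) := (norm_nonneg _).trans (h.ck.2 (l + 1) hlK 0 (mem_ball_self hσ.R_pos))
  have key : ∀ m : ℕ, 1 ≤ m → c ≤ M (l + 1) * (C₀ * ρ) ^ (l + 1) *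
      (Real.exp (χ - (l + 1 : ℕ) * χm)) ^ m := by
    intro m hm
    obtain ⟨G', h'⟩ := hF.exists_ulim (shift U m)
    obtain ⟨s, hs1, hs2, hs3, hs4, hs5⟩ := hσ.exists_ulim U hm
    obtain ⟨u, hu, hc⟩ := h'.low hσ.ρ_lt hF
    have huR : u ∈ ball (0 : E) R := mem_ball_zero_iff.2 (hu.trans_lt hσ.ρ_lt)
    have hsR : s u ∈ ball (0 : E) R := mem_ball_zero_iff.2 ((hs4 u huR).trans_lt hσ.ρ_lt)
    rw [h.rel hσ hF hm h' hs1 hs4 huR, abs_mul, abs_of_pos (Real.exp_pos _)] at hc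
    have h2 := ho.bound h.ck hlK hsR
    rw [Real.norm_eq_abs] at h2
    have hC := hσ.C₀_nonneg
    have h3 : ‖s u‖ ≤ C₀ * Real.exp (-χm * m) * ρ := (hs5 u huR).trans (by gcongr)
    calc c ≤ Real.exp (χ * m) * |G (s u)| := hc
      _ ≤ Real.exp (χ * m) * (M (l + 1) * ‖s u‖ ^ (l + 1)) := by gcongr
      _ ≤ Real.exp (χ * m) * (M (l + 1) * (C₀ * Real.exp (-χm * m) * ρ) ^ (l + 1)) := by gcongr
      _ = M (l + 1) * (C₀ * ρ) ^ (l + 1) * (Real.exp (χ - (l + 1 : ℕ) * χm)) ^ m := by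
          have e1 : (Real.exp (χ - (l + 1 : ℕ) * χm)) ^ m =
              Real.exp (χ * m) * (Real.exp (-χm * m)) ^ (l + 1) := by
            rw [← Real.exp_nat_mul, ← Real.exp_nat_mul, ← Real.exp_add]
            congr 1
            push_cast
            ring
          rw [e1, mul_right_comm C₀, mul_pow (C₀ * ρ)]
          ring
  have hlt : Real.exp (χ - (l + 1 : ℕ) * χm) < 1 := by
    rw [Real.exp_lt_one_iff]
    linarith
  have hlim : Tendsto (fun m : ℕ => M (l + 1) * (C₀ * ρ) ^ (l + 1) *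
      (Real.exp (χ - (l + 1 : ℕ) * χm)) ^ m) atTop (𝓝 0) := by
    have := (tendsto_pow_atTop_nhds_zero_of_lt_one (Real.exp_pos _).le hlt).const_mul
      (M (l + 1) * (C₀ * ρ) ^ (l + 1))
    simpa using this
  have h4 : c ≤ 0 := by
    refine ge_of_tendsto hlim ?_
    filter_upwards [eventually_ge_atTop 1] with m hm
    exact key m hm
  exact absurd hF.c_pos (not_lt.2 h4)

/-- limits along a `bind` of ultrafilters -/
theorem tendsto_bind {U : ℕ → Ultrafilter ℕ} {V : Ultrafilter ℕ} {a : ℕ → ℝ} {b : ℕ → ℝ} {l : ℝ}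
    (h1 : ∀ k, Tendsto a (U k) (𝓝 (b k))) (h2 : Tendsto b V (𝓝 l)) :
    Tendsto a (V.bind U) (𝓝 l) := by
  intro s hs
  obtain ⟨t, hts, hto, hlt⟩ := _root_.mem_nhds_iff.1 hs
  have h3 : ∀ᶠ k in (V : Filter ℕ), b k ∈ t := h2.eventually (hto.mem_nhds hlt)
  change a ⁻¹' s ∈ Filter.bind (V : Filter ℕ) fun x => (U x : Filter ℕ)
  rw [Filter.mem_bind']
  filter_upwards [h3] with k hk
  exact (h1 k) (Filter.mem_of_superset (hto.mem_nhds hk) hts)

theorem bind_le {U : ℕ → Ultrafilter ℕ} {V : Ultrafilter ℕ}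
    (h : ∀ k, (U k : Filter ℕ) ≤ atTop) : (V.bind U : Filter ℕ) ≤ atTop := by
  intro s hs
  change s ∈ Filter.bind (V : Filter ℕ) fun x => (U x : Filter ℕ)
  rw [Filter.mem_bind']
  exact Filter.univ_mem' fun k => h k hs

/-- the leading form of a limit along `V.bind U` -/
theorem lead_bind {K : ℕ} {R : ℝ} (hR : 0 < R) {M : ℕ → ℝ}
    {F : ℕ → E → ℝ} {U : ℕ → Ultrafilter ℕ} {V : Ultrafilter ℕ} {G : ℕ → E → ℝ}
    (h : ∀ k, IsULim K R M F (U k) (G k)) {G' : E → ℝ} (h' : IsULim K R M F (V.bind U) G')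
    {j : ℕ} (hj : j ≤ K) (u : E) {l : ℝ} (hl : Tendsto (fun k => lead j (G k) u) V (𝓝 l)) :
    lead j G' u = l :=
  tendsto_nhds_unique (h'.lead_tendsto hR hj u)
    (tendsto_bind (fun k => (h k).lead_tendsto hR hj u) hl)

/-- order `≥ i` passes to `bind` -/
theorem ordGE_bind {K : ℕ} {R : ℝ} (hR : 0 < R) {M : ℕ → ℝ}
    {F : ℕ → E → ℝ} {U : ℕ → Ultrafilter ℕ} {V : Ultrafilter ℕ} {G : ℕ → E → ℝ}
    (h : ∀ k, IsULim K R M F (U k) (G k)) {G' : E → ℝ} (h' : IsULim K R M F (V.bind U) G')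
    {i : ℕ} (hi : i ≤ K) (ho : ∀ k, OrdGE i (G k)) : OrdGE i G' := by
  intro j hj u
  refine lead_bind hR h h' (by omega) u ?_
  have : (fun k => lead j (G k) u) = fun _ => 0 := funext fun k => ho k j hj u
  rw [this]
  exact tendsto_const_nhds

/-- if the leading forms become small then the order of the limit is larger -/
theorem ordGE_succ_bind {K : ℕ} {R : ℝ} (hR : 0 < R) {M : ℕ → ℝ}
    {F : ℕ → E → ℝ} {U : ℕ → Ultrafilter ℕ} {V : Ultrafilter ℕ} (hV : (V : Filter ℕ) ≤ atTop)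
    {G : ℕ → E → ℝ}
    (h : ∀ k, IsULim K R M F (U k) (G k)) {G' : E → ℝ} (h' : IsULim K R M F (V.bind U) G')
    {i : ℕ} (hi : i ≤ K) (ho : ∀ k, OrdGE i (G k))
    (hs : ∀ k : ℕ, ∀ u : E, ‖u‖ ≤ 1 → |lead i (G k) u| < 1 / ((k : ℝ) + 1)) : OrdGE (i + 1) G' := by
  have h0 : ∀ u : E, ‖u‖ ≤ 1 → lead i G' u = 0 := by
    intro u hu
    refine lead_bind hR h h' hi u ?_
    have h1 : Tendsto (fun k : ℕ => 1 / ((k : ℝ) + 1)) V (𝓝 0) :=
      (tendsto_one_div_add_atTop_nhds_zero_nat).mono_left hV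
    exact squeeze_zero_norm (fun k => (hs k u hu).le) h1
  intro j hj u
  rcases Nat.lt_succ_iff_lt_or_eq.1 hj with h1 | h1
  · exact ordGE_bind hR h h' hi ho j h1 u
  · subst h1
    have h2 : (0 : ℝ) < ‖u‖ + 1 := by positivity
    have h3 : ‖(‖u‖ + 1)⁻¹ • u‖ ≤ 1 := by
      rw [norm_smul, norm_inv, Real.norm_of_nonneg h2.le, inv_mul_le_iff₀ h2]
      linarith
    have h4 := h0 _ h3
    rw [lead_smul, smul_eq_mul] at h4
    exact (mul_eq_zero.1 h4).resolve_left (pow_ne_zero _ (inv_ne_zero h2.ne'))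

/-- **The core of the ratio lemma.** Two families of functions, on two families of discs with
transition maps `σ`, `σ'` which are asymptotic to each other. -/
theorem ratio_core [FiniteDimensional ℝ E] {K : ℕ} {R ρ C₀ C₀' χm c c' χ χ' : ℝ} {Mσ Mσ' : ℕ → ℕ → ℝ}
    {M M' : ℕ → ℝ} {σ σ' : ℕ → ℕ → E → E} (hσ : Sig R ρ C₀ χm Mσ σ) (hσ' : Sig R ρ C₀' χm Mσ' σ')
    (hσσ : ∀ m, 1 ≤ m → ∀ u ∈ ball (0 : E) R, Tendsto (fun n => σ n m u - σ' n m u) atTop (𝓝 0))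
    {F F' : ℕ → E → ℝ} (hF : Fam K R ρ c χ M σ F) (hF' : Fam K R ρ c' χ' M' σ' F')
    (hK : χ < K * χm) (hK' : χ' < K * χm)
    (hw : ∀ u ∈ ball (0 : E) R, ∀ v w, Tendsto (fun n => fderiv ℝ (F n) u v * fderiv ℝ (F' n) u w -
      fderiv ℝ (F n) u w * fderiv ℝ (F' n) u v) atTop (𝓝 0)) :
    ∃ i i' : ℕ, 1 ≤ i ∧ 1 ≤ i' ∧ i * χm ≤ χ ∧ i' * χm ≤ χ' ∧ (i' : ℝ) * χ = i * χ' := by
  classical
  have hR := hσ.R_pos
  -- limits
  choose GG hGG using fun U => hF.exists_ulim U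
  choose GG' hGG' using fun U => hF'.exists_ulim U
  have hK1 : 1 ≤ K := by
    rcases Nat.eq_zero_or_pos K with h0 | h0
    · exfalso
      subst h0
      -- `χ < 0` is impossible: the functions cannot grow in the past
      have hχ : χ < 0 := by simpa using hK
      obtain ⟨s, hs1, hs2, hs3, hs4, hs5⟩ := hσ.exists_ulim (hyperfilter ℕ) (m := 1) le_rfl
      have key : ∀ m : ℕ, 1 ≤ m → c ≤ M 0 * (Real.exp χ) ^ m := by
        intro m hm
        obtain ⟨u, hu, hc⟩ := hF.low (0 + m)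
        have huR : u ∈ ball (0 : E) R := mem_ball_zero_iff.2 (hu.trans_lt hσ.ρ_lt)
        rw [hF.rel 0 m hm u huR, abs_mul, abs_of_pos (Real.exp_pos _)] at hc
        have h1 := (hF.ck 0).2 0 (Nat.zero_le _) (σ 0 m u)
          (mem_ball_zero_iff.2 ((hσ.maps 0 m hm u huR).trans_lt hσ.ρ_lt))
        rw [norm_iteratedFDeriv_zero, Real.norm_eq_abs] at h1
        calc c ≤ Real.exp (χ * m) * |F 0 (σ 0 m u)| := hc
          _ ≤ Real.exp (χ * m) * M 0 := by gcongr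
          _ = M 0 * (Real.exp χ) ^ m := by rw [← Real.exp_nat_mul, mul_comm (m : ℝ) χ]; ring
      have hlim : Tendsto (fun m : ℕ => M 0 * (Real.exp χ) ^ m) atTop (𝓝 0) := by
        have := (tendsto_pow_atTop_nhds_zero_of_lt_one (Real.exp_pos χ).le
          (Real.exp_lt_one_iff.2 hχ)).const_mul (M 0)
        simpa using this
      have h4 : c ≤ 0 := by
        refine ge_of_tendsto hlim ?_
        filter_upwards [eventually_ge_atTop 1] with m hm
        exact key m hm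
      exact absurd hF.c_pos (not_lt.2 h4)
    · exact h0
  -- the orders
  have hord1 : ∀ U, OrdGE 1 (GG U) := by
    intro U j hj u
    have hj0 : j = 0 := by omega
    subst hj0
    rw [lead_zero_order, (hGG U).zero hR hF]
  have hord1' : ∀ U, OrdGE 1 (GG' U) := by
    intro U j hj u
    have hj0 : j = 0 := by omega
    subst hj0
    rw [lead_zero_order, (hGG' U).zero hR hF']
  have hfin : ∀ U, ∀ l, 1 ≤ l → l ≤ K → χ < l * χm → ¬ OrdGE l (GG U) := fun U l h1 h2 h3 =>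
    hF.not_ordGE hσ (hGG U) h1 h2 h3
  have hfin' : ∀ U, ∀ l, 1 ≤ l → l ≤ K → χ' < l * χm → ¬ OrdGE l (GG' U) := fun U l h1 h2 h3 =>
    hF'.not_ordGE hσ' (hGG' U) h1 h2 h3
  -- maximal order `i`
  let P : ℕ → Prop := fun l => ∃ U : Ultrafilter ℕ, (U : Filter ℕ) ≤ atTop ∧ OrdGE l (GG U)
  have hP1 : P 1 := ⟨hyperfilter ℕ, Nat.hyperfilter_le_atTop, hord1 _⟩
  have hPK : ¬ P K := fun ⟨U, _, hU⟩ => hfin U K hK1 le_rfl hK hU
  have hex : ∃ l, ¬ P (l + 1) := ⟨K - 1, by rwa [Nat.sub_add_cancel hK1]⟩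
  set i := Nat.find hex with hi_def
  have hi_not : ¬ P (i + 1) := Nat.find_spec hex
  have hi_pos : 1 ≤ i := by
    rcases Nat.eq_zero_or_pos i with h0 | h0
    · rw [h0] at hi_not; exact absurd hP1 hi_not
    · exact h0
  have hi_P : P i := by
    have := Nat.find_min hex (m := i - 1) (by omega)
    rw [not_not, Nat.sub_add_cancel hi_pos] at this
    exact this
  have hiK : i + 1 ≤ K := by
    have : i ≤ K - 1 := Nat.find_min' hex (by rwa [Nat.sub_add_cancel hK1])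
    omega
  -- maximal order `i'`
  let Q : ℕ → Prop := fun l => ∃ U : Ultrafilter ℕ, (U : Filter ℕ) ≤ atTop ∧ OrdGE i (GG U) ∧
    OrdGE l (GG' U)
  have hQ1 : Q 1 := by
    obtain ⟨U, hU, hU2⟩ := hi_P
    exact ⟨U, hU, hU2, hord1' U⟩
  have hQK : ¬ Q K := fun ⟨U, _, _, hU⟩ => hfin' U K hK1 le_rfl hK' hU
  have hex' : ∃ l, ¬ Q (l + 1) := ⟨K - 1, by rwa [Nat.sub_add_cancel hK1]⟩
  set i' := Nat.find hex' with hi'_def
  have hi'_not : ¬ Q (i' + 1) := Nat.find_spec hex'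
  have hi'_pos : 1 ≤ i' := by
    rcases Nat.eq_zero_or_pos i' with h0 | h0
    · rw [h0] at hi'_not; exact absurd hQ1 hi'_not
    · exact h0
  have hi'_Q : Q i' := by
    have := Nat.find_min hex' (m := i' - 1) (by omega)
    rw [not_not, Nat.sub_add_cancel hi'_pos] at this
    exact this
  have hi'K : i' + 1 ≤ K := by
    have : i' ≤ K - 1 := Nat.find_min' hex' (by rwa [Nat.sub_add_cancel hK1])
    omega
  -- lower bound for the leading forms
  have hlow : ∃ δ > 0, ∀ U : Ultrafilter ℕ, (U : Filter ℕ) ≤ atTop → OrdGE i (GG U) →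
      ∃ u, ‖u‖ ≤ 1 ∧ δ ≤ |lead i (GG U) u| := by
    by_contra hcon
    push Not at hcon
    choose U hU1 hU2 hU3 using fun k : ℕ => hcon (1 / ((k : ℝ) + 1)) (by positivity)
    refine hi_not ⟨(hyperfilter ℕ).bind U, bind_le hU1, ?_⟩
    exact ordGE_succ_bind hR Nat.hyperfilter_le_atTop (fun k => hGG (U k)) (hGG _) (by omega) hU2
      hU3
  have hlow' : ∃ δ > 0, ∀ U : Ultrafilter ℕ, (U : Filter ℕ) ≤ atTop → OrdGE i (GG U) →
      OrdGE i' (GG' U) → ∃ u, ‖u‖ ≤ 1 ∧ δ ≤ |lead i' (GG' U) u| := by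
    by_contra hcon
    push Not at hcon
    choose U hU1 hU2 hU3 hU4 using fun k : ℕ => hcon (1 / ((k : ℝ) + 1)) (by positivity)
    refine hi'_not ⟨(hyperfilter ℕ).bind U, bind_le hU1, ?_, ?_⟩
    · exact ordGE_bind hR (fun k => hGG (U k)) (hGG _) (by omega) hU2
    · exact ordGE_succ_bind hR Nat.hyperfilter_le_atTop (fun k => hGG' (U k)) (hGG' _) (by omega)
        hU3 hU4
  obtain ⟨δ, hδ, hδ1⟩ := hlow
  obtain ⟨δ', hδ', hδ'1⟩ := hlow'
  obtain ⟨U, hU, hUi, hUi'⟩ := hi'_Q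
  -- the constant `c₀`
  have hwedge : WedgeZero (ball 0 R) (GG U) (GG' U) := by
    intro u hu v w
    have h1 := ((hGG U).fderiv_tendsto hK1 hu v).mul ((hGG' U).fderiv_tendsto hK1 hu w)
    have h2 := ((hGG U).fderiv_tendsto hK1 hu w).mul ((hGG' U).fderiv_tendsto hK1 hu v)
    have h3 := tendsto_nhds_unique (h1.sub h2) ((hw u hu v w).mono_left hU)
    linarith
  obtain ⟨k, hk⟩ : ∃ k, K = k + 1 := ⟨K - 1, by omega⟩
  obtain ⟨a, ha⟩ : ∃ a, i = a + 1 := ⟨i - 1, by omega⟩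
  obtain ⟨a', ha'⟩ : ∃ a', i' = a' + 1 := ⟨i' - 1, by omega⟩
  have hck : CkB (k + 1) M (ball 0 R) (GG U) := hk ▸ (hGG U).ck
  have hck' : CkB (k + 1) M' (ball 0 R) (GG' U) := hk ▸ (hGG' U).ck
  have hWL : WedgeZero univ (lead i (GG U)) (lead i' (GG' U)) := by
    rw [ha, ha']
    exact wedge_lead hR hck hck' hwedge (by omega) (by omega) (ha ▸ hUi) (ha' ▸ hUi')
  obtain ⟨u₁, -, hu₁⟩ := hδ'1 U hU hUi hUi'
  have hne : lead i' (GG' U) u₁ ≠ 0 := fun h0 => by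
    rw [h0, abs_zero] at hu₁; exact absurd hδ' (not_lt.2 hu₁)
  obtain ⟨c₀, hc₀⟩ := prop_of_wedge (analytic_lead i (GG U)) (analytic_lead i' (GG' U))
    (fun t u => by rw [lead_smul, smul_eq_mul]) (fun t u => by rw [lead_smul, smul_eq_mul]) hWL hne
  have hM : 0 ≤ M i := (norm_nonneg _).trans ((hGG U).ck.2 i (by omega) 0 (mem_ball_self hR))
  have hM' : 0 ≤ M' i' := (norm_nonneg _).trans ((hGG' U).ck.2 i' (by omega) 0 (mem_ball_self hR))
  -- the relation at time `m`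
  have hrelm : ∀ m : ℕ, 1 ≤ m → OrdGE i (GG (shift U m)) ∧ OrdGE i' (GG' (shift U m)) ∧
      ∀ u, lead i (GG (shift U m)) u ^ i' =
        (Real.exp (i' * χ - i * χ')) ^ m * c₀ * lead i' (GG' (shift U m)) u ^ i := by
    intro m hm
    obtain ⟨s, hs1, hs2, hs3, hs4, hs5⟩ := hσ.exists_ulim U hm
    obtain ⟨e1, e2⟩ := IsULim.lead_shift hR (hGG U).ck (hGG (shift U m)).ck hs2 hs3
      (fun u hu => (hGG U).rel hσ hF hm (hGG (shift U m)) hs1 hs4 hu) hiK hUi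
    have hs1' : ∀ u ∈ ball (0 : E) R, Tendsto (fun n => σ' n m u) U (𝓝 (s u)) := by
      intro u hu
      have h1 := (hs1 u hu).sub ((hσσ m hm u hu).mono_left hU)
      simpa using h1
    obtain ⟨e1', e2'⟩ := IsULim.lead_shift hR (hGG' U).ck (hGG' (shift U m)).ck hs2 hs3
      (fun u hu => (hGG' U).rel hσ' hF' hm (hGG' (shift U m)) hs1' hs4 hu) hi'K hUi'
    refine ⟨e1, e1', fun u => ?_⟩
    rw [e2 u, e2' u, mul_pow, hc₀, mul_pow]
    have e3 : Real.exp (χ * m) ^ i' = (Real.exp (i' * χ - i * χ')) ^ m * Real.exp (χ' * m) ^ i := by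
      rw [← Real.exp_nat_mul, ← Real.exp_nat_mul, ← Real.exp_nat_mul, ← Real.exp_add]
      congr 1
      ring
    rw [e3]
    ring
  have hnorm : ∀ (U' : Ultrafilter ℕ) (u : E), ‖u‖ ≤ 1 → |lead i (GG U') u| ≤ M i := by
    intro U' u hu
    have h1 := norm_lead_le hR (hGG U').ck (i := i) (by omega) u
    rw [Real.norm_eq_abs] at h1
    calc _ ≤ M i * ‖u‖ ^ i := h1
      _ ≤ M i * 1 := by gcongr; exact pow_le_one₀ (norm_nonneg _) hu
      _ = M i := mul_one _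
  have hnorm' : ∀ (U' : Ultrafilter ℕ) (u : E), ‖u‖ ≤ 1 → |lead i' (GG' U') u| ≤ M' i' := by
    intro U' u hu
    have h1 := norm_lead_le hR (hGG' U').ck (i := i') (by omega) u
    rw [Real.norm_eq_abs] at h1
    calc _ ≤ M' i' * ‖u‖ ^ i' := h1
      _ ≤ M' i' * 1 := by gcongr; exact pow_le_one₀ (norm_nonneg _) hu
      _ = M' i' := mul_one _
  set q := Real.exp (i' * χ - i * χ') with hq
  have hq0 : 0 < q := Real.exp_pos _
  have hup : ∀ m : ℕ, 1 ≤ m → q ^ m * (|c₀| * δ' ^ i) ≤ M i ^ i' := by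
    intro m hm
    obtain ⟨e1, e1', e2⟩ := hrelm m hm
    obtain ⟨u, hu, hd⟩ := hδ'1 _ (shift_le hU m) e1 e1'
    have e3 := congrArg abs (e2 u)
    rw [abs_pow, abs_mul, abs_mul, abs_pow, abs_pow, abs_of_pos hq0] at e3
    calc q ^ m * (|c₀| * δ' ^ i) ≤ q ^ m * (|c₀| * |lead i' (GG' (shift U m)) u| ^ i) := by gcongr
      _ = |lead i (GG (shift U m)) u| ^ i' := by rw [e3]; ring
      _ ≤ M i ^ i' := by gcongr; exact hnorm _ u hu
  have hdown : ∀ m : ℕ, 1 ≤ m → δ ^ i' ≤ q ^ m * (|c₀| * M' i' ^ i) := by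
    intro m hm
    obtain ⟨e1, e1', e2⟩ := hrelm m hm
    obtain ⟨u, hu, hd⟩ := hδ1 _ (shift_le hU m) e1
    have e3 := congrArg abs (e2 u)
    rw [abs_pow, abs_mul, abs_mul, abs_pow, abs_pow, abs_of_pos hq0] at e3
    calc δ ^ i' ≤ |lead i (GG (shift U m)) u| ^ i' := by gcongr
      _ = q ^ m * (|c₀| * |lead i' (GG' (shift U m)) u| ^ i) := by rw [e3]; ring
      _ ≤ q ^ m * (|c₀| * M' i' ^ i) := by gcongr; exact hnorm' _ u hu
  have hc0 : 0 < |c₀| := by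
    have h1 := hdown 1 le_rfl
    have h2 : 0 < δ ^ i' := pow_pos hδ _
    rcases (abs_nonneg c₀).lt_or_eq with h3 | h3
    · exact h3
    · rw [← h3] at h1
      simp at h1
      exact absurd h2 (not_lt.2 h1)
  have hq1 : q = 1 := by
    rcases lt_trichotomy q 1 with h1 | h1 | h1
    · exfalso
      have hlim : Tendsto (fun m : ℕ => q ^ m * (|c₀| * M' i' ^ i)) atTop (𝓝 0) := by
        simpa using (tendsto_pow_atTop_nhds_zero_of_lt_one hq0.le h1).mul_const (|c₀| * M' i' ^ i)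
      have : δ ^ i' ≤ 0 := ge_of_tendsto hlim (by
        filter_upwards [eventually_ge_atTop 1] with m hm
        exact hdown m hm)
      exact absurd (pow_pos hδ i') (not_lt.2 this)
    · exact h1
    · exfalso
      have hlim : Tendsto (fun m : ℕ => q ^ m * (|c₀| * δ' ^ i)) atTop atTop :=
        (tendsto_pow_atTop_atTop_of_one_lt h1).atTop_mul_const (by positivity)
      obtain ⟨m, hm1, hm2⟩ := ((hlim.eventually_gt_atTop (M i ^ i')).and
        (eventually_ge_atTop 1)).exists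
      exact absurd (hup m hm2) (not_le.2 hm1)
  refine ⟨i, i', hi_pos, hi'_pos, ?_, ?_, ?_⟩
  · by_contra hcon
    obtain ⟨U, _, hU2⟩ := hi_P
    exact hfin U i hi_pos (by omega) (not_le.1 hcon) hU2
  · by_contra hcon
    exact hfin' U i' hi'_pos (by omega) (not_le.1 hcon) hUi'
  · have := (Real.exp_eq_one_iff _).1 (hq ▸ hq1 : Real.exp (i' * χ - i * χ') = 1)
    linarith

/-- the pointwise form of `dF ∧ dF' → 0` from the limits along subsequences -/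
theorem wedge_tendsto_of_limits [FiniteDimensional ℝ E] {K : ℕ} (hK : 1 ≤ K) {R : ℝ}
    {M M' : ℕ → ℝ} {F F' : ℕ → E → ℝ} (hF : ∀ n, CkB (K + 1) M (ball 0 R) (F n))
    (hF' : ∀ n, CkB (K + 1) M' (ball 0 R) (F' n))
    (hw : ∀ (θ : ℕ → ℕ) (G G' : E → ℝ), Tendsto θ atTop atTop →
      CkB K M (ball 0 R) G → CkB K M' (ball 0 R) G' →
      (∀ j ≤ K, TendstoUniformlyOn (fun n => iteratedFDeriv ℝ j (F (θ n))) (iteratedFDeriv ℝ j G)
        atTop (ball 0 R)) →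
      (∀ j ≤ K, TendstoUniformlyOn (fun n => iteratedFDeriv ℝ j (F' (θ n))) (iteratedFDeriv ℝ j G')
        atTop (ball 0 R)) → WedgeZero (ball 0 R) G G') :
    ∀ u ∈ ball (0 : E) R, ∀ v w, Tendsto (fun n => fderiv ℝ (F n) u v * fderiv ℝ (F' n) u w -
      fderiv ℝ (F n) u w * fderiv ℝ (F' n) u v) atTop (𝓝 0) := by
  intro u hu v w
  refine tendsto_of_subseq_tendsto fun ns hns => ?_
  obtain ⟨θ, hθ, G, hG, hG2, -⟩ := ck_subseq isOpen_ball (convex_ball (0 : E) R) isBounded_ball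
    (fun n => hF (ns n))
  obtain ⟨ψ, hψ, G', hG', hG2', -⟩ := ck_subseq isOpen_ball (convex_ball (0 : E) R) isBounded_ball
    (fun n => hF' (ns (θ n)))
  refine ⟨fun n => θ (ψ n), ?_⟩
  have h1 : ∀ j ≤ K, TendstoUniformlyOn (fun n => iteratedFDeriv ℝ j (F (ns (θ (ψ n)))))
      (iteratedFDeriv ℝ j G) atTop (ball 0 R) := fun j hj q hq =>
    hψ.tendsto_atTop.eventually (hG2 j hj q hq)
  have hW := hw (fun n => ns (θ (ψ n))) G G'
    (hns.comp (hθ.tendsto_atTop.comp hψ.tendsto_atTop)) hG hG' h1 hG2'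
  have hfd : ∀ {H : ℕ → E → ℝ} {H' : E → ℝ}, TendstoUniformlyOn (fun n => iteratedFDeriv ℝ 1 (H n))
      (iteratedFDeriv ℝ 1 H') atTop (ball 0 R) → ∀ z : E,
      Tendsto (fun n => fderiv ℝ (H n) u z) atTop (𝓝 (fderiv ℝ H' u z)) := by
    intro H H' hH z
    have h2 : Continuous fun q : E [×1]→L[ℝ] ℝ => q (fun _ => z) :=
      (ContinuousMultilinearMap.apply ℝ (fun _ : Fin 1 => E) ℝ (fun _ => z)).continuous
    have h3 := (h2.tendsto _).comp (hH.tendsto_at hu)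
    simpa [Function.comp_def, iteratedFDeriv_one_apply] using h3
  have h4 := ((hfd (h1 1 hK) v).mul (hfd (hG2' 1 hK) w)).sub
    ((hfd (h1 1 hK) w).mul (hfd (hG2' 1 hK) v))
  rw [hW u hu v w, sub_self] at h4
  exact h4

end Vale.Agent.P207.N3.H828
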