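import Vale.Agent.P207.N3.H828.CK

/-!
# Leading forms of C^k functions at a point (helper828, line N3 of P207)

`lead i G u = (i!)⁻¹ • D^i G(0)(u,…,u)`.
-/

open Set Filter Topology Metric
open scoped Nat

noncomputable section

namespace Vale.Agent.P207.N3.H828

variable {E W : Type*} [NormedAddCommGroup E] [NormedSpace ℝ E]
  [NormedAddCommGroup W] [NormedSpace ℝ W]

/-- the homogeneous part of degree `i` of `G` at `0` -/
def lead (i : ℕ) (G : E → W) (u : E) : W := (i ! : ℝ)⁻¹ • iteratedFDeriv ℝ i G 0 (fun _ => u)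

theorem lead_smul (i : ℕ) (G : E → W) (t : ℝ) (u : E) : lead i G (t • u) = t ^ i • lead i G u := by
  unfold lead
  have := (iteratedFDeriv ℝ i G 0).map_smul_univ (fun _ => t) (fun _ => u)
  simp only [Finset.prod_const, Finset.card_univ, Fintype.card_fin] at this
  rw [this, smul_comm]

theorem lead_zero_order (G : E → W) (u : E) : lead 0 G u = G 0 := by
  simp [lead]

theorem continuous_lead (i : ℕ) (G : E → W) : Continuous (lead i G) := by
  unfold lead
  exact ((iteratedFDeriv ℝ i G 0).cont.comp (continuous_pi fun _ => continuous_id)).const_smul _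

theorem norm_lead_le {k : ℕ} {M : ℕ → ℝ} {R : ℝ} (hR : 0 < R) {G : E → W}
    (h : CkB k M (ball 0 R) G) {i : ℕ} (hi : i ≤ k) (u : E) : ‖lead i G u‖ ≤ M i * ‖u‖ ^ i := by
  unfold lead
  rw [norm_smul, norm_inv, Real.norm_natCast]
  have h1 : ‖iteratedFDeriv ℝ i G 0 (fun _ => u)‖ ≤ ‖iteratedFDeriv ℝ i G 0‖ * ‖u‖ ^ i := by
    simpa using (iteratedFDeriv ℝ i G 0).le_opNorm (fun _ => u)
  have h2 := h.2 i hi 0 (mem_ball_self hR)
  have h3 : ((i ! : ℝ))⁻¹ ≤ 1 := inv_le_one_of_one_le₀ (by exact_mod_cast Nat.factorial_pos i)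
  calc ((i ! : ℝ))⁻¹ * ‖iteratedFDeriv ℝ i G 0 (fun _ => u)‖ ≤ 1 * (‖iteratedFDeriv ℝ i G 0‖ * ‖u‖ ^ i) := by
        gcongr
    _ ≤ M i * ‖u‖ ^ i := by rw [one_mul]; gcongr

/-- Taylor with remainder -/
theorem taylor_lead [CompleteSpace W] {k : ℕ} {M : ℕ → ℝ} {R : ℝ} {G : E → W}
    (h : CkB k M (ball 0 R) G) {n : ℕ} (hn : n + 1 ≤ k) {u : E} (hu : u ∈ ball (0 : E) R) :
    ‖G u - ∑ j ∈ Finset.range (n + 1), lead j G u‖ ≤ M (n + 1) * ‖u‖ ^ (n + 1) := by
  have hmem : ∀ t ∈ Set.Icc (0 : ℝ) 1, (0 : E) + t • u ∈ ball (0 : E) R := by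
    intro t ht
    rw [mem_ball_zero_iff] at hu ⊢
    rw [zero_add, norm_smul, Real.norm_of_nonneg ht.1]
    calc t * ‖u‖ ≤ 1 * ‖u‖ := by gcongr; exact ht.2
      _ < R := by rwa [one_mul]
  have h1 := map_add_eq_sum_add_integral_iteratedFDeriv (f := G) (x := 0) (y := u) (n := n)
    (fun t ht => ((h.1.contDiffAt (isOpen_ball.mem_nhds (hmem t ht))).of_le
      (by exact_mod_cast hn)))
  rw [zero_add] at h1
  have h2 : G u - ∑ j ∈ Finset.range (n + 1), lead j G u = (n ! : ℝ)⁻¹ •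
      ∫ t in (0 : ℝ)..1, (1 - t) ^ n • iteratedFDeriv ℝ (n + 1) G (0 + t • u) (fun _ ↦ u) := by
    rw [sub_eq_iff_eq_add']
    exact h1
  rw [h2, norm_smul, norm_inv, Real.norm_natCast]
  have hM : 0 ≤ M (n + 1) := (norm_nonneg _).trans (h.2 (n + 1) hn u hu)
  have h3 : ‖∫ t in (0 : ℝ)..1, (1 - t) ^ n • iteratedFDeriv ℝ (n + 1) G (0 + t • u) (fun _ ↦ u)‖ ≤
      (M (n + 1) * ‖u‖ ^ (n + 1)) * |1 - 0| := by
    refine intervalIntegral.norm_integral_le_of_norm_le_const fun t ht => ?_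
    rw [uIoc_of_le zero_le_one] at ht
    rw [norm_smul, Real.norm_eq_abs, abs_pow, abs_of_nonneg (by linarith [ht.2] : (0 : ℝ) ≤ 1 - t)]
    have h4 : ‖iteratedFDeriv ℝ (n + 1) G (0 + t • u) (fun _ => u)‖ ≤
        ‖iteratedFDeriv ℝ (n + 1) G (0 + t • u)‖ * ‖u‖ ^ (n + 1) := by
      simpa using (iteratedFDeriv ℝ (n + 1) G (0 + t • u)).le_opNorm (fun _ => u)
    have h5 := h.2 (n + 1) hn (0 + t • u) (hmem t ⟨ht.1.le, ht.2⟩)
    have h6 : (1 - t) ^ n ≤ 1 := pow_le_one₀ (by linarith [ht.2]) (by linarith [ht.1])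
    calc (1 - t) ^ n * ‖iteratedFDeriv ℝ (n + 1) G (0 + t • u) (fun _ => u)‖
        ≤ 1 * (‖iteratedFDeriv ℝ (n + 1) G (0 + t • u)‖ * ‖u‖ ^ (n + 1)) := by gcongr
      _ ≤ M (n + 1) * ‖u‖ ^ (n + 1) := by rw [one_mul]; gcongr
  have h3' : ((n ! : ℝ))⁻¹ ≤ 1 := inv_le_one_of_one_le₀ (by exact_mod_cast Nat.factorial_pos n)
  calc _ ≤ 1 * ((M (n + 1) * ‖u‖ ^ (n + 1)) * |1 - 0|) := by gcongr
    _ = _ := by simp

/-- order `≥ i`: the homogeneous parts of degree `< i` vanish -/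
def OrdGE (i : ℕ) (G : E → W) : Prop := ∀ j < i, ∀ u, lead j G u = 0

theorem OrdGE.taylor [CompleteSpace W] {k : ℕ} {M : ℕ → ℝ} {R : ℝ} {G : E → W}
    (h : CkB k M (ball 0 R) G) {i : ℕ} (ho : OrdGE i G) (hi : i + 1 ≤ k) {u : E}
    (hu : u ∈ ball (0 : E) R) : ‖G u - lead i G u‖ ≤ M (i + 1) * ‖u‖ ^ (i + 1) := by
  have h1 := taylor_lead h hi hu
  rw [Finset.sum_range_succ, Finset.sum_eq_zero (fun j hj => ho j (Finset.mem_range.1 hj) u),
    zero_add] at h1
  exact h1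

theorem OrdGE.bound [CompleteSpace W] {k : ℕ} {M : ℕ → ℝ} {R : ℝ} {G : E → W}
    (h : CkB k M (ball 0 R) G) {i : ℕ} (ho : OrdGE (i + 1) G) (hi : i + 1 ≤ k) {u : E}
    (hu : u ∈ ball (0 : E) R) : ‖G u‖ ≤ M (i + 1) * ‖u‖ ^ (i + 1) := by
  have h1 := taylor_lead h hi hu
  rw [Finset.sum_eq_zero (fun j hj => ho j (Finset.mem_range.1 hj) u), sub_zero] at h1
  exact h1

/-- scaling limit along any family `t → 0`, `v → u`, with `t • v` in place of `t • u` -/
theorem OrdGE.tendsto [CompleteSpace W] {k : ℕ} {M : ℕ → ℝ} {R : ℝ} (hR : 0 < R) {G : E → W}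
    (h : CkB k M (ball 0 R) G) {i : ℕ} (ho : OrdGE i G) (hi : i + 1 ≤ k) {u : E}
    {l : Filter ℝ} (hl : l ≤ 𝓝[>] (0 : ℝ)) {v : ℝ → E} (hv : Tendsto v l (𝓝 u)) :
    Tendsto (fun t : ℝ => (t ^ i)⁻¹ • G (t • v t)) l (𝓝 (lead i G u)) := by
  have ht0 : Tendsto (fun t : ℝ => t) l (𝓝 0) := hl.trans nhdsWithin_le_nhds
  have hpos : ∀ᶠ t in l, 0 < t := hl self_mem_nhdsWithin
  have h0 : Tendsto (fun t : ℝ => t • v t) l (𝓝 0) := by
    simpa using ht0.smul hv
  have hmem : ∀ᶠ t in l, t • v t ∈ ball (0 : E) R := h0.eventually (ball_mem_nhds _ hR)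
  have h1 : Tendsto (fun t => lead i G (v t)) l (𝓝 (lead i G u)) :=
    ((continuous_lead i G).tendsto u).comp hv
  have h2 : Tendsto (fun t => (t ^ i)⁻¹ • G (t • v t) - lead i G (v t)) l (𝓝 0) := by
    have h3 : Tendsto (fun t => M (i + 1) * (t * ‖v t‖ ^ (i + 1))) l (𝓝 0) := by
      have := (ht0.mul ((hv.norm).pow (i + 1))).const_mul (M (i + 1))
      simpa using this
    refine squeeze_zero_norm' ?_ h3
    filter_upwards [hpos, hmem] with t ht hm
    have h4 := ho.taylor h hi hm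
    rw [lead_smul] at h4
    have h5 : (t ^ i)⁻¹ • G (t • v t) - lead i G (v t) =
        (t ^ i)⁻¹ • (G (t • v t) - t ^ i • lead i G (v t)) := by
      rw [smul_sub, inv_smul_smul₀ (pow_pos ht i).ne']
    rw [h5, norm_smul, norm_inv, norm_pow, Real.norm_of_nonneg ht.le]
    calc (t ^ i)⁻¹ * ‖G (t • v t) - t ^ i • lead i G (v t)‖
        ≤ (t ^ i)⁻¹ * (M (i + 1) * ‖t • v t‖ ^ (i + 1)) := by gcongr
      _ = M (i + 1) * (t * ‖v t‖ ^ (i + 1)) := by
          rw [norm_smul, Real.norm_of_nonneg ht.le, mul_pow, pow_succ t i]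
          field_simp
  have h6 := h2.add h1
  simpa using h6

/-- converse: decay along rays gives the order -/
theorem ordGE_of_tendsto [CompleteSpace W] {k : ℕ} {M : ℕ → ℝ} {R : ℝ} (hR : 0 < R) {G : E → W}
    (h : CkB k M (ball 0 R) G) {i : ℕ} (hi : i ≤ k)
    (hd : ∀ l < i, ∀ u : E, Tendsto (fun t : ℝ => (t ^ l)⁻¹ • G (t • u)) (𝓝[>] (0 : ℝ)) (𝓝 0)) :
    OrdGE i G := by
  have key : ∀ j ≤ i, OrdGE j G := by
    intro j
    induction j with
    | zero => intro _ l hl; omega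
    | succ j ih =>
      intro hj l hl u
      rcases Nat.lt_succ_iff_lt_or_eq.1 hl with h1 | h1
      · exact ih (by omega) l h1 u
      · subst h1
        have h2 := (ih (by omega)).tendsto hR h (by omega) le_rfl
          (v := fun _ => u) tendsto_const_nhds
        exact tendsto_nhds_unique h2 (hd l (by omega) u)
  exact key i le_rfl

/-- the derivative of a `CkB` function -/
theorem CkB.fderiv {k : ℕ} {M : ℕ → ℝ} {S : Set E} (hS : IsOpen S) {F : E → W}
    (h : CkB (k + 1) M S F) : CkB k (fun j => M (j + 1)) S (fderiv ℝ F) := by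
  refine ⟨h.1.fderiv_of_isOpen hS (by norm_cast), fun j hj u hu => ?_⟩
  rw [norm_iteratedFDeriv_fderiv]
  exact h.2 (j + 1) (by omega) u hu

/-- induction step: the lowest part of `DG` is the derivative of the next part of `G` -/
theorem hasFDerivAt_lead_step [CompleteSpace W] {k : ℕ} {M : ℕ → ℝ} {R : ℝ} (hR : 0 < R) {G : E → W}
    (h : CkB (k + 1) M (ball 0 R) G) {j : ℕ} (hj : j + 1 ≤ k) (ho : OrdGE (j + 1) G)
    (ho' : OrdGE j (_root_.fderiv ℝ G)) (u : E) :
    HasFDerivAt (lead (j + 1) G) (lead j (_root_.fderiv ℝ G) u) u := by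
  have h' := h.fderiv isOpen_ball
  set r := ‖u‖ + 1 with hr
  have hr0 : 0 < r := by positivity
  set t : ℕ → ℝ := fun n => R / (r * (n + 2)) with ht
  have ht0 : ∀ n, 0 < t n := fun n => by positivity
  have htr : ∀ n, t n * r < R := by
    intro n
    have : t n * r = R / (n + 2) := by rw [ht]; field_simp
    rw [this, div_lt_iff₀ (by positivity)]
    nlinarith [hR, (Nat.cast_nonneg n : (0 : ℝ) ≤ n)]
  have htlim : Tendsto t atTop (𝓝 0) := by
    have h1 : Tendsto (fun n : ℕ => (n : ℝ) + 2) atTop atTop :=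
      tendsto_natCast_atTop_atTop.atTop_add tendsto_const_nhds
    have h2 := (h1.const_mul_atTop hr0)
    exact tendsto_const_nhds.div_atTop h2
  have htlim' : Tendsto t atTop (𝓝[>] 0) :=
    tendsto_nhdsWithin_iff.2 ⟨htlim, Eventually.of_forall ht0⟩
  have hmem : ∀ n, ∀ v ∈ ball (0 : E) r, t n • v ∈ ball (0 : E) R := by
    intro n v hv
    rw [mem_ball_zero_iff] at hv ⊢
    rw [norm_smul, Real.norm_of_nonneg (ht0 n).le]
    exact (mul_lt_mul_of_pos_left hv (ht0 n)).trans (htr n)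
  refine hasFDerivAt_of_tendstoUniformlyOn (l := atTop) (s := ball (0 : E) r) isOpen_ball
    (f := fun n v => ((t n) ^ (j + 1))⁻¹ • G (t n • v))
    (f' := fun n v => ((t n) ^ j)⁻¹ • _root_.fderiv ℝ G (t n • v))
    (g := lead (j + 1) G) (g' := lead j (_root_.fderiv ℝ G)) ?_ ?_ ?_
    (by rw [mem_ball_zero_iff, hr]; linarith)
  · rw [Metric.tendstoUniformlyOn_iff]
    intro ε hε
    have h3 : Tendsto (fun n => |M (j + 1 + 1)| * r ^ (j + 1) * t n) atTop (𝓝 0) := by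
      simpa using htlim.const_mul (|M (j + 1 + 1)| * r ^ (j + 1))
    filter_upwards [h3.eventually (gt_mem_nhds hε)] with n hn v hv
    have h4 := ho'.taylor h' hj (hmem n v hv)
    rw [lead_smul] at h4
    have h5 : ((t n) ^ j)⁻¹ • _root_.fderiv ℝ G (t n • v) - lead j (_root_.fderiv ℝ G) v =
        ((t n) ^ j)⁻¹ • (_root_.fderiv ℝ G (t n • v) - (t n) ^ j • lead j (_root_.fderiv ℝ G) v) := by
      rw [smul_sub, inv_smul_smul₀ (pow_pos (ht0 n) j).ne']
    rw [dist_comm, dist_eq_norm, h5, norm_smul, norm_inv, norm_pow, Real.norm_of_nonneg (ht0 n).le]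
    refine lt_of_le_of_lt ?_ hn
    rw [mem_ball_zero_iff] at hv
    have ht0n := ht0 n
    calc ((t n) ^ j)⁻¹ * ‖_root_.fderiv ℝ G (t n • v) - (t n) ^ j • lead j (_root_.fderiv ℝ G) v‖
        ≤ ((t n) ^ j)⁻¹ * (M (j + 1 + 1) * ‖t n • v‖ ^ (j + 1)) := by gcongr
      _ = M (j + 1 + 1) * ‖v‖ ^ (j + 1) * t n := by
          rw [norm_smul, Real.norm_of_nonneg (ht0 n).le, mul_pow, pow_succ (t n) j]
          field_simp
      _ ≤ |M (j + 1 + 1)| * r ^ (j + 1) * t n := by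
          gcongr
          exact le_abs_self _
  · intro n v hv
    have h6 : HasFDerivAt G (_root_.fderiv ℝ G (t n • v)) (t n • v) :=
      ((h.1.contDiffAt (isOpen_ball.mem_nhds (hmem n v hv))).differentiableAt
        (by norm_cast)).hasFDerivAt
    have h7 : HasFDerivAt (fun w : E => t n • w) (t n • ContinuousLinearMap.id ℝ E) v :=
      (ContinuousLinearMap.id ℝ E).hasFDerivAt.const_smul (t n)
    have h8 := (h6.comp v h7).const_smul ((t n) ^ (j + 1))⁻¹
    have h10 : ((t n) ^ (j + 1))⁻¹ • (_root_.fderiv ℝ G (t n • v)).comp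
        (t n • ContinuousLinearMap.id ℝ E) = ((t n) ^ j)⁻¹ • _root_.fderiv ℝ G (t n • v) := by
      have h11 : (_root_.fderiv ℝ G (t n • v)).comp (t n • ContinuousLinearMap.id ℝ E) =
          t n • _root_.fderiv ℝ G (t n • v) := by
        ext w
        simp
      rw [h11, smul_smul]
      congr 1
      have := (ht0 n).ne'
      rw [pow_succ]
      field_simp
    rw [h10] at h8
    exact h8
  · intro v hv
    have h9 := ho.tendsto hR h (by omega) (l := map t atTop) (u := v) htlim'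
      (v := fun _ => v) tendsto_const_nhds
    exact h9

/-- `D (lead (i+1) G) = lead i (DG)` and the order of `DG` if `G` has order `≥ i + 1` -/
theorem OrdGE.fderiv [CompleteSpace W] {k : ℕ} {M : ℕ → ℝ} {R : ℝ} (hR : 0 < R) {G : E → W}
    (h : CkB (k + 1) M (ball 0 R) G) {i : ℕ} (hi : i + 1 ≤ k) (ho : OrdGE (i + 1) G) :
    OrdGE i (_root_.fderiv ℝ G) ∧
      ∀ u, HasFDerivAt (lead (i + 1) G) (lead i (_root_.fderiv ℝ G) u) u := by
  have key : ∀ j ≤ i, OrdGE j (_root_.fderiv ℝ G) := by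
    intro j
    induction j with
    | zero => intro _ l hl; omega
    | succ j ih =>
      intro hj l hl u
      rcases Nat.lt_succ_iff_lt_or_eq.1 hl with h1 | h1
      · exact ih (by omega) l h1 u
      · subst h1
        have h2 := hasFDerivAt_lead_step hR h (j := l) (by omega)
          (fun m hm v => ho m (by omega) v) (ih (by omega)) u
        have h3 : lead (l + 1) G = fun _ => 0 := funext fun v => ho (l + 1) (by omega) v
        rw [h3] at h2
        exact h2.unique (hasFDerivAt_const 0 u)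
  exact ⟨key i le_rfl, fun u => hasFDerivAt_lead_step hR h hi ho (key i le_rfl) u⟩

end Vale.Agent.P207.N3.H828
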