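import Vale.Agent.P207.N3.H576.Wten

/-!
# P207, line N3, P12: the mixed determinant under a change of the charts
-/

noncomputable section

open Set Filter Topology Metric
open scoped ContDiff

set_option maxSynthPendingDepth 3
set_option linter.unusedSectionVars false

namespace Vale.Agent.P207.N3.H828

open H576

/-- the determinant of an endomorphism in the basis `bv` -/
theorem det_bv (A : E2 →L[ℝ] E2) : A.det = (A (bv 0)) 0 * (A (bv 1)) 1
    - (A (bv 1)) 0 * (A (bv 0)) 1 := by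
  have h1 : A.det = LinearMap.det (A : E2 →ₗ[ℝ] E2) := rfl
  rw [h1, ← LinearMap.det_toMatrix (EuclideanSpace.basisFun (Fin 2) ℝ).toBasis,
    Matrix.det_fin_two]
  simp [LinearMap.toMatrix_apply, bv]

/-- the determinant of the composition -/
theorem mdet_comp (M M' : E2 →L[ℝ] D2) (P Q : E2 →L[ℝ] E2)
    (h : ∀ v w, M' v w = M (Q v) (P w)) : mdet M' = P.det * Q.det * mdet M := by
  have e : ∀ v w, M v w = v 0 * w 0 * M (bv 0) (bv 0) + v 0 * w 1 * M (bv 0) (bv 1)
      + v 1 * w 0 * M (bv 1) (bv 0) + v 1 * w 1 * M (bv 1) (bv 1) := by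
    intro v w
    rw [clm_bv M v]
    simp only [_root_.add_apply, _root_.smul_apply, smul_eq_mul]
    rw [cov_apply (M (bv 0)) w, cov_apply (M (bv 1)) w]
    ring
  rw [mdet, mdet, det_bv, det_bv]
  simp only [h]
  rw [e (Q (bv 0)) (P (bv 0)), e (Q (bv 1)) (P (bv 1)), e (Q (bv 0)) (P (bv 1)),
    e (Q (bv 1)) (P (bv 0))]
  ring

variable {f f' : E2 × E2 → ℝ} {al be : E2 → E2} {g1 g2 : E2 → ℝ} {z : E2 × E2}

/-- the mixed derivative of the transformed function -/
theorem mixed_change (hal : Sm al z.1) (hbe : Sm be z.2) (hf : Sm f (al z.1, be z.2))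
    (hg : Sm g1 z.1) (h : f' =ᶠ[𝓝 z] fun x => f (al x.1, be x.2) + g1 x.1 + g2 x.2)
    (v w : E2) :
    du (dp f') z v w = du (dp f) (al z.1, be z.2) (fderiv ℝ be z.2 v) (fderiv ℝ al z.1 w) := by
  have h0 : Tendsto (fun u : E2 => (z.1, u)) (𝓝 z.2) (𝓝 z) := by
    have : ContinuousAt (fun u : E2 => (z.1, u)) z.2 := by fun_prop
    exact this
  have h1 : (fun u => dp f' (z.1, u)) =ᶠ[𝓝 z.2] fun u => (dp f (al z.1, be u)) ∘L
      (fderiv ℝ al z.1) + fderiv ℝ g1 z.1 := h0.eventually (dp_change hal hbe hf hg h)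
  have h2 : HasFDerivAt (fun u => dp f (al z.1, be u))
      ((du (dp f) (al z.1, be z.2)) ∘L (fderiv ℝ be z.2)) z.2 :=
    HasFDerivAt.comp (g := fun u => dp f (al z.1, u)) z.2
      (has_du (f := dp f) (z := (al z.1, be z.2)) hf.dp.diff) hbe.diff.hasFDerivAt
  have h3 := (((ContinuousLinearMap.compL ℝ E2 E2 ℝ).flip (fderiv ℝ al z.1)).hasFDerivAt.comp
    z.2 h2).add_const (fderiv ℝ g1 z.1)
  have h4 : du (dp f') z = ((ContinuousLinearMap.compL ℝ E2 E2 ℝ).flip (fderiv ℝ al z.1)) ∘L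
      ((du (dp f) (al z.1, be z.2)) ∘L (fderiv ℝ be z.2)) := by
    rw [du, h1.fderiv_eq]
    exact h3.fderiv
  rw [h4]
  rfl

/-- **the mixed determinant under a change of the charts** -/
theorem mdet_change (hal : Sm al z.1) (hbe : Sm be z.2) (hf : Sm f (al z.1, be z.2))
    (hg : Sm g1 z.1) (h : f' =ᶠ[𝓝 z] fun x => f (al x.1, be x.2) + g1 x.1 + g2 x.2) :
    mdet (du (dp f') z) = (fderiv ℝ al z.1).det * (fderiv ℝ be z.2).det
      * mdet (du (dp f) (al z.1, be z.2)) :=
  mdet_comp _ _ _ _ (mixed_change hal hbe hf hg h)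

/-- the mixed determinant is continuous -/
theorem mdet_cont (hf : Sm f z) : ContinuousAt (fun x => mdet (du (dp f) x)) z := by
  have h1 : ContinuousAt (du (dp f)) z := hf.dp.du.at.continuousAt
  have h2 : Continuous fun M : E2 →L[ℝ] D2 => mdet M := by
    unfold mdet
    fun_prop
  exact h2.continuousAt.comp h1

end Vale.Agent.P207.N3.H828
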