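import Vale.Agent.P207.N3.H828.Nu
import Vale.Agent.P207.N3.H828.MixD
import Vale.Agent.P207.N3.H828.SmC
import Vale.Agent.P207.N3.H442.Loc3

/-!
# P207, line N3, P12: the Monge-Ampere equation

In the smooth case `|det ∂_a ∂_b D (e x a) (e y b)| = κ exp (-h D) n_x (a) n_y (b)` with a constant
`κ > 0`.
-/

noncomputable section

open Set Filter Topology Metric MeasureTheory
open scoped ContDiff

set_option maxSynthPendingDepth 3
set_option linter.unusedSectionVars false

namespace Vale.Agent.P207.N3.H828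

open Ten H576
open H442 (Smooth OD)
open H229 (ei ei_eq ei_mem e_ei ei_mem_ball inv_cont)

variable {Γ X B : Type} [Group Γ] [MetricSpace X] [ProperSpace X] [MulAction Γ X]
  [IsIsometricSMul Γ X] [TopologicalSpace B] [CompactSpace B] [T2Space B] [MulAction Γ B]
  [ContinuousConstSMul Γ B] {L : Leaf Γ X B}

/-- the two forms of the smooth boundary -/
theorem SmB.smooth {D : B → B → ℝ} (H : SmB L D) : Smooth L D where
  tau_smooth x y := H.tau_jc.smooth (x, y)
  tau_cont := H.tau_jc.fderiv.continuousOn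
  D_smooth x y := H.f_jc.smooth (x, y)
  nondeg x y p hp := H.nd ((x, y), p) hp

section

variable {D : B → B → ℝ}

theorem isOpen_OD (L : Leaf Γ X B) (x y : X) : IsOpen (OD L x y) := by
  have h1 : ContinuousOn (fun p : E2 × E2 => ((L.e x p.1, L.e y p.2) : B × B))
      (ball 0 3 ×ˢ ball 0 3) := by
    have hc : ∀ w : X, ContinuousOn (L.e w) (ball (0 : E2) 3) := fun w =>
      L.e_cont.comp (f := fun u : E2 => ((w, u) : X × E2)) (by fun_prop)
        fun _ hu => ⟨mem_univ _, ball_sub hu⟩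
    refine ContinuousOn.prodMk ?_ ?_
    · exact (hc x).comp continuousOn_fst fun p hp => hp.1
    · exact (hc y).comp continuousOn_snd fun p hp => hp.2
  have h2 : IsOpen {p : B × B | p.1 ≠ p.2} := isOpen_ne_fun continuous_fst continuous_snd
  have h3 := h1.isOpen_inter_preimage (isOpen_ball.prod isOpen_ball) h2
  convert h3 using 1
  ext p
  constructor
  · rintro ⟨h4, h5, h6⟩
    exact ⟨⟨h4, h5⟩, h6⟩
  · rintro ⟨⟨h4, h5⟩, h6⟩
    exact ⟨h4, h5, h6⟩

theorem sm_ff (H : Smooth L D) {x y : X} {z : E2 × E2} (hz : z ∈ OD L x y) :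
    Sm (ff L D (x, y)) z := Sm.of_open (isOpen_OD L x y) (H.D_smooth x y) hz

theorem mdet_ff_ne (H : Smooth L D) {x y : X} {z : E2 × E2} (hz : z ∈ OD L x y) :
    mdet (du (dp (ff L D (x, y))) z) ≠ 0 := mdet_ne_of_inj (H.nondeg x y z hz)

theorem nd_ff (H : Smooth L D) {x y : X} {z : E2 × E2} (hz : z ∈ OD L x y) :
    Nd (ff L D (x, y)) z := nd_of_mdet (mdet_ff_ne H hz)

theorem sm_tau' (H : Smooth L D) {x y : X} {u : E2} (hu : u ∈ L.dm x y) : Sm (L.τ x y) u :=
  Sm.of_open (isOpen_dm L x y) (H.tau_smooth x y) hu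

/-- the derivatives of the transition maps are invertible -/
theorem inv_tau' (H : Smooth L D) {x y : X} {u : E2} (hu : u ∈ L.dm x y) :
    ∃ a : E2 ≃L[ℝ] E2, (a : E2 →L[ℝ] E2) = fderiv ℝ (L.τ x y) u := by
  have key : ∀ {x y : X} {u : E2}, u ∈ L.dm x y →
      (fderiv ℝ (L.τ y x) (L.τ x y u)) ∘L (fderiv ℝ (L.τ x y) u)
        = ContinuousLinearMap.id ℝ E2 := by
    intro x y u hu
    have h1 : HasFDerivAt (L.τ x y) (fderiv ℝ (L.τ x y) u) u := (sm_tau' H hu).diff.hasFDerivAt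
    have h2 : HasFDerivAt (L.τ y x) (fderiv ℝ (L.τ y x) (L.τ x y u)) (L.τ x y u) :=
      (sm_tau' H (tau_symm_mem hu)).diff.hasFDerivAt
    have h3 := h2.comp u h1
    have h4 : (L.τ y x ∘ L.τ x y) =ᶠ[𝓝 u] _root_.id := by
      filter_upwards [ev_dm hu] with v hv
      exact tau_tau_symm hv
    have h5 := h3.congr_of_eventuallyEq h4.symm
    exact h5.unique (hasFDerivAt_id u)
  have h1 := key hu
  have h2 := key (tau_symm_mem hu)
  rw [tau_tau_symm hu] at h2
  refine ⟨ContinuousLinearEquiv.equivOfInverse (fderiv ℝ (L.τ x y) u)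
    (fderiv ℝ (L.τ y x) (L.τ x y u)) (fun v => ?_) (fun v => ?_), rfl⟩
  · exact congrArg (fun T : E2 →L[ℝ] E2 => T v) h1
  · exact congrArg (fun T : E2 →L[ℝ] E2 => T v) h2

theorem det_tau_ne (H : Smooth L D) {x y : X} {u : E2} (hu : u ∈ L.dm x y) :
    (fderiv ℝ (L.τ x y) u).det ≠ 0 := by
  obtain ⟨a, ha⟩ := inv_tau' H hu
  rw [← ha]
  exact (a : E2 ≃ₗ[ℝ] E2).isUnit_det'.ne_zero

/-- the mixed determinant in other charts -/
theorem mdet_tau (H : Smooth L D) {x x' y y' : X} {a b : E2} (ha : a ∈ L.dm x x')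
    (hb : b ∈ L.dm y y') (h : L.e x a ≠ L.e y b) :
    mdet (du (dp (ff L D (x, y))) (a, b)) = (fderiv ℝ (L.τ x x') a).det *
      (fderiv ℝ (L.τ y y') b).det *
      mdet (du (dp (ff L D (x', y'))) (L.τ x x' a, L.τ y y' b)) := by
  have hod : (L.τ x x' a, L.τ y y' b) ∈ OD L x' y' :=
    ⟨tau_mem ha, tau_mem hb, by simp only; rw [e_tau ha, e_tau hb]; exact h⟩
  refine mdet_change (z := (a, b)) (g1 := fun _ => 0) (g2 := fun _ => 0) (sm_tau' H ha)
    (sm_tau' H hb) (sm_ff H hod) (Sm.const 0 a) ?_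
  filter_upwards [(continuousAt_fst : ContinuousAt Prod.fst (a, b)).eventually (ev_dm ha),
    (continuousAt_snd : ContinuousAt Prod.snd (a, b)).eventually (ev_dm hb)] with z hz1 hz2
  rw [add_zero, add_zero]
  exact ff_change hz1 hz2

end

variable [MeasurableSpace B] [BorelSpace B] {A : Area L}

/-- the cocycle is smooth in the charts -/
theorem sm_cg' (H : Smooth L A.D) (g : Γ) (x : X) {u : E2} (hu : u ∈ ball (0 : E2) 3) :
    Sm (fun p => cg L g (L.e x p)) u := by
  obtain ⟨η, hη⟩ := exists_ne' L (L.e x u)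
  set w := frp L η with hw
  have h0 : L.e w 0 = η := e_frp _
  have m1 : (u, (0 : E2)) ∈ OD L x w := ⟨hu, mem_ball0, by simp only; rw [h0]; exact hη.symm⟩
  have m2 : (u, (0 : E2)) ∈ OD L (g • x) (g • w) := by
    refine ⟨hu, mem_ball0, ?_⟩
    simp only
    rw [L.e_smul g x u (ball_sub hu), L.e_smul g w 0 mem_cball0, h0]
    exact smul_ne hη.symm
  have s1 := (sm_ff H m1).left
  have s2 := (sm_ff H m2).left
  have s3 := (s2.sub s1).sub (Sm.const (cg L g η) u)
  refine s3.congr ?_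
  have h1 : ∀ᶠ p in 𝓝 u, L.e x p ≠ η := by
    have h2 := (isOpen_OD L x w).mem_nhds m1
    have h3 : Tendsto (fun p : E2 => (p, (0 : E2))) (𝓝 u) (𝓝 (u, 0)) := by
      have : ContinuousAt (fun p : E2 => (p, (0 : E2))) u := by fun_prop
      exact this
    filter_upwards [h3 h2] with p hp
    have h4 := hp.2.2
    simp only at h4
    rwa [h0] at h4
  filter_upwards [h1, isOpen_ball.mem_nhds hu] with p hp hp2
  simp only [ff]
  rw [L.e_smul g x p (ball_sub hp2), L.e_smul g w 0 mem_cball0, h0, D_smul A g hp]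
  ring

/-- (N4) the density under the group -/
theorem nn_smul (g : Γ) (x : X) {u : E2} (hu : u ∈ ball (0 : E2) 3) :
    nn A (g • x) u = Real.exp (A.h * cg L g (L.e x u)) * nn A x u := by
  have h1 := D_smul A g (em_ne_e (L := L) x (ball_sub hu))
  have h2 := cg_eq (L := L) g x
  rw [nn, nn, A.s_smul g x u hu, L.em_smul, L.e_smul g x u (ball_sub hu), h1, ← mul_assoc,
    ← Real.exp_add]
  congr 2
  linear_combination (-A.h) * h2 + A.h * h2 + A.h * h2

/-- the function `Θ` in charts -/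
def TT (A : Area L) (x y : X) (z : E2 × E2) : ℝ :=
  |mdet (du (dp (ff L A.D (x, y))) z)| * Real.exp (A.h * ff L A.D (x, y) z)
    / (nn A x z.1 * nn A y z.2)

theorem TT_tau (H : Smooth L A.D) {x x' y y' : X} {a b : E2} (ha : a ∈ L.dm x x')
    (hb : b ∈ L.dm y y') (h : L.e x a ≠ L.e y b) :
    TT A x y (a, b) = TT A x' y' (L.τ x x' a, L.τ y y' b) := by
  have d1 := abs_pos.2 (det_tau_ne H ha)
  have d2 := abs_pos.2 (det_tau_ne H hb)
  have n1 := nn_pos (A := A) x' (tau_mem ha)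
  have n2 := nn_pos (A := A) y' (tau_mem hb)
  rw [TT, TT, mdet_tau H ha hb h, ff_change ha hb]
  simp only
  rw [nn_trans H.tau_smooth ha, nn_trans H.tau_smooth hb, abs_mul, abs_mul]
  field_simp

theorem TT_smul (H : Smooth L A.D) (g : Γ) {x y : X} {z : E2 × E2} (hz : z ∈ OD L x y) :
    TT A (g • x) (g • y) z = TT A x y z := by
  have hid : ∀ u : E2, Sm (fun p : E2 => p) u := fun u => Sm.of_contDiff contDiff_id _
  have hff : ff L A.D (g • x, g • y) =ᶠ[𝓝 z] fun w => ff L A.D (x, y) ((fun p => p) w.1,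
      (fun p => p) w.2) + cg L g (L.e x w.1) + cg L g (L.e y w.2) := by
    filter_upwards [(isOpen_OD L x y).mem_nhds hz] with w hw
    simp only [ff]
    rw [L.e_smul g x _ (ball_sub hw.1), L.e_smul g y _ (ball_sub hw.2.1), D_smul A g hw.2.2]
  have h1 := mdet_change (al := fun p => p) (be := fun p => p)
    (g1 := fun p => cg L g (L.e x p)) (g2 := fun p => cg L g (L.e y p)) (z := z)
    (f := ff L A.D (x, y)) (hid _) (hid _) (sm_ff H hz) (sm_cg' H g x hz.1) hff
  have h2 : (fderiv ℝ (fun p : E2 => p) z.1).det = 1 := by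
    rw [fderiv_fun_id]
    exact LinearMap.det_id
  have h3 : (fderiv ℝ (fun p : E2 => p) z.2).det = 1 := by
    rw [fderiv_fun_id]
    exact LinearMap.det_id
  rw [h2, h3, one_mul, one_mul] at h1
  have h4 := hff.self_of_nhds
  simp only at h4
  have n1 := nn_pos (A := A) x hz.1
  have n2 := nn_pos (A := A) y hz.2.1
  rw [TT, TT, h1, h4, nn_smul g x hz.1, nn_smul g y hz.2.1]
  have h5 : Real.exp (A.h * (ff L A.D (x, y) z + cg L g (L.e x z.1) + cg L g (L.e y z.2)))
      = Real.exp (A.h * ff L A.D (x, y) z) * Real.exp (A.h * cg L g (L.e x z.1))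
        * Real.exp (A.h * cg L g (L.e y z.2)) := by
    rw [← Real.exp_add, ← Real.exp_add]
    congr 1
    ring
  have h6 : ff L A.D (x, y) (z.1, z.2) = ff L A.D (x, y) z := rfl
  rw [h6, h5]
  have e1 := Real.exp_pos (A.h * cg L g (L.e x z.1))
  have e2 := Real.exp_pos (A.h * cg L g (L.e y z.2))
  field_simp

theorem TT_pos (H : Smooth L A.D) {x y : X} {z : E2 × E2} (hz : z ∈ OD L x y) :
    0 < TT A x y z :=
  div_pos (mul_pos (abs_pos.2 (mdet_ff_ne H hz)) (Real.exp_pos _))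
    (mul_pos (nn_pos x hz.1) (nn_pos y hz.2.1))

/-- the function `Θ` of two different points -/
def Th (A : Area L) (ξ η : B) : ℝ := TT A (frp L ξ) (frp L η) (0, 0)

theorem Th_eq (H : Smooth L A.D) {x y : X} {z : E2 × E2} (hz : z ∈ OD L x y) :
    Th A (L.e x z.1) (L.e y z.2) = TT A x y z := by
  have ha : z.1 ∈ L.dm x (frp L (L.e x z.1)) := mem_dm hz.1 mem_ball0 (e_frp _)
  have hb : z.2 ∈ L.dm y (frp L (L.e y z.2)) := mem_dm hz.2.1 mem_ball0 (e_frp _)
  have h1 := TT_tau H ha hb hz.2.2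
  rw [tau_eq mem_cball0 (e_frp _), tau_eq mem_cball0 (e_frp _)] at h1
  exact h1.symm

theorem mem_OD_frp {ξ η : B} (h : ξ ≠ η) : ((0 : E2), (0 : E2)) ∈ OD L (frp L ξ) (frp L η) :=
  ⟨mem_ball0, mem_ball0, by simp only; rw [e_frp, e_frp]; exact h⟩

theorem Th_smul (H : Smooth L A.D) (g : Γ) {ξ η : B} (h : ξ ≠ η) :
    Th A (g • ξ) (g • η) = Th A ξ η := by
  have h0 := mem_OD_frp (L := L) h
  have h1 : ((0 : E2), (0 : E2)) ∈ OD L (g • frp L ξ) (g • frp L η) := by
    refine ⟨mem_ball0, mem_ball0, ?_⟩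
    simp only
    rw [L.e_smul g _ 0 mem_cball0, L.e_smul g _ 0 mem_cball0, e_frp, e_frp]
    exact smul_ne h
  have h2 := Th_eq H h1
  simp only at h2
  rw [L.e_smul g _ 0 mem_cball0, L.e_smul g _ 0 mem_cball0, e_frp, e_frp] at h2
  rw [h2, TT_smul H g h0, Th]

theorem TT_cont (H : Smooth L A.D) {x y : X} {z : E2 × E2} (hz : z ∈ OD L x y) :
    ContinuousAt (TT A x y) z := by
  have h1 := sm_ff H hz
  have h2 : ContinuousAt (nn A x) z.1 := (nn_cont x).continuousAt (isOpen_ball.mem_nhds hz.1)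
  have h3 : ContinuousAt (nn A y) z.2 := (nn_cont y).continuousAt (isOpen_ball.mem_nhds hz.2.1)
  have h4 : ContinuousAt (fun w : E2 × E2 => nn A x w.1) z :=
    ContinuousAt.comp (f := fun w : E2 × E2 => w.1) h2 continuousAt_fst
  have h5 : ContinuousAt (fun w : E2 × E2 => nn A y w.2) z :=
    ContinuousAt.comp (f := fun w : E2 × E2 => w.2) h3 continuousAt_snd
  have h6 : ContinuousAt (ff L A.D (x, y)) z := h1.at.continuousAt
  unfold TT
  refine ((mdet_cont h1).abs.mul (Real.continuous_exp.continuousAt.comp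
    (continuousAt_const.mul h6))).div (h4.mul h5) ?_
  exact (mul_pos (nn_pos x hz.1) (nn_pos y hz.2.1)).ne'

/-- the inverse of a chart is continuous in the boundary point -/
theorem ei_contAt {w : X} {η : B} (h : η ∈ L.e w '' ball (0 : E2) 3) :
    ContinuousAt (ei L w) η := by
  have h1 : ContinuousAt (fun p : X × B => ei L p.1 p.2) (w, η) := by
    refine (inv_cont L).continuousAt ?_
    have h2 := L.e_open.mem_nhds (show (w, η) ∈ {p : X × B | p.2 ∈ L.e p.1 '' ball 0 3} from h)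
    refine mem_of_superset h2 ?_
    rintro ⟨a, b⟩ hab
    exact image_mono ball_sub hab
  exact ContinuousAt.comp (f := fun η : B => ((w, η) : X × B)) (x := η) h1 (by fun_prop)

theorem isOpen_e (x : X) : IsOpen (L.e x '' ball (0 : E2) 3) :=
  L.e_open.preimage (by fun_prop : Continuous fun η : B => ((x, η) : X × B))

theorem Th_cont (H : Smooth L A.D) :
    ContinuousOn (fun p : B × B => Th A p.1 p.2) {p | p.1 ≠ p.2} := by
  rintro ⟨ξ₀, η₀⟩ h0
  apply ContinuousAt.continuousWithinAt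
  set x := frp L ξ₀ with hx
  set y := frp L η₀ with hy
  have mx : ξ₀ ∈ L.e x '' ball (0 : E2) 3 := ⟨0, mem_ball0, e_frp _⟩
  have my : η₀ ∈ L.e y '' ball (0 : E2) 3 := ⟨0, mem_ball0, e_frp _⟩
  have hop : IsOpen {p : B × B | p.1 ∈ L.e x '' ball (0 : E2) 3 ∧ p.2 ∈ L.e y '' ball (0 : E2) 3 ∧
      p.1 ≠ p.2} :=
    ((isOpen_e x).preimage continuous_fst).inter
      (((isOpen_e y).preimage continuous_snd).inter (isOpen_ne_fun continuous_fst continuous_snd))
  have hev := hop.mem_nhds (show (ξ₀, η₀) ∈ _ from ⟨mx, my, h0⟩)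
  have e0 : ei L x ξ₀ = 0 := by
    have h1 := ei_eq (L := L) (x := x) (u := 0) mem_cball0
    rwa [e_frp] at h1
  have e1 : ei L y η₀ = 0 := by
    have h1 := ei_eq (L := L) (x := y) (u := 0) mem_cball0
    rwa [e_frp] at h1
  have hg : ContinuousAt (fun p : B × B => (ei L x p.1, ei L y p.2)) (ξ₀, η₀) :=
    (ContinuousAt.comp (f := fun p : B × B => p.1) (x := (ξ₀, η₀)) (ei_contAt mx)
      continuousAt_fst).prodMk
    (ContinuousAt.comp (f := fun p : B × B => p.2) (x := (ξ₀, η₀)) (ei_contAt my)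
      continuousAt_snd)
  have hF : ContinuousAt (TT A x y) (ei L x ξ₀, ei L y η₀) := by
    rw [e0, e1]
    exact TT_cont H (mem_OD_frp h0)
  have hc := ContinuousAt.comp (f := fun p : B × B => (ei L x p.1, ei L y p.2))
    (x := (ξ₀, η₀)) hF hg
  refine hc.congr ?_
  filter_upwards [hev] with p hp
  have f1 : L.e x (ei L x p.1) = p.1 := e_ei (image_mono ball_sub hp.1)
  have f2 : L.e y (ei L y p.2) = p.2 := e_ei (image_mono ball_sub hp.2.1)
  have h1 := Th_eq H (x := x) (y := y) (z := (ei L x p.1, ei L y p.2))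
    ⟨ei_mem_ball le_rfl hp.1, ei_mem_ball le_rfl hp.2.1, by
      simp only
      rw [f1, f2]
      exact hp.2.2⟩
  simp only at h1
  rw [f1, f2] at h1
  rw [h1]
  rfl

theorem Th_pos (H : Smooth L A.D) {ξ η : B} (h : ξ ≠ η) : 0 < Th A ξ η :=
  TT_pos H (mem_OD_frp h)

attribute [local irreducible] Th in
/-- **`Θ` is constant** -/
theorem Th_const (H : Smooth L A.D) : ∃ κ : ℝ, 0 < κ ∧ ∀ ξ η : B, ξ ≠ η → Th A ξ η = κ := by
  obtain ⟨β, x, l, a, hax⟩ := H728.exists_axis' L
  have hxx : L.em x ≠ L.ep x := L.em_ne_ep x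
  refine ⟨Th A (L.em x) (L.ep x), ?_, ?_⟩
  · exact Th_pos H hxx
  have hcont : Continuous fun y : X => Th A (L.em y) (L.ep y) := by
    have h1 : Continuous fun y : X => ((L.em y, L.ep y) : B × B) :=
      L.em_cont.prodMk (ep_cont L)
    exact ContinuousOn.comp_continuous (g := fun p : B × B => Th A p.1 p.2) (Th_cont H) h1
      fun y => L.em_ne_ep y
  have h1 : ∀ η, η ≠ L.em x → Th A (L.em x) η = Th A (L.em x) (L.ep x) := by
    intro η hη
    have h2 : ∀ m : ℕ, Th A (L.em x) (β ^ m • η) = Th A (L.em x) η := by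
      intro m
      have h3 := Th_smul H (β ^ m) hη.symm
      rwa [H147.Ax.pow_smul_em hax] at h3
    have h4 : Tendsto (fun m : ℕ => β ^ m • η) atTop (𝓝 (L.ep x)) := by
      rw [tendsto_def]
      intro V hV
      have h5 := H147.Ax.north hax (K := {η}) isCompact_singleton
        (by simpa using hη.symm) hV
      filter_upwards [h5] with m hm
      exact hm η rfl
    have h5 : ContinuousAt (fun p : B × B => Th A p.1 p.2) (L.em x, L.ep x) :=
      (Th_cont H).continuousAt ((isOpen_ne_fun continuous_fst continuous_snd).mem_nhds hxx)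
    have h6 : Tendsto (fun m : ℕ => Th A (L.em x) (β ^ m • η)) atTop
        (𝓝 (Th A (L.em x) (L.ep x))) :=
      h5.tendsto.comp (tendsto_const_nhds.prodMk_nhds h4)
    simp only [h2] at h6
    exact tendsto_nhds_unique tendsto_const_nhds h6
  have h2 : ∀ y : X, Th A (L.em y) (L.ep y) = Th A (L.em x) (L.ep x) := by
    refine H728.of_orbit (L := L) (isClosed_eq hcont continuous_const) (L.em x) ?_
    intro y g hy
    have h3 : g⁻¹ • L.ep y ≠ L.em x := by
      intro h4
      have h5 : L.ep y = g • L.em x := by rw [← h4, smul_inv_smul]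
      exact L.em_ne_ep y (by rw [hy, h5])
    have h4 := Th_smul H g h3.symm
    rw [smul_inv_smul, ← hy, h1 _ h3] at h4
    exact h4
  intro ξ η h
  obtain ⟨y, hy1, hy2, -⟩ := L.exists_frame ξ η h 0
  rw [← hy1, ← hy2]
  exact h2 y

/-- **(N5) the Monge-Ampere equation** -/
theorem monge_ampere (H : Smooth L A.D) : ∃ κ : ℝ, 0 < κ ∧ ∀ (x y : X), ∀ z ∈ OD L x y,
    |mdet (du (dp (ff L A.D (x, y))) z)|
      = Real.exp (-A.h * ff L A.D (x, y) z) * (κ * nn A x z.1) * nn A y z.2 := by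
  obtain ⟨κ, hκ, h⟩ := Th_const H
  refine ⟨κ, hκ, fun x y z hz => ?_⟩
  have h1 := h _ _ hz.2.2
  rw [Th_eq H hz, TT] at h1
  have n1 := nn_pos (A := A) x hz.1
  have n2 := nn_pos (A := A) y hz.2.1
  rw [div_eq_iff (mul_pos n1 n2).ne'] at h1
  have h2 : Real.exp (A.h * ff L A.D (x, y) z) * Real.exp (-A.h * ff L A.D (x, y) z) = 1 := by
    rw [← Real.exp_add]
    simp
  calc |mdet (du (dp (ff L A.D (x, y))) z)|
      = (|mdet (du (dp (ff L A.D (x, y))) z)| * Real.exp (A.h * ff L A.D (x, y) z))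
        * Real.exp (-A.h * ff L A.D (x, y) z) := by rw [mul_assoc, h2, mul_one]
    _ = _ := by rw [h1]; ring

/-- the determinant of 442 -/
theorem det2_eq {T : E2 × E2 → ℝ} {c : E2 × E2} (hT : Sm T c) :
    H442.det2 T c = mdet (du (dp T) c) := by
  have h : ∀ i j, H442.Gm T i j c = du (dp T) c (bv j) (bv i) := fun i j =>
    H442.dB_dv hT.at (bv i) (bv j)
  rw [H442.det2, h, h, h, h, mdet]
  ring

/-- the Monge-Ampere equation in the form of 442's `trace_Cu` -/
theorem monge_ampere' (H : Smooth L A.D) : ∃ κ : ℝ, 0 < κ ∧ ∀ (x y : X), ∀ c ∈ OD L x y,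
    H442.det2 (fun p : E2 × E2 => A.D (L.e x p.1) (L.e y p.2)) c ^ 2
      = Real.exp (2 * (-A.h) * A.D (L.e x c.1) (L.e y c.2)) * (κ * nn A x c.1) ^ 2
        * nn A y c.2 ^ 2 := by
  obtain ⟨κ, hκ, h⟩ := monge_ampere H
  refine ⟨κ, hκ, fun x y c hc => ?_⟩
  have h1 := h x y c hc
  have h2 := det2_eq (sm_ff H hc)
  have h3 : H442.det2 (fun p : E2 × E2 => A.D (L.e x p.1) (L.e y p.2)) c
      = mdet (du (dp (ff L A.D (x, y))) c) := h2
  have h4 : Real.exp (2 * (-A.h) * A.D (L.e x c.1) (L.e y c.2))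
      = Real.exp (-A.h * ff L A.D (x, y) c) ^ 2 := by
    rw [← Real.exp_nat_mul]
    congr 1
    simp only [ff]
    push_cast
    ring
  rw [h3, ← sq_abs, h1, h4]
  ring

end Vale.Agent.P207.N3.H828
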