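import Vale.Agent.P207.N3.H442.SmoothSpec
import Vale.Agent.P207.N3.H229.Dcont
import Vale.Agent.P207.N3.H728.Pairs

/-!
# P207, line N3, P12: the density of `ν` in all charts

`nn A x u = exp (h D (em x) (e x u) - h lv x) * s x u` is the density of `ν` in the chart `e x`;
for charts of different leaves the densities are related by the Jacobian of the transition map.
-/

noncomputable section

open Set Filter Topology Metric MeasureTheory
open scoped ContDiff

set_option linter.unusedSectionVars false

namespace Vale.Agent.P207.N3.H828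

open Ten
open H442 (Smooth OD)

variable {Γ X B : Type} [Group Γ] [MetricSpace X] [ProperSpace X] [MulAction Γ X]
  [IsIsometricSMul Γ X] [TopologicalSpace B] [CompactSpace B] [T2Space B] [MulAction Γ B]
  [ContinuousConstSMul Γ B] {L : Leaf Γ X B} [MeasurableSpace B] [BorelSpace B]

/-- the density of `ν` in the chart `e x` -/
def nn (A : Area L) (x : X) (u : E2) : ℝ :=
  Real.exp (A.h * A.D (L.em x) (L.e x u) - A.h * L.lv x) * A.s x u

variable {A : Area L}

theorem nn_pos (x : X) {u : E2} (hu : u ∈ ball (0 : E2) 3) : 0 < nn A x u :=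
  mul_pos (Real.exp_pos _) (A.s_pos x u hu)

theorem em_ne_e (x : X) {u : E2} (hu : u ∈ closedBall (0 : E2) 3) : L.em x ≠ L.e x u :=
  fun h => L.e_ne x u hu h.symm

theorem nn_cont (x : X) : ContinuousOn (nn A x) (ball 0 3) := by
  have h1 : ContinuousOn (fun u => A.D (L.em x) (L.e x u)) (ball (0 : E2) 3) := by
    refine (H229.D_cont_slice A (L.em x)).comp ((H229.e_cont_x x).mono ball_sub) ?_
    intro u hu h
    exact L.e_ne x u (ball_sub hu) h
  exact (Real.continuous_exp.comp_continuousOn
    ((continuousOn_const.mul h1).sub continuousOn_const)).mul (H229.s_cont_x A x)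

/-- (N1) the measure of the image of a set -/
theorem nn_integral (x : X) {S : Set E2} (hS : MeasurableSet S) (h : S ⊆ ball 0 3) :
    ∫ u in S, nn A x u = A.ν.real (L.e x '' S) := by
  have h1 := H229.integral_chart A x hS h (G := fun _ => (1 : ℝ)) aestronglyMeasurable_const
  rw [setIntegral_const, smul_eq_mul, mul_one] at h1
  rw [← h1]
  refine setIntegral_congr_fun hS fun u _ => ?_
  simp only [nn]
  rw [one_mul, ← mul_assoc, ← Real.exp_add]
  congr 2
  ring

/-- (N2) change of the chart, also for different leaves -/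
theorem nn_trans (hs : ∀ x y, ContDiffOn ℝ ∞ (L.τ x y) (L.dm x y)) {x y : X} {u : E2}
    (hu : u ∈ L.dm x y) :
    nn A x u = |(fderiv ℝ (L.τ x y) u).det| * nn A y (L.τ x y u) := by
  have hd : ∀ v ∈ L.dm x y, HasFDerivAt (L.τ x y) (fderiv ℝ (L.τ x y) v) v := by
    intro v hv
    exact (((hs x y).contDiffAt ((isOpen_dm L x y).mem_nhds hv)).differentiableAt
      (by simp)).hasFDerivAt
  have hdc : ContinuousOn (fun v => |(fderiv ℝ (L.τ x y) v).det|) (L.dm x y) := by
    have h1 : ContinuousOn (fderiv ℝ (L.τ x y)) (L.dm x y) :=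
      (hs x y).continuousOn_fderiv_of_isOpen (isOpen_dm L x y) (by simp)
    have h2 : Continuous fun T : E2 →L[ℝ] E2 => T.det := ContinuousLinearMap.continuous_det
    exact (continuous_abs.comp h2).comp_continuousOn h1
  have hf : ContinuousOn (nn A x) (L.dm x y) := (nn_cont x).mono fun v hv => hv.1
  have hg : ContinuousOn (fun v => |(fderiv ℝ (L.τ x y) v).det| * nn A y (L.τ x y v))
      (L.dm x y) :=
    hdc.mul ((nn_cont y).comp (hs x y).continuousOn fun v hv => tau_mem hv)
  have hinj : InjOn (L.τ x y) (L.dm x y) := by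
    intro v hv w hw h
    have h1 := tau_tau_symm hv
    rw [h, tau_tau_symm hw] at h1
    exact h1.symm
  -- the integrals agree
  have key : ∀ S : Set E2, MeasurableSet S → S ⊆ L.dm x y →
      ∫ v in S, nn A x v = ∫ v in S, |(fderiv ℝ (L.τ x y) v).det| * nn A y (L.τ x y v) := by
    intro S hS hSd
    have h1 : L.e x '' S = L.e y '' (L.τ x y '' S) := by
      rw [image_image]
      exact image_congr fun v hv => (e_tau (hSd hv)).symm
    have h2 : L.τ x y '' S ⊆ ball 0 3 := by
      rintro _ ⟨v, hv, rfl⟩
      exact tau_mem (hSd hv)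
    have h3 : MeasurableSet (L.τ x y '' S) :=
      measurable_image_of_fderivWithin hS (fun v hv => (hd v (hSd hv)).hasFDerivWithinAt)
        (hinj.mono hSd)
    rw [nn_integral x hS (hSd.trans fun v hv => hv.1), h1, ← nn_integral y h3 h2]
    have h4 := integral_image_eq_integral_abs_det_fderiv_smul volume hS
      (fun v hv => (hd v (hSd hv)).hasFDerivWithinAt) (hinj.mono hSd) (nn A y)
    rw [h4]
    simp only [smul_eq_mul]
  -- a compact neighbourhood
  obtain ⟨r, hr, hball⟩ := Metric.mem_nhds_iff.1 ((isOpen_dm L x y).mem_nhds hu)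
  have hK : closedBall u (r / 2) ⊆ L.dm x y :=
    (closedBall_subset_ball (by linarith)).trans hball
  have hKc : IsCompact (closedBall u (r / 2)) := isCompact_closedBall _ _
  have hfi : IntegrableOn (nn A x) (closedBall u (r / 2)) :=
    (hf.mono hK).integrableOn_compact hKc
  have hgi : IntegrableOn (fun v => |(fderiv ℝ (L.τ x y) v).det| * nn A y (L.τ x y v))
      (closedBall u (r / 2)) := (hg.mono hK).integrableOn_compact hKc
  have hae : nn A x =ᵐ[volume.restrict (closedBall u (r / 2))]
      fun v => |(fderiv ℝ (L.τ x y) v).det| * nn A y (L.τ x y v) := by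
    refine Integrable.ae_eq_of_forall_setIntegral_eq _ _ hfi hgi fun S hS _ => ?_
    rw [Measure.restrict_restrict hS]
    exact key _ (hS.inter isClosed_closedBall.measurableSet) (inter_subset_right.trans hK)
  have hae2 : nn A x =ᵐ[volume.restrict (ball u (r / 2))]
      fun v => |(fderiv ℝ (L.τ x y) v).det| * nn A y (L.τ x y v) :=
    ae_restrict_of_ae_restrict_of_subset ball_subset_closedBall hae
  have h5 := Measure.eqOn_open_of_ae_eq hae2 isOpen_ball
    (hf.mono (ball_subset_closedBall.trans hK)) (hg.mono (ball_subset_closedBall.trans hK))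
  exact h5 (mem_ball_self (by positivity))

/-- (N3) the density is smooth -/
theorem nn_smooth (H : Smooth L A.D) (x : X) : ContDiffOn ℝ ∞ (nn A x) (ball 0 3) := by
  have h1 : ContDiffOn ℝ ∞ (fun u : E2 => A.D (L.em x) (L.e x u)) (ball 0 3) := by
    have h2 := H.D_smooth (L.flip x) x
    have h3 : L.e (L.flip x) 0 = L.em x := by rw [L.e_zero, L.ep_flip, L.flip_flip]
    have h4 : ContDiffOn ℝ ∞ (fun u : E2 => ((0 : E2), u)) (ball 0 3) :=
      (contDiff_const.prodMk contDiff_id).contDiffOn
    have h5 := h2.comp h4 (fun u hu => ⟨mem_ball0, hu, by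
      simp only
      rw [h3]
      exact em_ne_e x (ball_sub hu)⟩)
    refine h5.congr fun u _ => ?_
    simp only [Function.comp]
    rw [h3]
  exact ((contDiffOn_const.mul h1).sub contDiffOn_const).exp.mul (A.s_smooth x)

end Vale.Agent.P207.N3.H828
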