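import Vale.Agent.P207.N3.H828.RatioDir
import Vale.Agent.P207.N3.Top.Logic

/-!
# P207, line N3, P15: the field `ratio` of `Outs`, literally
-/

open Set Filter Topology Metric MeasureTheory
open scoped ContDiff

noncomputable section

namespace Vale.Agent.P207.N3.H828

variable {Γ X B : Type} [Group Γ] [MetricSpace X] [ProperSpace X] [MulAction Γ X]
  [IsIsometricSMul Γ X] [TopologicalSpace B] [CompactSpace B] [T2Space B] [MulAction Γ B]
  [ContinuousConstSMul Γ B] [MeasurableSpace B] [BorelSpace B]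

/-- the field `ratio` of `Outs` -/
theorem out_ratio {L : Leaf Γ X B} (A : Area L) (T : Tens L) :
    ∀ k₀, Rough T k₀ → ∀ p q : Typed A T k₀, GoodLev L p.o.neg p.t.f p.t.χ 0 →
    q.DenseGood → ∃ i j : ℕ, 1 ≤ i ∧ 1 ≤ j ∧ i * L.χ ≤ p.t.χ ∧ j * L.χ ≤ q.t.χ ∧
      j * p.t.χ = i * q.t.χ := fun _ hR p q h1 h2 => ratio hR p q h1 h2

end Vale.Agent.P207.N3.H828
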