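import Vale.Agent.P207.N3.H828.Core
import Vale.Agent.P207.N3.H828.CK2
import Vale.Agent.P207.N3.Top.Defs
import Vale.Agent.P207.H575.T3.Res
import Vale.Agent.P207.H575.T3.Def

/-!
# The ratio lemma at a point of the boundary (helper828, line N3 of P207, 4.4)
-/

open Set Filter Topology Metric MeasureTheory
open scoped ContDiff

noncomputable section

namespace Vale.Agent.P207.N3.H828

open Vale.Agent.P207.N3

variable {Γ X B : Type} [Group Γ] [MetricSpace X] [ProperSpace X] [MulAction Γ X]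
  [IsIsometricSMul Γ X] [TopologicalSpace B] [CompactSpace B] [T2Space B] [MulAction Γ B]
  [ContinuousConstSMul Γ B]

variable (L : Leaf Γ X B)

/-- the rescaled function at time `n t` -/
def resc (f : B → ℝ) (χ t : ℝ) (z : X) (n : ℕ) (u : E2) : ℝ :=
  Real.exp (χ * (n * t)) * (f (L.e (L.φ (n * t) z) u) - f (L.ep z))

/-- the transition maps of the discs at times `n t` -/
def sg (t : ℝ) (z : X) (n m : ℕ) : E2 → E2 :=
  L.τ (L.φ ((n + m : ℕ) * t) z) (L.φ (n * t) z)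

theorem φ_split (t : ℝ) (z : X) (n m : ℕ) :
    L.φ ((n + m : ℕ) * t) z = L.φ (m * t) (L.φ (n * t) z) := by
  rw [← L.φ_add]; congr 1; push_cast; ring

theorem le_mul_t {t : ℝ} (ht : L.t1 ≤ t) {m : ℕ} (hm : 1 ≤ m) : L.t1 ≤ m * t := by
  have h0 : 0 ≤ t := L.t1_pos.le.trans ht
  have h1 : (1 : ℝ) ≤ m := by exact_mod_cast hm
  nlinarith

theorem e_sg {t : ℝ} (ht : L.t1 ≤ t) (z : X) (n : ℕ) {m : ℕ} (hm : 1 ≤ m) {u : E2}
    (hu : u ∈ ball (0 : E2) 3) :
    L.e (L.φ (n * t) z) (sg L t z n m u) = L.e (L.φ ((n + m : ℕ) * t) z) u := by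
  unfold sg
  rw [φ_split]
  exact L.e_tau (by rw [L.dm_engulf _ (le_mul_t L ht hm)]; exact hu)

theorem sg_mem {t : ℝ} (ht : L.t1 ≤ t) (z : X) (n : ℕ) {m : ℕ} (hm : 1 ≤ m) {u : E2}
    (hu : u ∈ ball (0 : E2) 3) : sg L t z n m u ∈ ball (0 : E2) 1 := by
  unfold sg
  rw [φ_split]
  exact L.tau_engulf _ (le_mul_t L ht hm) hu

theorem sg_zero {t : ℝ} (z : X) (n m : ℕ) : sg L t z n m 0 = 0 := by
  unfold sg
  rw [L.tau_eq, L.e_zero, L.ep_φ, ← L.ep_φ (n * t) z, ← L.e_zero]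
  exact L.inv_e (by simp)

theorem sg_smooth {t : ℝ} (ht : L.t1 ≤ t) (z : X) (n : ℕ) {m : ℕ} (hm : 1 ≤ m) :
    ContDiffOn ℝ ∞ (sg L t z n m) (ball 0 3) := by
  unfold sg
  rw [φ_split]
  have := L.tau_smooth (L.φ (m * t) (L.φ (n * t) z)) (L.φ (n * t) z) (L.em_φ _ _)
  rwa [show dom L.e (L.φ (m * t) (L.φ (n * t) z)) (L.φ (n * t) z) = L.dm _ _ from rfl,
    L.dm_engulf _ (le_mul_t L ht hm)] at this

/-- the transition maps satisfy `Sig` -/
theorem exists_sig {t : ℝ} (ht : L.t1 ≤ t) : ∃ (C₀ : ℝ) (Mσ : ℕ → ℕ → ℝ),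
    ∀ z : X, Sig 2 1 C₀ (L.χ * t) Mσ (sg L t z) := by
  obtain ⟨C₁, hC₁⟩ := L.contract 1 le_rfl
  obtain ⟨D, hD1, hD⟩ := L.tau_bound
  have ht0 : 0 < t := L.t1_pos.trans_le ht
  have h23 : ball (0 : E2) 2 ⊆ ball 0 3 := ball_subset_ball (by norm_num)
  refine ⟨|C₁|, fun _ _ => D 2, fun z => ?_⟩
  refine ⟨by norm_num, by norm_num, by norm_num, mul_pos L.χ_pos ht0, abs_nonneg _, ?_, ?_,
    fun n m hm => sg_zero L z n m, ?_⟩
  · intro n m hm
    have h2 : ((2 : ℕ) : WithTop ℕ∞) ≤ ∞ := WithTop.coe_le_coe.2 (le_top : ((2 : ℕ) : ℕ∞) ≤ ⊤)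
    refine ⟨((sg_smooth L ht z n hm).mono h23).of_le h2, ?_⟩
    intro j hj u hu
    rcases Nat.eq_zero_or_pos j with h0 | h0
    · subst h0
      rw [norm_iteratedFDeriv_zero]
      have := sg_mem L ht z n hm (h23 hu)
      rw [mem_ball_zero_iff] at this
      exact this.le.trans (hD1 2)
    · have := hD 2 (L.φ (n * t) z) (m * t) (le_mul_t L ht hm) j h0 hj u (h23 hu)
      unfold sg
      rw [φ_split]
      exact this
  · intro n m hm u hu
    have := sg_mem L ht z n hm (h23 hu)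
    rw [mem_ball_zero_iff] at this
    exact this.le
  · intro n m hm u hu
    have hder : ∀ v ∈ ball (0 : E2) 3, HasFDerivWithinAt (sg L t z n m) (fderiv ℝ (sg L t z n m) v)
        (ball 0 3) v := by
      intro v hv
      have h1 : ContDiffAt ℝ ∞ (sg L t z n m) v :=
        (sg_smooth L ht z n hm).contDiffAt (isOpen_ball.mem_nhds hv)
      exact (h1.differentiableAt (by norm_num)).hasFDerivAt.hasFDerivWithinAt
    have hbd : ∀ v ∈ ball (0 : E2) 3, ‖fderiv ℝ (sg L t z n m) v‖ ≤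
        |C₁| * Real.exp (-(L.χ * t) * m) := by
      intro v hv
      have h1 := hC₁ (L.φ (n * t) z) (m * t) (le_mul_t L ht hm) v hv
      rw [norm_iteratedFDeriv_one] at h1
      unfold sg
      rw [φ_split]
      refine h1.trans ?_
      have e1 : -L.χ * (m * t) = -(L.χ * t) * m := by ring
      rw [e1]
      gcongr
      exact le_abs_self _
    have h2 := (convex_ball (0 : E2) 3).norm_image_sub_le_of_norm_hasFDerivWithin_le hder hbd
      (mem_ball_self (by norm_num)) (h23 hu)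
    rw [sg_zero, sub_zero, sub_zero] at h2
    exact h2

/-- the relation of the rescaled functions -/
theorem resc_rel (f : B → ℝ) (χ : ℝ) {t : ℝ} (ht : L.t1 ≤ t) (z : X) (n : ℕ) {m : ℕ} (hm : 1 ≤ m)
    {u : E2} (hu : u ∈ ball (0 : E2) 3) :
    resc L f χ t z (n + m) u = Real.exp (χ * t * m) * resc L f χ t z n (sg L t z n m u) := by
  unfold resc
  have h1 : Real.exp (χ * ((n + m : ℕ) * t)) = Real.exp (χ * t * m) * Real.exp (χ * (n * t)) := by
    rw [← Real.exp_add]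
    congr 1
    push_cast
    ring
  rw [e_sg L ht z n hm hu, h1]
  ring

/-- uniform bounds of all derivatives of the rescaled functions -/
theorem exists_resc_bound (Λ : ℝ) : ∃ t ≥ L.t1, ∀ (f : B → ℝ) (y : X) (χ : ℝ), 0 ≤ χ → χ ≤ Λ →
    L.SmoothOn (L.em y) f → LL L f χ y → ∃ C : ℕ → ℝ, ∀ k n,
      CkB k C (ball 0 3) (resc L f χ t (L.φ L.t1 y) n) := by
  obtain ⟨t, ht, hR⟩ := L.rescaled_bound ℝ Λ
  have ht0 : 0 < t := L.t1_pos.trans_le ht
  refine ⟨t, ht, fun f y χ hχ0 hχΛ hf hLL => ?_⟩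
  obtain ⟨c, hc, C, hC⟩ := hLL
  obtain ⟨S, hS0, hS⟩ := L.start_bound (ξ := L.em y) (f := fun b => f b - f (L.ep y))
    (fun x hx => (hf x hx).sub contDiffOn_const) (K := {y}) isCompact_singleton
    (fun x hx => by rw [mem_singleton_iff.1 hx])
  set z := L.φ L.t1 y with hz
  have hepz : L.ep z = L.ep y := L.ep_φ _ _
  have hemz : L.em z = L.em y := L.em_φ _ _
  obtain ⟨CC, hCC0, hCC⟩ := hR S
  set C' : ℝ := max C 1 with hC'
  have hC'1 : 1 ≤ C' := le_max_right _ _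
  refine ⟨fun k => CC k * C', fun k n => ?_⟩
  set M : ℝ := C' * Real.exp (-χ * (n * t)) with hM
  have hM0 : 0 ≤ M := by positivity
  have hsm : L.SmoothOn (L.em z) (fun b => f b - f (L.ep y)) := fun x hx =>
    (hf x (hx.trans hemz)).sub contDiffOn_const
  have hexpM : ∀ s : ℕ, s ≤ n → Real.exp (-χ * ((n - s : ℕ) * t)) * C' ≤
      M * Real.exp (Λ * t * s) := by
    intro s hs
    rw [hM, mul_comm, mul_assoc, ← Real.exp_add]
    gcongr
    rw [Nat.cast_sub hs]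
    have : χ * (s * t) ≤ Λ * (s * t) := by gcongr
    linarith
  have key := hCC (fun b => f b - f (L.ep y)) z n M hM0 hsm ?_ ?_
  · have hexp : ∀ k, Real.exp (χ * (n * t)) * (CC k * M) = CC k * C' := by
      intro k
      rw [hM]
      have : Real.exp (χ * (n * t)) * Real.exp (-χ * (n * t)) = 1 := by
        rw [← Real.exp_add]; simp
      calc _ = CC k * C' * (Real.exp (χ * (n * t)) * Real.exp (-χ * (n * t))) := by ring
        _ = _ := by rw [this, mul_one]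
    have hres : resc L f χ t z n = fun u => Real.exp (χ * (n * t)) •
        (f (L.e (L.φ (n * t) z) u) - f (L.ep y)) := by
      funext u
      unfold resc
      rw [hepz]; rfl
    rw [hres]
    have hsm1 : ContDiffOn ℝ k (fun u => Real.exp (χ * (n * t)) •
        (f (L.e (L.φ (n * t) z) u) - f (L.ep y))) (ball 0 3) :=
      ContDiffOn.const_smul _ (key k).1
    refine ⟨hsm1, fun j hj u hu => ?_⟩
    have h1 := (key j).2 j le_rfl u hu
    have h3 : ContDiffAt ℝ j (fun u => f (L.e (L.φ (n * t) z) u) - f (L.ep y)) u :=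
      ((key j).1.contDiffAt (isOpen_ball.mem_nhds hu))
    have h2 : iteratedFDeriv ℝ j (fun u => Real.exp (χ * (n * t)) •
        (f (L.e (L.φ (n * t) z) u) - f (L.ep y))) u = Real.exp (χ * (n * t)) •
        iteratedFDeriv ℝ j (fun u => f (L.e (L.φ (n * t) z) u) - f (L.ep y)) u :=
      iteratedFDeriv_const_smul_apply' h3
    rw [h2, norm_smul, Real.norm_of_nonneg (Real.exp_pos _).le]
    show _ ≤ CC j * C'
    rw [← hexp j]
    gcongr
  · -- sup bounds at the earlier times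
    intro s hs u hu
    set w := L.φ ((n - s : ℕ) * t) y with hw
    have hwz : L.φ ((n - s : ℕ) * t) z = L.φ L.t1 w := by
      rw [hw, hz, ← L.φ_add, ← L.φ_add, add_comm]
    have h1 : L.e (L.φ ((n - s : ℕ) * t) z) u ∈ L.e w '' ball 0 1 := by
      rw [hwz]
      exact L.engulf w L.t1 le_rfl ⟨u, ball_subset_closedBall hu, rfl⟩
    obtain ⟨v, hv, hev⟩ := h1
    have h2 := (hC ((n - s : ℕ) * t) (by positivity)).1 v (ball_subset_closedBall hv)
    rw [← hw, hev] at h2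
    rw [Real.norm_eq_abs]
    refine h2.trans (le_trans ?_ (hexpM s hs))
    rw [mul_comm]
    gcongr
    exact le_max_left _ _
  · intro k
    have h1 := hS k y rfl L.t1 le_rfl
    refine ⟨h1.1, fun j hj u hu => (h1.2 j hj u hu).trans ?_⟩
    have h2 := hexpM n le_rfl
    rw [Nat.sub_self] at h2
    simp only [Nat.cast_zero, zero_mul, mul_zero, Real.exp_zero, one_mul] at h2
    calc S k = S k * 1 := (mul_one _).symm
      _ ≤ S k * (M * Real.exp (Λ * t * n)) := by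
          have := hS0 k
          gcongr
          linarith

/-- the rescaled functions form a `Fam` -/
theorem exists_fam {f : B → ℝ} {y : X} {χ : ℝ} (hLL : LL L f χ y) {t : ℝ}
    (ht : L.t1 ≤ t) {C : ℕ → ℝ} {K : ℕ}
    (hC : ∀ n, CkB (K + 1) C (ball 0 3) (resc L f χ t (L.φ L.t1 y) n)) :
    ∃ c, Fam K 2 1 c (χ * t) C (sg L t (L.φ L.t1 y)) (resc L f χ t (L.φ L.t1 y)) := by
  obtain ⟨c, hc, C', hC'⟩ := hLL
  have ht0 : 0 < t := L.t1_pos.trans_le ht
  set z := L.φ L.t1 y with hz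
  have hepz : L.ep z = L.ep y := L.ep_φ _ _
  refine ⟨c * Real.exp (-χ * L.t1), fun n => (hC n).mono le_rfl (ball_subset_ball (by norm_num)),
    fun n => ?_, by positivity, fun n => ?_, fun n m hm u hu =>
      resc_rel L f χ ht z n hm (ball_subset_ball (by norm_num) hu)⟩
  · unfold resc
    rw [L.e_zero, L.ep_φ, sub_self, mul_zero]
  · obtain ⟨u, hu, hcu⟩ := (hC' (n * t + L.t1) (by have := L.t1_pos; positivity)).2
    refine ⟨u, by simpa using hu, ?_⟩
    unfold resc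
    rw [abs_mul, abs_of_pos (Real.exp_pos _), hz, ← L.φ_add, L.ep_φ]
    calc c * Real.exp (-χ * L.t1)
        = Real.exp (χ * (n * t)) * (c * Real.exp (-χ * (n * t + L.t1))) := by
          rw [mul_left_comm, ← Real.exp_add]
          congr 2
          ring
      _ ≤ _ := by gcongr

/-- the transition maps along two asymptotic orbits are asymptotic -/
theorem sg_asym {t : ℝ} (ht : L.t1 ≤ t) {z z' : X}
    (has : Tendsto (fun s => dist (L.φ s z) (L.φ s z')) atTop (𝓝 0)) {m : ℕ} (hm : 1 ≤ m)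
    {u : E2} (hu : u ∈ ball (0 : E2) 2) :
    Tendsto (fun n => sg L t z n m u - sg L t z' n m u) atTop (𝓝 0) := by
  obtain ⟨C, α, hα, hH⟩ := L.holder 0 (m * t)
  have ht0 : 0 < t := L.t1_pos.trans_le ht
  have hn : Tendsto (fun n : ℕ => (n : ℝ) * t) atTop atTop :=
    tendsto_natCast_atTop_atTop.atTop_mul_const ht0
  have hnm : Tendsto (fun n : ℕ => ((n + m : ℕ) : ℝ) * t) atTop atTop :=
    (tendsto_natCast_atTop_atTop.comp (tendsto_add_atTop_nat m)).atTop_mul_const ht0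
  have h1 : Tendsto (fun n : ℕ => C * (dist (L.φ ((n + m : ℕ) * t) z) (L.φ ((n + m : ℕ) * t) z') +
      dist (L.φ (n * t) z) (L.φ (n * t) z')) ^ α) atTop (𝓝 0) := by
    have h2 := (has.comp hnm).add (has.comp hn)
    rw [add_zero] at h2
    have h3 : Tendsto (fun s : ℝ => s ^ α) (𝓝 0) (𝓝 0) := by
      first
      | (have h5 := (Real.continuousAt_rpow_const 0 α (Or.inr hα.le)).tendsto
         rwa [Real.zero_rpow hα.ne'] at h5)
      | (have h5 := (continuous_pow α).tendsto (0 : ℝ)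
         rwa [zero_pow hα.ne'] at h5)
    have h4 := (h3.comp h2).const_mul C
    rw [mul_zero] at h4
    exact h4
  refine squeeze_zero_norm (fun n => ?_) h1
  have hlv : ∀ w : X, |L.lv (L.φ ((n + m : ℕ) * t) w) - L.lv (L.φ (n * t) w)| ≤ m * t := by
    intro w
    rw [L.lv_φ, L.lv_φ]
    have : L.lv w + ((n + m : ℕ) : ℝ) * t - (L.lv w + n * t) = m * t := by push_cast; ring
    rw [this, abs_of_nonneg (by positivity)]
  have hmem : ∀ w : X, L.e (L.φ ((n + m : ℕ) * t) w) u ∈ L.e (L.φ (n * t) w) '' closedBall 0 2 := by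
    intro w
    rw [φ_split]
    obtain ⟨v, hv, hev⟩ := L.engulf (L.φ (n * t) w) (m * t) (le_mul_t L ht hm)
      ⟨u, ball_subset_closedBall (ball_subset_ball (by norm_num) hu), rfl⟩
    exact ⟨v, closedBall_subset_closedBall (by norm_num) (ball_subset_closedBall hv), hev⟩
  have h5 := hH (L.φ ((n + m : ℕ) * t) z) (L.φ (n * t) z) (L.φ ((n + m : ℕ) * t) z')
    (L.φ (n * t) z') (by rw [L.em_φ, L.em_φ]) (by rw [L.em_φ, L.em_φ]) (hlv z) (hlv z') u
    (ball_subset_closedBall hu) (hmem z) (hmem z')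
  rw [iteratedFDeriv_zero_eq_comp, iteratedFDeriv_zero_eq_comp, Function.comp_apply,
    Function.comp_apply, ← map_sub, LinearIsometryEquiv.norm_map] at h5
  exact h5

/-- **The ratio lemma at a point**, with the hypothesis `dG ∧ dG' = 0` for the limits of the two
rescaled functions along the same frames. -/
theorem ratio_seq {f f' : B → ℝ} {x y : X} {χ₁ χ₂ : ℝ} (h1 : 0 ≤ χ₁) (h2 : 0 ≤ χ₂)
    (has : Tendsto (fun s => dist (L.φ s x) (L.φ s y)) atTop (𝓝 0))
    (hf : L.SmoothOn (L.em x) f) (hf' : L.SmoothOn (L.em y) f')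
    (hLL : LL L f χ₁ x) (hLL' : LL L f' χ₂ y)
    (hW : ∀ t ≥ L.t1, ∀ (θ : ℕ → ℕ) (g : ℕ → Γ) (w : X) (G G' : E2 → ℝ), Tendsto θ atTop atTop →
      Tendsto (fun n => g n • L.φ (θ n * t) (L.φ L.t1 x)) atTop (𝓝 w) →
      Tendsto (fun n => g n • L.φ (θ n * t) (L.φ L.t1 y)) atTop (𝓝 w) →
      (∀ k, ∃ C, ∀ n, CkB k C (ball 0 3) (resc L f χ₁ t (L.φ L.t1 x) n)) →
      (∀ k, ∃ C, ∀ n, CkB k C (ball 0 3) (resc L f' χ₂ t (L.φ L.t1 y) n)) →
      ContDiffOn ℝ ∞ G (ball 0 2) → ContDiffOn ℝ ∞ G' (ball 0 2) →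
      (∀ j, TendstoUniformlyOn (fun n => iteratedFDeriv ℝ j (resc L f χ₁ t (L.φ L.t1 x) (θ n)))
        (iteratedFDeriv ℝ j G) atTop (ball 0 2)) →
      (∀ j, TendstoUniformlyOn (fun n => iteratedFDeriv ℝ j (resc L f' χ₂ t (L.φ L.t1 y) (θ n)))
        (iteratedFDeriv ℝ j G') atTop (ball 0 2)) → WedgeZero (ball 0 2) G G') :
    ∃ i i' : ℕ, 1 ≤ i ∧ 1 ≤ i' ∧ i * L.χ ≤ χ₁ ∧ i' * L.χ ≤ χ₂ ∧ (i' : ℝ) * χ₁ = i * χ₂ := by
  obtain ⟨t, ht, hbd⟩ := exists_resc_bound L (max χ₁ χ₂)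
  have ht0 : 0 < t := L.t1_pos.trans_le ht
  obtain ⟨C, hC⟩ := hbd f x χ₁ h1 (le_max_left _ _) hf hLL
  obtain ⟨C', hC'⟩ := hbd f' y χ₂ h2 (le_max_right _ _) hf' hLL'
  have hχ := L.χ_pos
  obtain ⟨K, hK⟩ : ∃ K : ℕ, max χ₁ χ₂ < K * L.χ := by
    obtain ⟨K, hK⟩ := exists_nat_gt (max χ₁ χ₂ / L.χ)
    exact ⟨K, (div_lt_iff₀ hχ).1 hK⟩
  obtain ⟨c, hfam⟩ := exists_fam L hLL ht (K := K) (fun n => hC (K + 1) n)
  obtain ⟨c', hfam'⟩ := exists_fam L hLL' ht (K := K) (fun n => hC' (K + 1) n)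
  obtain ⟨C₀, Mσ, hsig⟩ := exists_sig L ht
  set z := L.φ L.t1 x with hz
  set z' := L.φ L.t1 y with hz'
  have has' : Tendsto (fun s => dist (L.φ s z) (L.φ s z')) atTop (𝓝 0) := by
    have h3 : Tendsto (fun s : ℝ => s + L.t1) atTop atTop := tendsto_atTop_add_const_right _ _ tendsto_id
    have h4 := has.comp h3
    refine h4.congr fun s => ?_
    rw [Function.comp_apply, hz, hz', L.φ_add, L.φ_add]
  have hχt : ∀ χ, χ ≤ max χ₁ χ₂ → χ * t < K * (L.χ * t) := by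
    intro χ hh
    have := hh.trans_lt hK
    nlinarith
  have hw : ∀ u ∈ ball (0 : E2) 2, ∀ v w, Tendsto (fun n =>
      fderiv ℝ (resc L f χ₁ t z n) u v * fderiv ℝ (resc L f' χ₂ t z' n) u w -
      fderiv ℝ (resc L f χ₁ t z n) u w * fderiv ℝ (resc L f' χ₂ t z' n) u v) atTop (𝓝 0) := by
    intro u hu v v'
    refine tendsto_of_subseq_tendsto fun ns hns => ?_
    -- frames
    obtain ⟨g, w, ψ, hψ, hlim⟩ := L.exists_limit (fun n => L.φ (ns n * t) z)
    have h23 : ball (0 : E2) 2 ⊆ ball 0 3 := ball_subset_ball (by norm_num)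
    obtain ⟨θ, hθ, G, hG, hG2⟩ := ck_subseq_top (M := C) isOpen_ball (convex_ball (0 : E2) 2)
      isBounded_ball (F := fun n => resc L f χ₁ t z (ns (ψ n)))
      (fun k n => (hC k (ns (ψ n))).mono le_rfl h23)
    obtain ⟨θ', hθ', G', hG', hG2'⟩ := ck_subseq_top (M := C') isOpen_ball (convex_ball (0 : E2) 2)
      isBounded_ball (F := fun n => resc L f' χ₂ t z' (ns (ψ (θ n))))
      (fun k n => (hC' k (ns (ψ (θ n)))).mono le_rfl h23)
    refine ⟨fun n => ψ (θ (θ' n)), ?_⟩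
    have hnT : Tendsto (fun n => (ns (ψ (θ (θ' n))) : ℝ) * t) atTop atTop :=
      (tendsto_natCast_atTop_atTop.comp (hns.comp (hψ.tendsto_atTop.comp
        (hθ.tendsto_atTop.comp hθ'.tendsto_atTop)))).atTop_mul_const ht0
    have hlimz : Tendsto (fun n => g (ψ (θ (θ' n))) • L.φ (ns (ψ (θ (θ' n))) * t) z) atTop (𝓝 w) :=
      hlim.comp (hθ.tendsto_atTop.comp hθ'.tendsto_atTop)
    have hlimz' : Tendsto (fun n => g (ψ (θ (θ' n))) • L.φ (ns (ψ (θ (θ' n))) * t) z') atTop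
        (𝓝 w) := by
      rw [tendsto_iff_dist_tendsto_zero] at hlimz ⊢
      refine squeeze_zero (fun n => dist_nonneg)
        (fun n => dist_triangle_left _ _ (g (ψ (θ (θ' n))) • L.φ (ns (ψ (θ (θ' n))) * t) z)) ?_
      have h5 := (has'.comp hnT).add hlimz
      rw [add_zero] at h5
      refine h5.congr fun n => ?_
      rw [dist_smul]; rfl
    have hG2s : ∀ j, TendstoUniformlyOn (fun n => iteratedFDeriv ℝ j
        (resc L f χ₁ t z (ns (ψ (θ (θ' n)))))) (iteratedFDeriv ℝ j G) atTop (ball 0 2) := fun j =>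
      tendstoUniformlyOn_sub (hG2 j) hθ'
    have hθt : Tendsto (fun n => ns (ψ (θ (θ' n)))) atTop atTop :=
      hns.comp (hψ.tendsto_atTop.comp (hθ.tendsto_atTop.comp hθ'.tendsto_atTop))
    have hWW := hW t ht (fun n => ns (ψ (θ (θ' n)))) (fun n => g (ψ (θ (θ' n)))) w G G' hθt hlimz
      hlimz' (fun k => ⟨C, fun n => hC k n⟩) (fun k => ⟨C', fun n => hC' k n⟩)
      (contDiffOn_infty.2 fun k => (hG k).1) (contDiffOn_infty.2 fun k => (hG' k).1) hG2s hG2'
      u hu v v'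
    have hfd : ∀ {H : ℕ → E2 → ℝ} {H' : E2 → ℝ}, TendstoUniformlyOn
        (fun n => iteratedFDeriv ℝ 1 (H n)) (iteratedFDeriv ℝ 1 H') atTop (ball 0 2) → ∀ a : E2,
        Tendsto (fun n => fderiv ℝ (H n) u a) atTop (𝓝 (fderiv ℝ H' u a)) := by
      intro H H' hH a
      have h6 : Continuous fun q : E2 [×1]→L[ℝ] ℝ => q (fun _ => a) :=
        (ContinuousMultilinearMap.apply ℝ (fun _ : Fin 1 => E2) ℝ (fun _ => a)).continuous
      have h7 := (h6.tendsto _).comp (hH.tendsto_at hu)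
      simpa [Function.comp_def, iteratedFDeriv_one_apply] using h7
    have h8 := ((hfd (hG2s 1) v).mul (hfd (hG2' 1) v')).sub
      ((hfd (hG2s 1) v').mul (hfd (hG2' 1) v))
    rw [hWW, sub_self] at h8
    exact h8
  obtain ⟨i, i', hi, hi', hiχ, hi'χ, heq⟩ := ratio_core (hsig z) (hsig z')
    (fun m hm u hu => sg_asym L ht has' hm hu) hfam hfam' (hχt χ₁ (le_max_left _ _))
    (hχt χ₂ (le_max_right _ _)) hw
  refine ⟨i, i', hi, hi', ?_, ?_, ?_⟩
  · have h9 : (i * L.χ) * t ≤ χ₁ * t := by linarith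
    exact le_of_mul_le_mul_right h9 ht0
  · have h9 : (i' * L.χ) * t ≤ χ₂ * t := by linarith
    exact le_of_mul_le_mul_right h9 ht0
  · have h9 : (i' * χ₁) * t = (i * χ₂) * t := by linarith
    exact mul_right_cancel₀ ht0.ne' h9

/-- the version with the limit objects of 575 -/
theorem ratio_at {f f' : B → ℝ} {x y : X} {χ₁ χ₂ : ℝ} (h1 : 0 ≤ χ₁) (h2 : 0 ≤ χ₂)
    (has : Tendsto (fun s => dist (L.φ s x) (L.φ s y)) atTop (𝓝 0))
    (hf : L.SmoothOn (L.em x) f) (hf' : L.SmoothOn (L.em y) f')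
    (hLL : LL L f χ₁ x) (hLL' : LL L f' χ₂ y)
    (hW : ∀ (w : X) (F F' : E2 → ℝ), L.IsLim (L.em x) f χ₁ w F → L.IsLim (L.em y) f' χ₂ w F' →
      WedgeZero (ball 0 2) F F') :
    ∃ i i' : ℕ, 1 ≤ i ∧ 1 ≤ i' ∧ i * L.χ ≤ χ₁ ∧ i' * L.χ ≤ χ₂ ∧ (i' : ℝ) * χ₁ = i * χ₂ := by
  refine ratio_seq L h1 h2 has hf hf' hLL hLL' ?_
  intro t ht θ g w G G' hθ hg hg' _ _ hG hG' hc hc'
  have ht0 : 0 < t := L.t1_pos.trans_le ht
  have hnT : Tendsto (fun n => (θ n : ℝ) * t) atTop atTop :=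
    (tendsto_natCast_atTop_atTop.comp hθ).atTop_mul_const ht0
  exact hW w G G'
    ⟨{L.φ L.t1 x}, fun _ => L.φ L.t1 x, fun n => θ n * t, g, isCompact_singleton, fun n => rfl,
      fun n => L.em_φ _ _, hnT, hg, hG, fun j => hc j⟩
    ⟨{L.φ L.t1 y}, fun _ => L.φ L.t1 y, fun n => θ n * t, g, isCompact_singleton, fun n => rfl,
      fun n => L.em_φ _ _, hnT, hg', hG', fun j => hc' j⟩

end Vale.Agent.P207.N3.H828
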