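import Vale.Agent.P207.N3.H828.JRatio
import Vale.Agent.P207.N3.H828.Star
import Vale.Agent.P207.N3.H545.Lim
import Vale.Agent.P207.N3.H545.Dir

/-!
# The ratio lemma (4.4) over `Leaf`, `Tens` (helper828, line N3 of P207)
-/

open Set Filter Topology Metric MeasureTheory
open scoped ContDiff

noncomputable section

namespace Vale.Agent.P207.N3.H828

open Vale.Agent.P207.N3 Vale.Agent.P207.H575.T3

variable {Γ X B : Type} [Group Γ] [MetricSpace X] [ProperSpace X] [MulAction Γ X]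
  [IsIsometricSMul Γ X] [TopologicalSpace B] [CompactSpace B] [T2Space B] [MulAction Γ B]
  [ContinuousConstSMul Γ B]

variable {L : Leaf Γ X B}

theorem smoothOn_of_smDir {T : Tens L} {ξ : B} {f : B → ℝ} (h : SmDir T ξ f) : L.SmoothOn ξ f :=
  fun y hy => (h y hy).1

/-- bounds of `N ∇F` for the rescaled functions -/
theorem exists_W_bound (T : Tens L) {f : B → ℝ} {y : X} {χ : ℝ} (hχ : 0 ≤ χ)
    (hdir : SmDir T (L.em y) f) (hLL : LL L f χ y) : ∃ K : ℕ, ∀ k ≥ K, ∃ C : ℝ, ∀ t ≥ L.t1, ∀ n : ℕ,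
    H545.CkB k 2 C (fun u => T.N (L.φ (n * t) (L.φ L.t1 y)) u
      (gradient (resc L f χ t (L.φ L.t1 y) n) u)) := by
  obtain ⟨K, hK⟩ := H545.dir_bdd T hχ
  obtain ⟨c, hc, C', hC'⟩ := hLL
  refine ⟨K, fun k hk => ?_⟩
  obtain ⟨C, hC1, hC⟩ := hK k hk
  obtain ⟨hd1, hd2⟩ := hdir y rfl
  obtain ⟨C1, hC10, hCk1⟩ := H545.exists_CkB_of_contDiffOn (k := k + 1) (r := 1) (R := 3)
    (by norm_num) (hd1.of_le (WithTop.coe_le_coe.2 (le_top : ((k + 1 : ℕ) : ℕ∞) ≤ ⊤)))
  obtain ⟨C2, hC20, hCk2⟩ := H545.exists_CkB_of_contDiffOn (k := k) (r := 1) (R := 3)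
    (by norm_num) (hd2.of_le (WithTop.coe_le_coe.2 (le_top : ((k : ℕ) : ℕ∞) ≤ ⊤)))
  set C₀ : ℝ := max C1 C2 with hC₀
  set D : ℝ := max C₀ (|C'| * Real.exp (χ * L.t1)) with hD
  have hC₀0 : 0 ≤ C₀ := hC10.trans (le_max_left _ _)
  have hD0 : 0 ≤ D := hC₀0.trans (le_max_left _ _)
  refine ⟨C * D, fun t ht n => ?_⟩
  have ht0 : 0 ≤ t := L.t1_pos.le.trans ht
  set s : ℝ := n * t + L.t1 with hs
  have hs1 : L.t1 ≤ s := by
    have : 0 ≤ (n : ℝ) * t := by positivity
    linarith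
  have hfr : L.φ (n * t) (L.φ L.t1 y) = L.φ s y := by rw [← L.φ_add]
  have hM : D * Real.exp (-χ * s) * Real.exp (χ * s) = D := by
    rw [mul_assoc, ← Real.exp_add]; simp
  have key := (hC f (f (L.ep y)) y C₀ s (D * Real.exp (-χ * s)) hC₀0 (by positivity) hs1
    ⟨hCk1.1, fun j hj u hu => (hCk1.2 j hj u hu).trans (le_max_left _ _)⟩
    ⟨hCk2.1, fun j hj u hu => (hCk2.2 j hj u hu).trans (le_max_right _ _)⟩
    (by rw [hM]; exact le_max_left _ _) ?_).2
  · -- the rescaled version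
    have hgr : ∀ u ∈ ball (0 : E2) 2, T.N (L.φ (n * t) (L.φ L.t1 y)) u
        (gradient (resc L f χ t (L.φ L.t1 y) n) u) =
        Real.exp (χ * (n * t)) • H545.Wf T f (L.φ s y) u := by
      intro u hu
      have hu3 : u ∈ ball (0 : E2) 3 := ball_subset_ball (by norm_num) hu
      have hdf : DifferentiableAt ℝ (fun v => f (L.e (L.φ s y) v)) u := by
        have h1 := (hdir (L.φ s y) (L.em_φ _ _)).1
        exact (h1.contDiffAt (isOpen_ball.mem_nhds hu3)).differentiableAt (by simp)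
      have h2 : gradient (resc L f χ t (L.φ L.t1 y) n) u =
          Real.exp (χ * (n * t)) • gradient (fun v => f (L.e (L.φ s y) v)) u := by
        have h3 : fderiv ℝ (resc L f χ t (L.φ L.t1 y) n) u =
            Real.exp (χ * (n * t)) • fderiv ℝ (fun v => f (L.e (L.φ s y) v)) u := by
          have h4 := ((hdf.hasFDerivAt.sub_const (f (L.ep (L.φ L.t1 y)))).const_mul
            (Real.exp (χ * (n * t))))
          have h5 : resc L f χ t (L.φ L.t1 y) n = fun v => Real.exp (χ * (n * t)) *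
              (f (L.e (L.φ s y) v) - f (L.ep (L.φ L.t1 y))) := by
            funext v
            unfold resc
            rw [hfr]
          rw [h5]
          exact h4.fderiv
        unfold gradient
        rw [h3, map_smulₛₗ]
        simp
      rw [h2, hfr, map_smul]
      rfl
    have h6 : H545.CkB k 2 (C * D) (fun u => Real.exp (χ * (n * t)) • H545.Wf T f (L.φ s y) u) := by
      refine ⟨ContDiffOn.const_smul _ key.1, fun j hj u hu => ?_⟩
      have h7 : ContDiffAt ℝ j (H545.Wf T f (L.φ s y)) u :=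
        (key.1.contDiffAt (isOpen_ball.mem_nhds hu)).of_le (by exact_mod_cast hj)
      rw [iteratedFDeriv_const_smul_apply' h7, norm_smul, Real.norm_of_nonneg (Real.exp_pos _).le]
      have h8 := key.2 j hj u hu
      have hC0 : 0 ≤ C := zero_le_one.trans hC1
      calc Real.exp (χ * (n * t)) * ‖iteratedFDeriv ℝ j (H545.Wf T f (L.φ s y)) u‖
          ≤ Real.exp (χ * (n * t)) * (C * (D * Real.exp (-χ * s))) := by gcongr
        _ = C * D * Real.exp (-(χ * L.t1)) := by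
            have : Real.exp (-(χ * L.t1)) = Real.exp (χ * (n * t)) * Real.exp (-χ * s) := by
              rw [← Real.exp_add]; congr 1; rw [hs]; ring
            rw [this]; ring
        _ ≤ C * D * 1 := by
            gcongr
            rw [Real.exp_le_one_iff]
            have := L.t1_pos
            have : 0 ≤ χ * L.t1 := by positivity
            linarith
        _ = C * D := mul_one _
    exact H545.CkB_congr h6 hgr
  · intro s' hs' u hu
    set w := L.φ (s' - L.t1) y with hw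
    have hwz : L.φ s' y = L.φ L.t1 w := by
      rw [hw, ← L.φ_add]; congr 1; ring
    have h1 : L.e (L.φ s' y) u ∈ L.e w '' ball 0 1 := by
      rw [hwz]
      exact L.engulf w L.t1 le_rfl ⟨u, ball_subset_closedBall (ball_subset_ball (by norm_num) hu), rfl⟩
    obtain ⟨v, hv, hev⟩ := h1
    have h2 := (hC' (s' - L.t1) (by linarith [hs'.1])).1 v (ball_subset_closedBall hv)
    rw [← hw, hev] at h2
    rw [Real.norm_eq_abs]
    refine h2.trans ?_
    have e1 : D * Real.exp (-χ * s) * Real.exp (χ * (s - s')) = D * Real.exp (-χ * s') := by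
      rw [mul_assoc, ← Real.exp_add]; congr 2; ring
    have e2 : Real.exp (-χ * (s' - L.t1)) = Real.exp (χ * L.t1) * Real.exp (-χ * s') := by
      rw [← Real.exp_add]; congr 1; ring
    rw [e1, e2, ← mul_assoc]
    gcongr
    calc C' * Real.exp (χ * L.t1) ≤ |C'| * Real.exp (χ * L.t1) := by gcongr; exact le_abs_self _
      _ ≤ D := le_max_right _ _

/-- the limit of `N ∇F` is smooth -/
theorem lim_dir (T : Tens L) {f : B → ℝ} {y : X} {χ : ℝ} (hχ : 0 ≤ χ)
    (hdir : SmDir T (L.em y) f) (hLL : LL L f χ y) {t : ℝ} (ht : L.t1 ≤ t) {θ : ℕ → ℕ} {g : ℕ → Γ}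
    {w : X} (hg : Tendsto (fun n => g n • L.φ (θ n * t) (L.φ L.t1 y)) atTop (𝓝 w))
    (hck : ∀ k, ∃ C, ∀ n, CkB k C (ball 0 3) (resc L f χ t (L.φ L.t1 y) n)) {G : E2 → ℝ}
    (hG : ∀ j, TendstoUniformlyOn (fun n => iteratedFDeriv ℝ j (resc L f χ t (L.φ L.t1 y) (θ n)))
      (iteratedFDeriv ℝ j G) atTop (ball 0 2)) (k₀ : ℕ) :
    ContDiffOn ℝ k₀ (fun u => T.N w u (gradient G u)) (ball 0 2) := by
  obtain ⟨K, hK⟩ := exists_W_bound T hχ hdir hLL
  set k := max (max k₀ K) 1 with hk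
  obtain ⟨C', hC'⟩ := hK (k + 1) (by omega)
  obtain ⟨C, hC⟩ := hck (k + 1)
  set C1 : ℝ := ∑ j ∈ Finset.range (k + 2), |C j| with hC1
  have hF : ∀ n, H545.CkB (k + 1) 2 C1 (resc L f χ t (L.φ L.t1 y) (θ n)) := by
    intro n
    have h1 := (hC (θ n)).mono le_rfl (ball_subset_ball (by norm_num : (2 : ℝ) ≤ 3))
    refine ⟨h1.1, fun j hj u hu => (h1.2 j hj u hu).trans ((le_abs_self _).trans ?_)⟩
    exact Finset.single_le_sum (f := fun j => |C j|) (fun _ _ => abs_nonneg _)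
      (Finset.mem_range.2 (by omega))
  have hpt : ∀ u ∈ ball (0 : E2) 2, Tendsto (fun n => resc L f χ t (L.φ L.t1 y) (θ n) u) atTop
      (𝓝 (G u)) := fun u hu => (tendstoUniformlyOn_of_zero (hG 0)).tendsto_at hu
  have h2 := (H545.lim_rule T hg (by omega : 1 ≤ k) hF hpt (fun n => hC' t ht (θ n))).2.1
  exact h2.1.of_le (by exact_mod_cast (by omega : k₀ ≤ k))

/-- **The ratio lemma for two asymptotic frames.** -/
theorem ratio_dir (T : Tens L) {k₀ : ℕ} (hR : Rough T k₀) {f f' : B → ℝ} {x y : X} {χ₁ χ₂ : ℝ}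
    (h1 : 0 ≤ χ₁) (h2 : 0 ≤ χ₂)
    (has : Tendsto (fun s => dist (L.φ s x) (L.φ s y)) atTop (𝓝 0))
    (hdir : SmDir T (L.em x) f) (hdir' : SmDir T (L.em y) f')
    (hLL : LL L f χ₁ x) (hLL' : LL L f' χ₂ y) :
    ∃ i i' : ℕ, 1 ≤ i ∧ 1 ≤ i' ∧ i * L.χ ≤ χ₁ ∧ i' * L.χ ≤ χ₂ ∧ (i' : ℝ) * χ₁ = i * χ₂ := by
  refine ratio_seq L h1 h2 has (smoothOn_of_smDir hdir) (smoothOn_of_smDir hdir') hLL hLL' ?_
  intro t ht θ g w G G' hθ hg hg' hck hck' hG hG' hc hc'
  have hle : ((k₀ + 1 : ℕ) : WithTop ℕ∞) ≤ ∞ :=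
    WithTop.coe_le_coe.2 (le_top : ((k₀ + 1 : ℕ) : ℕ∞) ≤ ⊤)
  exact star T hR (w := w) (by norm_num) (hG.of_le hle) (hG'.of_le hle)
    (lim_dir T h1 hdir hLL ht hg hck hc k₀) (lim_dir T h2 hdir' hLL' ht hg' hck' hc' k₀)

/-- translation of `SmDir` -/
theorem smDir_smul {T : Tens L} (g : Γ) {ξ : B} {f : B → ℝ} (h : SmDir T ξ f) :
    SmDir T (g • ξ) (fun b => f (g⁻¹ • b)) := by
  intro x hx
  have h1 : L.em (g⁻¹ • x) = ξ := by rw [L.em_smul, hx, inv_smul_smul]
  obtain ⟨h2, h3⟩ := h _ h1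
  have he : ∀ u ∈ ball (0 : E2) 3, f (g⁻¹ • L.e x u) = f (L.e (g⁻¹ • x) u) := fun u hu => by
    rw [L.e_smul _ _ _ (ball_subset_closedBall hu)]
  refine ⟨h2.congr he, h3.congr fun u hu => ?_⟩
  have h4 : gradient (fun u => f (g⁻¹ • L.e x u)) u = gradient (fun u => f (L.e (g⁻¹ • x) u)) u := by
    unfold gradient
    congr 1
    refine Filter.EventuallyEq.fderiv_eq ?_
    filter_upwards [isOpen_ball.mem_nhds hu] with v hv
    exact he v hv
  show T.N x u (gradient (fun u => f (g⁻¹ • L.e x u)) u) = _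
  rw [h4, T.N_smul g⁻¹ x u hu]

/-- in a level form, `E^s(df,·)` is smooth -/
theorem smDir_of_levForm [MeasurableSpace B] [BorelSpace B] {A : Area L} {T : Tens L} {k₀ : ℕ}
    {o : Orb L} (t : LevForm A T k₀ o) : SmDir T o.neg t.f := by
  intro y hy
  have hf : L.SmoothOn o.neg t.f := by
    intro z hz
    have h1 := t.n.smooth z hz
    exact (EuclideanSpace.proj (𝕜 := ℝ) t.i : E2 →L[ℝ] ℝ).contDiff.comp_contDiffOn h1
  refine ⟨hf y hy, ?_⟩
  have hV := t.V_smooth y hy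
  have hfy : ContDiffOn ℝ ∞ (fun u => t.f (L.e y u)) (ball 0 3) := hf y hy
  have hg : ContDiffOn ℝ ∞ (gradient fun u => t.f (L.e y u)) (ball 0 3) := by
    rw [contDiffOn_infty]
    intro k
    refine contDiffOn_gradient isOpen_ball (hfy.of_le ?_)
    exact WithTop.coe_le_coe.2 (le_top : ((k + 1 : ℕ) : ℕ∞) ≤ ⊤)
  have h2 : ContDiffOn ℝ ∞ (fun u => t.V y u (gradient (fun u => t.f (L.e y u)) u)) (ball 0 3) :=
    hV.clm_apply hg
  refine h2.congr fun u hu => ?_
  rw [t.form y hy u hu]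
  have h3 : inner ℝ (perp A y (fun η => t.n.x η t.i) u)
      (gradient (fun u => t.f (L.e y u)) u) = (0 : ℝ) := by
    unfold perp
    rw [inner_smul_left]
    have h4 : inner ℝ (J (gradient (fun u => t.n.x (L.e y u) t.i) u))
        (gradient (fun u => t.n.x (L.e y u) t.i) u) = (0 : ℝ) := by
      rw [PiLp.inner_apply, Fin.sum_univ_two]
      simp [J]
      ring
    have h5 : (fun u => t.f (L.e y u)) = fun u => t.n.x (L.e y u) t.i := rfl
    rw [h5, h4, mul_zero]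
  rw [h3, mul_zero, zero_smul, add_zero]

/-- the exponent of a typed orbit is nonnegative -/
theorem chi_nonneg [MeasurableSpace B] [BorelSpace B] {A : Area L} {T : Tens L} {k₀ : ℕ}
    (p : Typed A T k₀) : 0 ≤ p.t.χ := by
  have hm : 1 ≤ p.t.n.N.m2 ∧ 1 ≤ p.t.n.N.m1 := by
    have hok := p.t.n.ok
    cases hN : p.t.n.N with
    | tri μ₁ μ₂ a k =>
      rw [hN] at hok
      exact ⟨hok.1.le, hok.1.le.trans hok.2.1⟩
    | cx c s =>
      rw [hN] at hok
      have h1 : 1 ≤ Real.sqrt (c ^ 2 + s ^ 2) := by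
        rw [Real.one_le_sqrt]
        exact hok.2.le
      exact ⟨h1, h1⟩
  have hl := p.o.ax.pos
  have hh := A.h_pos
  rcases p.type with h | h | h | h
  · rw [h.2.2]
    exact div_nonneg (Real.log_nonneg hm.1) hl.le
  · rw [h.2.2.2]
    exact div_nonneg (Real.log_nonneg hm.2) hl.le
  · rw [h.2.2]; positivity
  · rw [h.2.2]; positivity

/-- **P15: THE RATIO LEMMA (4.4).** -/
theorem ratio [MeasurableSpace B] [BorelSpace B] {A : Area L} {T : Tens L} {k₀ : ℕ}
    (hR : Rough T k₀) (p q : Typed A T k₀) (hG1 : GoodLev L p.o.neg p.t.f p.t.χ 0)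
    (hdense : Dense {s : ℝ | GoodLev L q.o.neg q.t.f q.t.χ s}) :
    ∃ i j : ℕ, 1 ≤ i ∧ 1 ≤ j ∧ i * L.χ ≤ p.t.χ ∧ j * L.χ ≤ q.t.χ ∧ j * p.t.χ = i * q.t.χ := by
  have hp := chi_nonneg p
  have hq := chi_nonneg q
  have hmin : ∀ ξ : B, Dense (MulAction.orbit Γ ξ) := fun ξ => L.dense_orbit ξ
  obtain ⟨g, η, hηa, hη0, hgη, hgood⟩ := exists_good_point hmin (norChart p.t.n p.t.i)
    (norChart q.t.n q.t.i) hdense
  obtain ⟨x₀, hx1, hx2, -⟩ := L.exists_frame p.o.neg η (fun h => hηa h.symm) 0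
  have hLL0 : LL L p.t.f p.t.χ x₀ := hG1 x₀ hx1 (by rw [hx2]; exact hη0)
  set x := g • x₀ with hx
  have hxep : L.ep x = g • η := by rw [hx, L.ep_smul, hx2]
  have hne : q.o.neg ≠ L.ep x := by rw [hxep]; exact fun h => hgη h.symm
  set y := L.hol q.o.neg x with hy
  have hyem : L.em y = q.o.neg := L.hol_em _ _ hne
  have hyep : L.ep y = g • η := by rw [hy, L.hol_ep _ _ hne, hxep]
  have hLLy : LL L q.t.f q.t.χ y := hgood y hyem (by rw [hyep]; rfl)
  have hLLx : LL L (fun b => p.t.f (g⁻¹ • b)) p.t.χ x := LL_smul g hLL0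
  have hxem : L.em x = g • p.o.neg := by rw [hx, L.em_smul, hx1]
  have has : Tendsto (fun s => dist (L.φ s x) (L.φ s y)) atTop (𝓝 0) := by
    obtain ⟨C, hC⟩ := L.hol_asym {(q.o.neg, x)} isCompact_singleton (by
      intro p hp
      rw [mem_singleton_iff.1 hp]
      exact hne)
    have h1 : Tendsto (fun s : ℝ => C * Real.exp (-L.χ * s)) atTop (𝓝 0) := by
      have h2 : Tendsto (fun s : ℝ => Real.exp (-(L.χ * s))) atTop (𝓝 0) :=
        Real.tendsto_exp_neg_atTop_nhds_zero.comp (tendsto_id.const_mul_atTop L.χ_pos)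
      have h3 := h2.const_mul C
      rw [mul_zero] at h3
      refine h3.congr fun s => ?_
      rw [neg_mul]
    refine squeeze_zero' (Eventually.of_forall fun s => dist_nonneg) ?_ h1
    filter_upwards [eventually_ge_atTop (0 : ℝ)] with s hs
    exact hC (q.o.neg, x) rfl s hs
  have hdx : SmDir T (L.em x) (fun b => p.t.f (g⁻¹ • b)) := by
    rw [hxem]
    exact smDir_smul g (smDir_of_levForm p.t)
  have hdy : SmDir T (L.em y) q.t.f := by
    rw [hyem]
    exact smDir_of_levForm q.t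
  exact ratio_dir T hR hp hq has hdx hdy hLLx hLLy

end Vale.Agent.P207.N3.H828
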