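import Vale.Agent.P207.N3.H828.TenJC
import Vale.Agent.P207.N3.H229.Base
import Vale.Agent.P207.N3.H728.Pairs

/-!
# P207, line N3, P12: the smooth boundary

`SmB L D`: all transition maps of the charts are smooth and `D` is smooth off the diagonal, with
nondegenerate mixed derivative, jointly continuously in the frames. `VV` is the trace free tensor at
a pair of different boundary points.
-/

noncomputable section

open Set Filter Topology Metric
open scoped ContDiff

set_option maxSynthPendingDepth 3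
set_option linter.unusedSectionVars false

namespace Vale.Agent.P207.N3.H828

open H576 Ten
open H229 (ei ei_eq ei_mem e_ei ei_mem_ball inv_cont)

variable {Γ X B : Type} [Group Γ] [MetricSpace X] [ProperSpace X] [MulAction Γ X]
  [IsIsometricSMul Γ X] [TopologicalSpace B] [CompactSpace B] [T2Space B] [MulAction Γ B]
  [ContinuousConstSMul Γ B]

/-- `D` in two charts -/
def ff (L : Leaf Γ X B) (D : B → B → ℝ) (p : X × X) (z : E2 × E2) : ℝ :=
  D (L.e p.1 z.1) (L.e p.2 z.2)

/-- the pairs of different points in the charts -/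
def od (L : Leaf Γ X B) : Set ((X × X) × (E2 × E2)) :=
  {q | q.2.1 ∈ ball (0 : E2) 3 ∧ q.2.2 ∈ ball (0 : E2) 3 ∧
    L.e q.1.1 q.2.1 ≠ L.e q.1.2 q.2.2}

/-- **the smooth boundary**: the smooth alternative, in terms of the boundary -/
structure SmB (L : Leaf Γ X B) (D : B → B → ℝ) : Prop where
  /-- all transition maps are smooth, with jointly continuous derivatives -/
  tau_jc : JC (fun p : X × X => L.τ p.1 p.2) {q : (X × X) × E2 | q.2 ∈ L.dm q.1.1 q.1.2}
  /-- `D` is smooth off the diagonal, with jointly continuous derivatives -/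
  f_jc : JC (ff L D) (od L)
  /-- the mixed derivative is nondegenerate -/
  nd : ∀ q ∈ od L, Function.Injective (du (dp (ff L D q.1)) q.2)

/-- an injective map from vectors to covectors has nonzero determinant -/
theorem mdet_ne_of_inj {A : E2 →L[ℝ] D2} (h : Function.Injective A) : mdet A ≠ 0 := by
  intro h0
  have key : ∀ j : Fin 2, A (A (bv 1) (bv j) • bv 0 - A (bv 0) (bv j) • bv 1) = 0 := by
    intro j
    ext v
    rw [cov_apply, map_sub, map_smul, map_smul]
    simp only [_root_.sub_apply, _root_.smul_apply, smul_eq_mul, _root_.zero_apply]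
    rw [mdet] at h0
    fin_cases j
    · simp only [Fin.zero_eta, Fin.isValue]
      linear_combination (- v 1) * h0
    · simp only [Fin.mk_one, Fin.isValue]
      linear_combination v 0 * h0
  have h1 : ∀ j : Fin 2, A (bv 1) (bv j) = 0 ∧ A (bv 0) (bv j) = 0 := by
    intro j
    have h2 : A (bv 1) (bv j) • bv 0 - A (bv 0) (bv j) • bv 1 = (0 : E2) := by
      apply h
      rw [key j, map_zero]
    have e0 := congrArg (fun v : E2 => v 0) h2
    have e1 := congrArg (fun v : E2 => v 1) h2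
    simp [bv_apply] at e0 e1
    exact ⟨e0, e1⟩
  have h3 : A (bv 0) = 0 := by
    ext v
    rw [cov_apply, (h1 0).2, (h1 1).2]
    simp
  have h4 : (bv 0 : E2) = 0 := h (by rw [h3, map_zero])
  have h5 := congrArg (fun v : E2 => v 0) h4
  simp [bv_apply] at h5

variable {L : Leaf Γ X B} {D : B → B → ℝ}

theorem SmB.mdet_ne (H : SmB L D) {q : (X × X) × (E2 × E2)} (hq : q ∈ od L) :
    mdet (du (dp (ff L D q.1)) q.2) ≠ 0 := mdet_ne_of_inj (H.nd q hq)

theorem SmB.Nd (H : SmB L D) {q : (X × X) × (E2 × E2)} (hq : q ∈ od L) :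
    Nd (ff L D q.1) q.2 := nd_of_mdet (H.mdet_ne hq)

theorem SmB.sm (H : SmB L D) {q : (X × X) × (E2 × E2)} (hq : q ∈ od L) :
    Sm (ff L D q.1) q.2 := jc_sm H.f_jc hq

theorem mem_od {x y : X} {a b : E2} (ha : a ∈ ball (0 : E2) 3) (hb : b ∈ ball (0 : E2) 3)
    (h : L.e x a ≠ L.e y b) : ((x, y), (a, b)) ∈ od L := ⟨ha, hb, h⟩

theorem SmB.ev_od (H : SmB L D) {x y : X} {a b : E2} (h : ((x, y), (a, b)) ∈ od L) :
    ∀ᶠ z in 𝓝 (a, b), ((x, y), z) ∈ od L := by
  have h1 := isOpen_slice H.f_jc.isOpen (x, y)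
  exact h1.mem_nhds h

theorem SmB.sm_tau (H : SmB L D) {x y : X} {u : E2} (hu : u ∈ L.dm x y) : Sm (L.τ x y) u :=
  jc_sm H.tau_jc (p := ((x, y), u)) hu

theorem ev_dm {x y : X} {u : E2} (hu : u ∈ L.dm x y) : ∀ᶠ v in 𝓝 u, v ∈ L.dm x y :=
  (isOpen_dm L x y).mem_nhds hu

/-- the derivatives of the transition maps are invertible -/
theorem SmB.inv_tau (H : SmB L D) {x y : X} {u : E2} (hu : u ∈ L.dm x y) :
    ∃ a : E2 ≃L[ℝ] E2, (a : E2 →L[ℝ] E2) = fderiv ℝ (L.τ x y) u := by
  have key : ∀ {x y : X} {u : E2}, u ∈ L.dm x y →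
      (fderiv ℝ (L.τ y x) (L.τ x y u)) ∘L (fderiv ℝ (L.τ x y) u)
        = ContinuousLinearMap.id ℝ E2 := by
    intro x y u hu
    have h1 : HasFDerivAt (L.τ x y) (fderiv ℝ (L.τ x y) u) u := (H.sm_tau hu).diff.hasFDerivAt
    have h2 : HasFDerivAt (L.τ y x) (fderiv ℝ (L.τ y x) (L.τ x y u)) (L.τ x y u) :=
      (H.sm_tau (tau_symm_mem hu)).diff.hasFDerivAt
    have h3 := h2.comp u h1
    have h4 : (L.τ y x ∘ L.τ x y) =ᶠ[𝓝 u] _root_.id := by
      filter_upwards [ev_dm hu] with v hv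
      exact tau_tau_symm hv
    have h5 := h3.congr_of_eventuallyEq h4.symm
    exact h5.unique (hasFDerivAt_id u)
  have h1 := key hu
  have h2 := key (tau_symm_mem hu)
  rw [tau_tau_symm hu] at h2
  refine ⟨ContinuousLinearEquiv.equivOfInverse (fderiv ℝ (L.τ x y) u)
    (fderiv ℝ (L.τ y x) (L.τ x y u)) (fun v => ?_) (fun v => ?_), rfl⟩
  · exact congrArg (fun T : E2 →L[ℝ] E2 => T v) h1
  · exact congrArg (fun T : E2 →L[ℝ] E2 => T v) h2

theorem SmB.Inv_tau (H : SmB L D) {x y : X} {u : E2} (hu : u ∈ L.dm x y) : Inv (L.τ x y) u :=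
  H.inv_tau hu

/-- change of the two charts -/
theorem ff_change {x x' y y' : X} {a b : E2} (ha : a ∈ L.dm x x') (hb : b ∈ L.dm y y') :
    ff L D (x, y) (a, b) = ff L D (x', y') (L.τ x x' a, L.τ y y' b) := by
  simp only [ff]
  rw [e_tau ha, e_tau hb]

theorem od_change {x x' y y' : X} {a b : E2} (ha : a ∈ L.dm x x') (hb : b ∈ L.dm y y')
    (h : L.e x a ≠ L.e y b) : ((x', y'), (L.τ x x' a, L.τ y y' b)) ∈ od L :=
  mem_od (tau_mem ha) (tau_mem hb) (by rw [e_tau ha, e_tau hb]; exact h)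

/-- **transformation of the tensor under a change of the charts** -/
theorem SmB.Rd_tau (H : SmB L D) {x x' y y' : X} {a b : E2} (ha : a ∈ L.dm x x')
    (hb : b ∈ L.dm y y') (h : L.e x a ≠ L.e y b) {J : E2 ≃L[ℝ] E2}
    (hJ : (J : E2 →L[ℝ] E2) = fderiv ℝ (L.τ x x') a) :
    Act J (Rd (ff L D (x', y')) (L.τ x x' a, L.τ y y' b)) (Rd (ff L D (x, y)) (a, b)) := by
  have hod := mem_od ha.1 hb.1 h
  refine Rd_change (al := L.τ x x') (be := L.τ y y') (g1 := fun _ => 0) (g2 := fun _ => 0)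
    (z := (a, b)) (f := ff L D (x', y')) (f' := ff L D (x, y)) hJ.symm (H.Inv_tau hb)
    (H.sm_tau ha) (H.sm_tau hb) (H.sm (od_change ha hb h)) (Sm.const 0 a) ?_ (H.sm hod)
    (H.Nd (od_change ha hb h))
  filter_upwards [(continuousAt_fst : ContinuousAt Prod.fst (a, b)).eventually (ev_dm ha),
    (continuousAt_snd : ContinuousAt Prod.snd (a, b)).eventually (ev_dm hb)] with z hz1 hz2
  rw [add_zero, add_zero]
  exact ff_change hz1 hz2

/-- a frame which ends at a given point -/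
def frp (L : Leaf Γ X B) (η : B) : X := (H728.exists_ep L η).choose

theorem ep_frp (η : B) : L.ep (frp L η) = η := (H728.exists_ep L η).choose_spec

theorem e_frp (η : B) : L.e (frp L η) 0 = η := by rw [L.e_zero, ep_frp]

/-- **the trace free tensor** at the point `ep x`, in the chart `e x`; the second point is `η` -/
def VV (L : Leaf Γ X B) (D : B → B → ℝ) (lam : ℝ) (x : X) (η : B) : T4 :=
  Wd lam (ff L D (x, frp L η)) (0, 0)

theorem zero_dm (x : X) : (0 : E2) ∈ L.dm x x := dm_zero_of_ep rfl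

theorem tau_self {x : X} {u : E2} (hu : u ∈ ball (0 : E2) 3) : L.τ x x u = u :=
  tau_eq (ball_sub hu) rfl

theorem self_dm {x : X} {u : E2} (hu : u ∈ ball (0 : E2) 3) : u ∈ L.dm x x :=
  mem_dm hu hu rfl

theorem act_refl {T T' : T4} (h : Act (ContinuousLinearEquiv.refl ℝ E2) T T') : T' = T := by
  funext y y' w w'
  rw [h]
  rfl

theorem fderiv_tau_self {x : X} {u : E2} (hu : u ∈ ball (0 : E2) 3) :
    ((ContinuousLinearEquiv.refl ℝ E2 : E2 ≃L[ℝ] E2) : E2 →L[ℝ] E2) = fderiv ℝ (L.τ x x) u := by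
  have h4 : (L.τ x x) =ᶠ[𝓝 u] _root_.id := by
    filter_upwards [isOpen_ball.mem_nhds hu] with v hv
    exact tau_self hv
  rw [h4.fderiv_eq, fderiv_id]
  rfl

/-- the tensor in any chart around the second point -/
theorem SmB.VV_eq (H : SmB L D) (lam : ℝ) {x y : X} {u : E2} (hu : u ∈ ball (0 : E2) 3)
    (h : L.e y u ≠ L.ep x) : VV L D lam x (L.e y u) = Wd lam (ff L D (x, y)) (0, u) := by
  set w := frp L (L.e y u) with hw
  have hu' : u ∈ L.dm y w := mem_dm hu mem_ball0 (e_frp _)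
  have h0 : L.τ y w u = 0 := tau_eq mem_cball0 (e_frp _)
  have h1 := H.Rd_tau (x := x) (x' := x) (y := y) (y' := w) (a := 0) (b := u) (zero_dm x) hu'
    (by rw [L.e_zero]; exact h.symm) (fderiv_tau_self mem_ball0)
  rw [h0, tau_self mem_ball0] at h1
  exact (act_refl (Wd_act lam h1)).symm

theorem SmB.VV_isT (lam : ℝ) (x : X) (η : B) : IsT (VV L D lam x η) := Wd_isT _ _ _

theorem mem_od_frp {x : X} {η : B} (h : η ≠ L.ep x) : ((x, frp L η), ((0 : E2), (0 : E2))) ∈ od L :=
  mem_od mem_ball0 mem_ball0 (by rw [L.e_zero, e_frp]; exact h.symm)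

theorem SmB.VV_symm4 (H : SmB L D) (lam : ℝ) {x : X} {η : B} (h : η ≠ L.ep x) :
    Symm4 (VV L D lam x η) :=
  Wd_symm4 lam (H.sm (mem_od_frp h)) (H.Nd (mem_od_frp h))

/-- the derivative of the transition map at the origin -/
def Jm (L : Leaf Γ X B) (x y : X) : E2 ≃L[ℝ] E2 := by
  classical
  exact if h : ∃ a : E2 ≃L[ℝ] E2, (a : E2 →L[ℝ] E2) = fderiv ℝ (L.τ x y) 0 then h.choose
    else ContinuousLinearEquiv.refl ℝ E2

theorem SmB.Jm_eq (H : SmB L D) {x y : X} (h : L.ep x = L.ep y) :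
    (Jm L x y : E2 →L[ℝ] E2) = fderiv ℝ (L.τ x y) 0 := by
  have h1 := H.inv_tau (dm_zero_of_ep h)
  rw [Jm, dif_pos h1]
  exact h1.choose_spec

/-- **change of the frame** -/
theorem SmB.VV_act (H : SmB L D) (lam : ℝ) {x y : X} (hxy : L.ep x = L.ep y) {η : B}
    (h : η ≠ L.ep x) : Act (Jm L y x) (VV L D lam x η) (VV L D lam y η) := by
  have h1 := H.Rd_tau (x := y) (x' := x) (y := frp L η) (y' := frp L η) (a := 0) (b := 0)
    (dm_zero_of_ep hxy.symm) (zero_dm _) (by rw [L.e_zero, e_frp, ← hxy]; exact h.symm)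
    (H.Jm_eq hxy.symm)
  rw [tau_zero_of_ep hxy.symm, tau_self mem_ball0] at h1
  exact Wd_act lam h1

/-- **continuity** -/
theorem SmB.VV_cont (H : SmB L D) (lam : ℝ) (k l i j : Fin 2) :
    ContinuousOn (fun p : X × B => co (VV L D lam p.1 p.2) k l i j) {p | p.2 ≠ L.ep p.1} := by
  rintro ⟨x₀, η₀⟩ h0
  apply ContinuousAt.continuousWithinAt
  set w := frp L η₀ with hw
  have hop : IsOpen {p : X × B | p.2 ∈ L.e w '' ball 0 3 ∧ p.2 ≠ L.ep p.1} := by
    have h1 : IsOpen (L.e w '' ball 0 3) :=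
      L.e_open.preimage (by fun_prop : Continuous fun η : B => ((w, η) : X × B))
    have h2 : IsOpen {p : X × B | p.2 ≠ L.ep p.1} :=
      isOpen_ne_fun continuous_snd ((ep_cont L).comp continuous_fst)
    exact (h1.preimage continuous_snd).inter h2
  have hmem : (x₀, η₀) ∈ {p : X × B | p.2 ∈ L.e w '' ball 0 3 ∧ p.2 ≠ L.ep p.1} :=
    ⟨⟨0, mem_ball0, e_frp _⟩, h0⟩
  have hev := hop.mem_nhds hmem
  have hg : ContinuousAt (fun p : X × B => (((p.1, w), ((0 : E2), ei L w p.2)) :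
      (X × X) × (E2 × E2))) (x₀, η₀) := by
    have h1 : ContinuousAt (fun p : X × B => ei L p.1 p.2) (w, η₀) := by
      refine (inv_cont L).continuousAt ?_
      have h2 := L.e_open.mem_nhds (show (w, η₀) ∈ {p : X × B | p.2 ∈ L.e p.1 '' ball 0 3} from
        ⟨0, mem_ball0, e_frp _⟩)
      refine mem_of_superset h2 ?_
      rintro ⟨a, b⟩ hab
      exact image_mono ball_sub hab
    have h3 : ContinuousAt (fun p : X × B => ei L w p.2) (x₀, η₀) :=
      ContinuousAt.comp (f := fun p : X × B => ((w, p.2) : X × B)) (x := (x₀, η₀)) h1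
        (by fun_prop)
    exact ((continuousAt_fst).prodMk continuousAt_const).prodMk (continuousAt_const.prodMk h3)
  have hval : ei L w η₀ = 0 := by
    have h1 := ei_eq (L := L) (x := w) (u := 0) mem_cball0
    rwa [e_frp] at h1
  have hjc := (jc_co H.f_jc (fun p hp => H.Nd hp) lam k l i j).continuousOn
  have hF : ContinuousAt (fun q : (X × X) × (E2 × E2) => co (Wd lam (ff L D q.1) q.2) k l i j)
      ((x₀, w), ((0 : E2), ei L w η₀)) := by
    refine hjc.continuousAt (H.f_jc.isOpen.mem_nhds ?_)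
    rw [hval]
    exact mem_od_frp h0
  have hc := ContinuousAt.comp (f := fun p : X × B => (((p.1, w), ((0 : E2), ei L w p.2)) :
      (X × X) × (E2 × E2))) (x := (x₀, η₀)) hF hg
  refine hc.congr ?_
  filter_upwards [hev] with p hp
  have h1 : L.e w (ei L w p.2) = p.2 := e_ei (image_mono ball_sub hp.1)
  have h2 := H.VV_eq lam (x := p.1) (y := w) (u := ei L w p.2)
    (ei_mem_ball (r := 3) le_rfl hp.1) (by rw [h1]; exact hp.2)
  rw [h1] at h2
  simp only [Function.comp]
  rw [h2]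

/-- **Lipschitz dependence on the second point** -/
theorem SmB.VV_lip (H : SmB L D) (lam : ℝ) (x : X) (k l i j : Fin 2) :
    ∃ C, ∀ᶠ u in 𝓝 (0 : E2), |co (VV L D lam x (L.e (L.flip x) u)) k l i j
      - co (VV L D lam x (L.em x)) k l i j| ≤ C * ‖u‖ := by
  have hne : ∀ u ∈ closedBall (0 : E2) 3, L.e (L.flip x) u ≠ L.ep x := by
    intro u hu
    rw [L.ep_flip]
    exact L.e_ne _ u hu
  have hz : L.e (L.flip x) 0 = L.em x := by
    rw [L.e_zero, L.ep_flip, L.flip_flip]
  have hmem : ((x, L.flip x), ((0 : E2), (0 : E2))) ∈ od L :=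
    mem_od mem_ball0 mem_ball0 (by rw [L.e_zero]; exact (hne 0 mem_cball0).symm)
  have h1 := jc_sm (jc_co H.f_jc (fun p hp => H.Nd hp) lam k l i j) hmem
  have h2 := h1.right.diff
  obtain ⟨C, hC⟩ := h2.isBigO_sub.bound
  refine ⟨C, ?_⟩
  filter_upwards [hC, isOpen_ball.mem_nhds (mem_ball0 : (0 : E2) ∈ ball (0 : E2) 3)] with u hu hu2
  have e1 := H.VV_eq lam (x := x) (y := L.flip x) (u := u) hu2 (hne u (ball_sub hu2))
  have e2 := H.VV_eq lam (x := x) (y := L.flip x) (u := 0) mem_ball0 (hne 0 mem_cball0)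
  rw [hz] at e2
  rw [e1, e2]
  simpa [Real.norm_eq_abs] using hu

end Vale.Agent.P207.N3.H828
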