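import Vale.Agent.P207.N3.H862.JC
import Vale.Agent.P207.N3.H576.Wten

/-!
# P207, line N3, P12: the tensor of a family of functions depends jointly continuously on the
parameter

`RR f z = Gr q (Gr q m) z` with `q = dp f`, `m = dp (dp f)` is the tensor `Rd f z` as a bilinear map;
if `f` is a family with jointly continuous derivatives (`JC`) and nondegenerate mixed derivative,
then so is `RR`.
-/

noncomputable section

open Set Filter Topology Metric
open scoped ContDiff

set_option maxSynthPendingDepth 3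
set_option linter.unusedSectionVars false

namespace Vale.Agent.P207.N3.H828

open H576

variable {Z : Type} [TopologicalSpace Z]
  {P U M N : Type} [NormedAddCommGroup P] [NormedSpace ℝ P]
  [NormedAddCommGroup U] [NormedSpace ℝ U] [NormedAddCommGroup M] [NormedSpace ℝ M]
  [NormedAddCommGroup N] [NormedSpace ℝ N]

/-- a `JC` family is smooth near the points of the domain -/
theorem jc_sm {f : Z → P → M} {S : Set (Z × P)} (h : JC f S) {p : Z × P} (hp : p ∈ S) :
    Sm (f p.1) p.2 := by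
  have h1 := isOpen_slice h.isOpen p.1
  filter_upwards [h1.mem_nhds (show p.2 ∈ {u | (p.1, u) ∈ S} from hp)] with v hv
  exact h.contDiffAt (p := (p.1, v)) hv

theorem jc_dp {f : Z → P × U → M} {S : Set (Z × (P × U))} (h : JC f S) :
    JC (fun z => dp (f z)) S := by
  have h1 : JC (fun z u => (fderiv ℝ (f z) u) ∘L ContinuousLinearMap.inl ℝ P U) S :=
    h.fderiv.clm ((ContinuousLinearMap.compL ℝ P (P × U) M).flip (ContinuousLinearMap.inl ℝ P U))
  exact h1.congr fun p hp => dp_eq (h.differentiableAt hp)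

theorem jc_du {f : Z → P × U → M} {S : Set (Z × (P × U))} (h : JC f S) :
    JC (fun z => du (f z)) S := by
  have h1 : JC (fun z u => (fderiv ℝ (f z) u) ∘L ContinuousLinearMap.inr ℝ P U) S :=
    h.fderiv.clm ((ContinuousLinearMap.compL ℝ U (P × U) M).flip (ContinuousLinearMap.inr ℝ P U))
  exact h1.congr fun p hp => du_eq (h.differentiableAt hp)

/-- the inverse of operators between two different spaces -/
theorem jc_inverse [CompleteSpace U] {A : Z → P → U →L[ℝ] N} {S : Set (Z × P)} (hA : JC A S)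
    (h : ∀ p ∈ S, (A p.1 p.2).IsInvertible) : JC (fun z u => (A z u).inverse) S := by
  have hU : IsOpen {A : U →L[ℝ] N | A.IsInvertible} := by
    have := ContinuousLinearEquiv.isOpen (𝕜 := ℝ) (E := U) (F := N)
    exact this
  refine hA.comp_contDiffOn (φ := ContinuousLinearMap.inverse) hU (fun A hA' => ?_) h
  obtain ⟨e, rfl⟩ := hA'
  exact (contDiffAt_map_inverse e).contDiffWithinAt

/-- the derivative of `m` with respect to `q` along the second variable -/
def Gr (q : P × U → N) (m : P × U → M) (z : P × U) : N →L[ℝ] M :=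
  (du m z) ∘L (du q z).inverse

theorem Gr_eq (q : P × U → N) (m : P × U → M) (z : P × U) :
    Gr q m z = grad (fun u => q (z.1, u)) (fun u => m (z.1, u)) z.2 := rfl

theorem GrGr_eq (q : P × U → N) (m : P × U → M) (z : P × U) :
    Gr q (Gr q m) z = hess (fun u => q (z.1, u)) (fun u => m (z.1, u)) z.2 := rfl

theorem jc_Gr [CompleteSpace U] {q : Z → P × U → N} {m : Z → P × U → M}
    {S : Set (Z × (P × U))} (hq : JC q S) (hm : JC m S)
    (hi : ∀ p ∈ S, (du (q p.1) p.2).IsInvertible) : JC (fun z => Gr (q z) (m z)) S :=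
  (jc_du hm).clm_comp (jc_inverse (jc_du hq) hi)

/-- the tensor as a bilinear map -/
def RR (f : E2 × E2 → ℝ) (z : E2 × E2) : D2 →L[ℝ] D2 →L[ℝ] Q2 :=
  Gr (dp f) (Gr (dp f) (dp (dp f))) z

theorem Rd_eq_RR (f : E2 × E2 → ℝ) (z : E2 × E2) (y y' : D2) (w w' : E2) :
    Rd f z y y' w w' = RR f z y y' w w' := rfl

theorem jc_RR {f : Z → E2 × E2 → ℝ} {S : Set (Z × (E2 × E2))} (h : JC f S)
    (hi : ∀ p ∈ S, Nd (f p.1) p.2) : JC (fun z => RR (f z)) S :=
  jc_Gr (jc_dp h) (jc_Gr (jc_dp h) (jc_dp (jc_dp h)) hi) hi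

/-- the components of the trace free part -/
theorem jc_co {f : Z → E2 × E2 → ℝ} {S : Set (Z × (E2 × E2))} (h : JC f S)
    (hi : ∀ p ∈ S, Nd (f p.1) p.2) (lam : ℝ) (k l i j : Fin 2) :
    JC (fun z u => co (Wd lam (f z) u) k l i j) S := by
  have h1 := (jc_RR h hi).clm ((ContinuousLinearMap.apply ℝ ℝ (bv j) : (E2 →L[ℝ] ℝ) →L[ℝ] ℝ) ∘L
    (ContinuousLinearMap.apply ℝ (E2 →L[ℝ] ℝ) (bv i) : Q2 →L[ℝ] (E2 →L[ℝ] ℝ)) ∘L
    (ContinuousLinearMap.apply ℝ Q2 (dv l) : (D2 →L[ℝ] Q2) →L[ℝ] Q2) ∘L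
    (ContinuousLinearMap.apply ℝ (D2 →L[ℝ] Q2) (dv k) :
      (D2 →L[ℝ] D2 →L[ℝ] Q2) →L[ℝ] (D2 →L[ℝ] Q2)))
  have h2 := h1.sub (JC.const h.isOpen (lam / 3 * I0 (dv k) (dv l) (bv i) (bv j)))
  exact h2

end Vale.Agent.P207.N3.H828
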