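import Vale.Agent.P207.N3.H828.MA

/-!
# P207, line N3, P12: the tensor `VV` is trace free
-/

noncomputable section

open Set Filter Topology Metric MeasureTheory
open scoped ContDiff

set_option maxSynthPendingDepth 3
set_option linter.unusedSectionVars false

namespace Vale.Agent.P207.N3.H828

open Ten H576
open H442 (Smooth OD)

variable {Γ X B : Type} [Group Γ] [MetricSpace X] [ProperSpace X] [MulAction Γ X]
  [IsIsometricSMul Γ X] [TopologicalSpace B] [CompactSpace B] [T2Space B] [MulAction Γ B]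
  [ContinuousConstSMul Γ B] {L : Leaf Γ X B} [MeasurableSpace B] [BorelSpace B] {A : Area L}

/-- the trace of `Rd` -/
theorem Rd_trace (H : Smooth L A.D) {x y : X} {z : E2 × E2} (hz : z ∈ OD L x y) (v : D2) (w : E2) :
    ∑ i, Rd (ff L A.D (x, y)) z (dv i) v (bv i) w = -A.h * v w := by
  obtain ⟨κ, hκ, h⟩ := monge_ampere H
  have h1 : DifferentiableAt ℝ (nn A x) z.1 :=
    ((nn_smooth H x).contDiffAt (isOpen_ball.mem_nhds hz.1)).differentiableAt (by simp)
  refine trace_of_MA (a := fun a => κ * nn A x a) (b := nn A y) (sm_ff H hz)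
    (h1.const_mul κ) (mul_pos hκ (nn_pos x hz.1)).ne' ?_ ?_ v w
  · filter_upwards [isOpen_ball.mem_nhds hz.2.1] with u hu
    exact (nn_pos y hu).ne'
  · filter_upwards [(isOpen_OD L x y).mem_nhds hz] with c hc
    exact h x y c hc

/-- the trace free part is trace free -/
theorem Wd_trFree' (H : Smooth L A.D) {x y : X} {z : E2 × E2} (hz : z ∈ OD L x y) :
    TrFree (Wd (-A.h) (ff L A.D (x, y)) z) :=
  Wd_trFree (Rd_trace H hz)

/-- **the tensor is trace free** -/
theorem VV_trFree (H : Smooth L A.D) {x : X} {η : B} (h : η ≠ L.ep x) :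
    TrFree (VV L A.D (-A.h) x η) :=
  Wd_trFree' H ⟨mem_ball0, mem_ball0, by simp only; rw [L.e_zero, e_frp]; exact h.symm⟩

theorem SmB.VV_trFree (H : SmB L A.D) {x : X} {η : B} (h : η ≠ L.ep x) :
    TrFree (VV L A.D (-A.h) x η) := H828.VV_trFree H.smooth h

end Vale.Agent.P207.N3.H828
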